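import Mathlib

namespace Vale.Agent.Potts

/-- |z|^2 for a normalised vector -/
noncomputable def xx (a0 a1 : ℝ) : ℝ := 1 - (a0 * a1 + a1 * (3 - a0 - a1) + a0 * (3 - a0 - a1)) / 3
/-- Re z^3 -/
noncomputable def rr (a0 a1 : ℝ) : ℝ := (a0 * a1 * (3 - a0 - a1) - 1 + 3 * xx a0 a1) / 2
noncomputable def zz (a0 a1 a2 b0 b1 b2 : ℝ) : ℝ := (a0 * b0 + a1 * b1 + a2 * b2) / 3
noncomputable def ee (a0 a1 a2 b0 b1 b2 : ℝ) : ℝ :=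
  a0 * b0 * (a1 * b1) + a1 * b1 * (a2 * b2) + a0 * b0 * (a2 * b2)
noncomputable def NN (x y p q : ℝ) : ℝ :=
  (1 - x * y) * (1 - x - y - x * y) + 2 * y * (1 - y) * p + 2 * x * (1 - x) * q

theorem idN (a0 a1 b0 b1 : ℝ) :
    ee a0 a1 (3-a0-a1) b0 b1 (3-b0-b1) * zz a0 a1 (3-a0-a1) b1 (3-b0-b1) b0 * zz a0 a1 (3-a0-a1) (3-b0-b1) b0 b1 +
    ee a0 a1 (3-a0-a1) b1 (3-b0-b1) b0 * zz a0 a1 (3-a0-a1) b0 b1 (3-b0-b1) * zz a0 a1 (3-a0-a1) (3-b0-b1) b0 b1 +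
    ee a0 a1 (3-a0-a1) (3-b0-b1) b0 b1 * zz a0 a1 (3-a0-a1) b0 b1 (3-b0-b1) * zz a0 a1 (3-a0-a1) b1 (3-b0-b1) b0
    = 9 * NN (xx a0 a1) (xx b0 b1) (rr a0 a1) (rr b0 b1) := by
  simp only [ee, zz, NN, xx, rr]
  ring

theorem idD (a0 a1 b0 b1 : ℝ) :
    zz a0 a1 (3-a0-a1) b0 b1 (3-b0-b1) * zz a0 a1 (3-a0-a1) b1 (3-b0-b1) b0 * zz a0 a1 (3-a0-a1) (3-b0-b1) b0 b1 +
    zz a0 a1 (3-a0-a1) b1 b0 (3-b0-b1) * zz a0 a1 (3-a0-a1) (3-b0-b1) b1 b0 * zz a0 a1 (3-a0-a1) b0 (3-b0-b1) b1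
    = 2 * (1 - 3 * (xx a0 a1 * xx b0 b1) + 2 * (rr a0 a1 * rr b0 b1)) := by
  simp only [zz, xx, rr]
  ring

theorem idZZ (a0 a1 b0 b1 : ℝ) :
    zz a0 a1 (3-a0-a1) b1 (3-b0-b1) b0 * zz a0 a1 (3-a0-a1) (3-b0-b1) b0 b1 +
    zz a0 a1 (3-a0-a1) b0 b1 (3-b0-b1) * zz a0 a1 (3-a0-a1) (3-b0-b1) b0 b1 +
    zz a0 a1 (3-a0-a1) b0 b1 (3-b0-b1) * zz a0 a1 (3-a0-a1) b1 (3-b0-b1) b0
    = 3 * (1 - xx a0 a1 * xx b0 b1) := by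
  simp only [zz, xx]
  ring

/-- difference of the two products: `4 J`, J = V(a) V(b) / 108 -/
theorem idJ (a0 a1 b0 b1 : ℝ) :
    zz a0 a1 (3-a0-a1) b0 b1 (3-b0-b1) * zz a0 a1 (3-a0-a1) b1 (3-b0-b1) b0 * zz a0 a1 (3-a0-a1) (3-b0-b1) b0 b1 -
    zz a0 a1 (3-a0-a1) b1 b0 (3-b0-b1) * zz a0 a1 (3-a0-a1) (3-b0-b1) b1 b0 * zz a0 a1 (3-a0-a1) b0 (3-b0-b1) b1
    = (a0 - a1) * (a1 - (3-a0-a1)) * ((3-a0-a1) - a0) * ((b0 - b1) * (b1 - (3-b0-b1)) * ((3-b0-b1) - b0)) / 27 := by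
  simp only [zz]
  ring

/-- `x^3 - R^2 = V^2/108` -/
theorem idV (a0 a1 : ℝ) :
    108 * (xx a0 a1 ^ 3 - rr a0 a1 ^ 2) = ((a0 - a1) * (a1 - (3-a0-a1)) * ((3-a0-a1) - a0)) ^ 2 := by
  simp only [xx, rr]
  ring

end Vale.Agent.Potts
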