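import Mathlib

/-! P154, 3-state Potts model on small trees: functionals of a nonnegative likelihood vector. -/

namespace Vale.Agent.Potts

open Finset

abbrev V3 := Fin 3 → ℝ

/-- mean of the three likelihoods -/
noncomputable def pp (v : V3) : ℝ := (v 0 + v 1 + v 2) / 3

/-- `pp v * |z|^2`, `z` the Fourier coefficient of the normalised vector -/
noncomputable def Ff (v : V3) : ℝ := pp v - (v 0 * v 1 + v 1 * v 2 + v 0 * v 2) / (3 * pp v)

/-- `pp v * Re z^3` -/
noncomputable def Rr (v : V3) : ℝ := (v 0 * v 1 * v 2 / (pp v) ^ 2 - pp v + 3 * Ff v) / 2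

/-- `z` lies in the triangle scaled by `L` -/
def InT (L : ℝ) (v : V3) : Prop := 0 < pp v ∧ ∀ i, (1 - L) * pp v ≤ v i

/-- product of two likelihood vectors, the second one permuted -/
def mul (a b : V3) (π : Equiv.Perm (Fin 3)) : V3 := fun i => a i * b (π i)

/-- the two pointwise inequalities (averages over the six permutations) -/
def PW (L L' t al c : ℝ) : Prop := ∀ a b : V3, InT L a → InT L' b →
  (∑ π : Equiv.Perm (Fin 3), Ff (mul a b π)) / 6 ≤
    Ff a * pp b + pp a * Ff b - t * (Ff a * Ff b) - al * (Rr a * (Ff b - Rr b)) - c * (Rr b * Ff a)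

def PWR (L L' : ℝ) : Prop := ∀ a b : V3, InT L a → InT L' b →
  Rr a * (pp b - Ff b) + Rr b * (pp a - Ff a) ≤ (∑ π : Equiv.Perm (Fin 3), Rr (mul a b π)) / 6

/-- the message sent through the channel -/
noncomputable def msg (lam : ℝ) (v : V3) : V3 := fun i => lam * v i + (1 - lam) * pp v

/-- `S_3`-invariant family of likelihood vectors -/
def Inv {ι : Type} [Fintype ι] (v : ι → V3) : Prop :=
  ∀ (g : V3 → ℝ) (π : Equiv.Perm (Fin 3)), ∑ i, g (v i ∘ π) = ∑ i, g (v i)

end Vale.Agent.Potts
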