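import Mathlib
import Vale.Agent.Potts.Defs

/-! P154: broadcasting on the `d`-ary tree, definitions used in the result. -/

namespace Vale.Agent.Potts

open Finset

/-- The `q`-state Potts channel with nontrivial eigenvalue `lam`: `P(j | i)`. -/
noncomputable def channel (q : ℕ) (lam : ℝ) (i j : Fin q) : ℝ :=
  (if i = j then lam else 0) + (1 - lam) / q

/-- Spin configurations on level `n` of the rooted `d`-ary tree: for `n = 0` the spin of the root,
for `n + 1` one configuration of depth `n` for each of the `d` subtrees at the root. -/
def Conf (q d : ℕ) : ℕ → Type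
  | 0 => Fin q
  | n + 1 => Fin d → Conf q d n

noncomputable instance confFintype (q d : ℕ) : (n : ℕ) → Fintype (Conf q d n)
  | 0 => (inferInstance : Fintype (Fin q))
  | n + 1 => by
    letI := confFintype q d n
    classical
    exact (inferInstance : Fintype (Fin d → Conf q d n))

/-- `leafLaw q d lam n i c` is the probability that the spins of level `n` are `c` given that the
root spin is `i`. -/
noncomputable def leafLaw (q d : ℕ) (lam : ℝ) : (n : ℕ) → Fin q → Conf q d n → ℝ
  | 0, i, c => if (show Fin q from c) = i then 1 else 0
  | n + 1, i, c => ∏ k : Fin d, ∑ j : Fin q, channel q lam i j * leafLaw q d lam n j (c k)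

/-- probability of the level-`n` configuration `c` for a uniform root spin -/
noncomputable def confProb (q d : ℕ) (lam : ℝ) (n : ℕ) (c : Conf q d n) : ℝ :=
  ∑ i : Fin q, (1 / (q : ℝ)) * leafLaw q d lam n i c

/-- posterior probability of the root spin `i` given the level-`n` configuration `c` -/
noncomputable def posterior (q d : ℕ) (lam : ℝ) (n : ℕ) (i : Fin q) (c : Conf q d n) : ℝ :=
  (1 / (q : ℝ)) * leafLaw q d lam n i c / confProb q d lam n c

/-- `a_n`: expected total variation distance between posterior and uniform law of the root spin -/
noncomputable def aSeq (q d : ℕ) (lam : ℝ) (n : ℕ) : ℝ :=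
  ∑ c : Conf q d n, confProb q d lam n c *
    ((1 / 2) * ∑ i : Fin q, |posterior q d lam n i c - 1 / (q : ℝ)|)

end Vale.Agent.Potts
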