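import Mathlib
import Vale.Agent.Potts.Tree

/-! P154, all `d`: the class function `fm` and the pointwise statements. -/

namespace Vale.Agent.Potts

/-- homogeneous version of `D/(1-|z|^2)`, `D` the product of the normalised likelihoods -/
noncomputable def mm (v : V3) : ℝ := 3 * (v 0 * v 1 * v 2) / (v 0 * v 1 + v 1 * v 2 + v 0 * v 2)

/-- class function; equals `pp * (R - x^2) / (1 - x)` -/
noncomputable def fm (v : V3) : ℝ := (mm v - pp v + 2 * Ff v) / 2

/-- strictly positive vector -/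
def Pos (v : V3) : Prop := ∀ i, 0 < v i

/-- main inequality -/
def PWm (L t c al : ℝ) : Prop := ∀ a b : V3, InT L a → Pos b →
  (∑ π : Equiv.Perm (Fin 3), Ff (mul a b π)) / 6 ≤
    Ff a * pp b + pp a * Ff b - t * (Ff a * Ff b) - c * (Ff a * fm b) - al * (fm a * (Ff b - Rr b))

/-- lower bound of the merged information -/
def PWq (L : ℝ) : Prop := ∀ a b : V3, InT L a → Pos b →
  Ff a * pp b + pp a * Ff b - 2 * (Ff a * Ff b) ≤ (∑ π : Equiv.Perm (Fin 3), Ff (mul a b π)) / 6

/-- supermultiplicativity (Jensen) -/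
def PWj : Prop := ∀ a b : V3, Pos a → Pos b →
  mm a * mm b ≤ (∑ π : Equiv.Perm (Fin 3), mm (mul a b π)) / 6

/-- channel step -/
def PWt : Prop := ∀ (lam : ℝ) (v : V3), 0 ≤ lam → lam < 1 → 0 < pp v → (∀ i, 0 ≤ v i) →
  lam ^ 3 * fm v ≤ fm (msg lam v)

end Vale.Agent.Potts
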