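import Mathlib
import Vale.Agent.Potts.Defs

namespace Vale.Agent.Potts

open Finset Equiv

theorem univ_perm3 : (Finset.univ : Finset (Equiv.Perm (Fin 3))) =
    {1, swap 0 1, swap 0 2, swap 1 2, swap 0 1 * swap 1 2, swap 0 2 * swap 1 2} := by
  decide

/-- the six permutations: the first three terms are the rotations -/
theorem sum_perm3 (g : V3 → ℝ) (b : V3) :
    ∑ π : Equiv.Perm (Fin 3), g (fun i => b (π i)) =
      (g ![b 0, b 1, b 2] + g ![b 1, b 2, b 0] + g ![b 2, b 0, b 1]) +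
      (g ![b 1, b 0, b 2] + g ![b 2, b 1, b 0] + g ![b 0, b 2, b 1]) := by
  rw [univ_perm3]
  rw [Finset.sum_insert (by decide), Finset.sum_insert (by decide), Finset.sum_insert (by decide),
    Finset.sum_insert (by decide), Finset.sum_insert (by decide), Finset.sum_singleton]
  have h1 : (fun i => b ((1 : Perm (Fin 3)) i)) = ![b 0, b 1, b 2] := by
    funext i; fin_cases i <;> rfl
  have h2 : (fun i => b ((swap 0 1 : Perm (Fin 3)) i)) = ![b 1, b 0, b 2] := by
    funext i; fin_cases i <;> rfl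
  have h3 : (fun i => b ((swap 0 2 : Perm (Fin 3)) i)) = ![b 2, b 1, b 0] := by
    funext i; fin_cases i <;> rfl
  have h4 : (fun i => b ((swap 1 2 : Perm (Fin 3)) i)) = ![b 0, b 2, b 1] := by
    funext i; fin_cases i <;> rfl
  have h5 : (fun i => b ((swap 0 1 * swap 1 2 : Perm (Fin 3)) i)) = ![b 1, b 2, b 0] := by
    funext i; fin_cases i <;> rfl
  have h6 : (fun i => b ((swap 0 2 * swap 1 2 : Perm (Fin 3)) i)) = ![b 2, b 0, b 1] := by
    funext i; fin_cases i <;> rfl
  rw [h1, h2, h3, h4, h5, h6]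
  ring

/-- `mul` version -/
theorem sum_mul3 (g : V3 → ℝ) (a b : V3) :
    ∑ π : Equiv.Perm (Fin 3), g (mul a b π) =
      (g ![a 0 * b 0, a 1 * b 1, a 2 * b 2] + g ![a 0 * b 1, a 1 * b 2, a 2 * b 0] +
        g ![a 0 * b 2, a 1 * b 0, a 2 * b 1]) +
      (g ![a 0 * b 1, a 1 * b 0, a 2 * b 2] + g ![a 0 * b 2, a 1 * b 1, a 2 * b 0] +
        g ![a 0 * b 0, a 1 * b 2, a 2 * b 1]) := by
  have h := sum_perm3 (fun w => g (fun i => a i * w i)) b
  have e : ∀ u : V3, (fun i => a i * u i) = ![a 0 * u 0, a 1 * u 1, a 2 * u 2] := by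
    intro u; funext i; fin_cases i <;> rfl
  simp only [e] at h
  have e2 : ∀ π : Equiv.Perm (Fin 3), mul a b π = ![a 0 * b (π 0), a 1 * b (π 1), a 2 * b (π 2)] := by
    intro π; funext i; fin_cases i <;> rfl
  simp only [e2]
  exact h

end Vale.Agent.Potts
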