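import Mathlib
import Vale.Agent.Potts.Tree
import Vale.Agent.Potts.Sym

/-! P154, PART A: the framework (from the pointwise inequalities to nonreconstruction). -/

namespace Vale.Agent.Potts

open Finset Filter

/-! ### vectors -/

theorem pp_msg (lam : ℝ) (v : V3) : pp (msg lam v) = pp v := by
  simp only [pp, msg]; ring

theorem Ff_msg (lam : ℝ) (v : V3) (h : pp v ≠ 0) : Ff (msg lam v) = lam ^ 2 * Ff v := by
  have hp : v 2 = 3 * pp v - v 0 - v 1 := by simp only [pp]; ring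
  unfold Ff
  rw [pp_msg]
  simp only [msg]
  rw [hp]
  generalize pp v = p at *
  field_simp
  ring

theorem Rr_msg (lam : ℝ) (v : V3) (h : pp v ≠ 0) : Rr (msg lam v) = lam ^ 3 * Rr v := by
  have hp : v 2 = 3 * pp v - v 0 - v 1 := by simp only [pp]; ring
  unfold Rr Ff
  rw [pp_msg]
  simp only [msg]
  rw [hp]
  generalize pp v = p at *
  field_simp
  ring

theorem Ff_nonneg (v : V3) (h : 0 < pp v) : 0 ≤ Ff v := by
  unfold Ff
  have h1 : (v 0 * v 1 + v 1 * v 2 + v 0 * v 2) / (3 * pp v) ≤ pp v := by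
    rw [div_le_iff₀ (by positivity)]
    have : pp v * (3 * pp v) = (v 0 + v 1 + v 2) ^ 2 / 3 := by simp only [pp]; ring
    rw [this]
    nlinarith [sq_nonneg (v 0 - v 1), sq_nonneg (v 1 - v 2), sq_nonneg (v 0 - v 2)]
  linarith

theorem Ff_le_pp (v : V3) (h : 0 < pp v) (hn : ∀ i, 0 ≤ v i) : Ff v ≤ pp v := by
  unfold Ff
  have h1 : 0 ≤ (v 0 * v 1 + v 1 * v 2 + v 0 * v 2) / (3 * pp v) := by
    have := mul_nonneg (hn 0) (hn 1)
    have := mul_nonneg (hn 1) (hn 2)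
    have := mul_nonneg (hn 0) (hn 2)
    positivity
  linarith

theorem Rr_le_Ff (v : V3) (h : 0 < pp v) (hn : ∀ i, 0 ≤ v i) : Rr v ≤ Ff v := by
  have key : v 0 * v 1 * v 2 / (pp v) ^ 2 ≤ (v 0 * v 1 + v 1 * v 2 + v 0 * v 2) / (3 * pp v) := by
    rw [div_le_div_iff₀ (by positivity) (by positivity)]
    have e : (v 0 * v 1 + v 1 * v 2 + v 0 * v 2) * pp v ^ 2 - v 0 * v 1 * v 2 * (3 * pp v)
        = pp v * ((v 0 * v 1 + v 1 * v 2 + v 0 * v 2) * (v 0 + v 1 + v 2) - 9 * (v 0 * v 1 * v 2)) / 3 := by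
      simp only [pp]; ring
    have e2 : 0 ≤ (v 0 * v 1 + v 1 * v 2 + v 0 * v 2) * (v 0 + v 1 + v 2) - 9 * (v 0 * v 1 * v 2) := by
      nlinarith [mul_nonneg (hn 0) (sq_nonneg (v 1 - v 2)), mul_nonneg (hn 1) (sq_nonneg (v 0 - v 2)),
        mul_nonneg (hn 2) (sq_nonneg (v 0 - v 1))]
    have e3 : 0 ≤ pp v * ((v 0 * v 1 + v 1 * v 2 + v 0 * v 2) * (v 0 + v 1 + v 2) - 9 * (v 0 * v 1 * v 2)) / 3 := by
      positivity
    linarith
  unfold Rr
  unfold Ff
  linarith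

theorem pp_comp (v : V3) (π : Equiv.Perm (Fin 3)) : pp (fun j => v (π j)) = pp v := by
  have h := Equiv.sum_comp π v
  simp only [Fin.sum_univ_three] at h
  simp only [pp]
  rw [h]

theorem msg_comp (lam : ℝ) (v : V3) (π : Equiv.Perm (Fin 3)) :
    msg lam (fun j => v (π j)) = fun j => msg lam v (π j) := by
  funext j
  simp only [msg, pp_comp]

theorem msg_InT {lam L : ℝ} (h0 : 0 ≤ lam) (hL : lam ≤ L) (v : V3) (hp : 0 < pp v)
    (hn : ∀ i, 0 ≤ v i) : InT L (msg lam v) := by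
  refine ⟨by rw [pp_msg]; exact hp, fun i => ?_⟩
  rw [pp_msg]
  have h1 := mul_nonneg h0 (hn i)
  simp only [msg]
  nlinarith

theorem msg_nonneg {lam : ℝ} (h0 : 0 ≤ lam) (h1 : lam ≤ 1) (v : V3) (hp : 0 < pp v)
    (hn : ∀ i, 0 ≤ v i) (i : Fin 3) : 0 ≤ msg lam v i := by
  have := mul_nonneg h0 (hn i)
  have : 0 ≤ (1 - lam) * pp v := mul_nonneg (by linarith) hp.le
  simp only [msg]
  linarith

/-! ### good families -/

structure Good {ι : Type} [Fintype ι] (v : ι → V3) : Prop where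
  nn : ∀ i j, 0 ≤ v i j
  pos : ∀ i, 0 < pp (v i)
  tot : ∑ i, pp (v i) = 1
  eqv : ∀ π : Equiv.Perm (Fin 3), ∃ σ : ι ≃ ι, ∀ i, v (σ i) = fun j => v i (π j)
  T : 0 ≤ ∑ i, Rr (v i)

variable {ι κ : Type} [Fintype ι] [Fintype κ]

noncomputable def XX (v : ι → V3) : ℝ := ∑ i, Ff (v i)

theorem Good.X_nonneg {v : ι → V3} (h : Good v) : 0 ≤ XX v :=
  Finset.sum_nonneg fun i _ => Ff_nonneg _ (h.pos i)

theorem Good.X_le_one {v : ι → V3} (h : Good v) : XX v ≤ 1 := by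
  rw [← h.tot]
  exact Finset.sum_le_sum fun i _ => Ff_le_pp _ (h.pos i) (h.nn i)

theorem Good.T_le_X {v : ι → V3} (h : Good v) : ∑ i, Rr (v i) ≤ XX v :=
  Finset.sum_le_sum fun i _ => Rr_le_Ff _ (h.pos i) (h.nn i)

theorem Good.msg {v : ι → V3} (h : Good v) {lam : ℝ} (h0 : 0 ≤ lam) (h1 : lam ≤ 1) :
    Good (fun i => msg lam (v i)) where
  nn := fun i j => msg_nonneg h0 h1 _ (h.pos i) (h.nn i) j
  pos := fun i => by rw [pp_msg]; exact h.pos i
  tot := by simp only [pp_msg]; exact h.tot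
  eqv := fun π => by
    obtain ⟨σ, hσ⟩ := h.eqv π
    exact ⟨σ, fun i => by rw [hσ i, msg_comp]⟩
  T := by
    have : ∀ i, Rr (Vale.Agent.Potts.msg lam (v i)) = lam ^ 3 * Rr (v i) := fun i =>
      Rr_msg lam _ (h.pos i).ne'
    simp only [this, ← Finset.mul_sum]
    exact mul_nonneg (by positivity) h.T

theorem XX_msg {v : ι → V3} (h : Good v) (lam : ℝ) :
    XX (fun i => msg lam (v i)) = lam ^ 2 * XX v := by
  unfold XX
  rw [Finset.mul_sum]
  exact Finset.sum_congr rfl fun i _ => Ff_msg lam _ (h.pos i).ne'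

/-- product family -/
def prodFam (a : ι → V3) (b : κ → V3) : ι × κ → V3 := fun x j => a x.1 j * b x.2 j

theorem sum_prodFam (a : ι → V3) (b : κ → V3) (hb : Good b) (g : V3 → ℝ) :
    ∑ x, g (prodFam a b x) = ∑ i, ∑ k, (∑ π : Equiv.Perm (Fin 3), g (mul (a i) (b k) π)) / 6 := by
  rw [Fintype.sum_prod_type]
  refine Finset.sum_congr rfl fun i _ => ?_
  have h1 : ∀ π : Equiv.Perm (Fin 3), ∑ k, g (mul (a i) (b k) π) = ∑ k, g (prodFam a b (i, k)) := by
    intro π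
    obtain ⟨σ, hσ⟩ := hb.eqv π
    rw [← Equiv.sum_comp σ (fun k => g (prodFam a b (i, k)))]
    refine Finset.sum_congr rfl fun k _ => ?_
    congr 1
    funext j
    simp only [mul, prodFam, hσ k]
  rw [← Finset.sum_div, Finset.sum_comm]
  simp only [h1]
  rw [Finset.sum_const, Finset.card_univ, Fintype.card_perm, Fintype.card_fin]
  simp [Nat.factorial]

theorem avg_pp (a b : V3) : (∑ π : Equiv.Perm (Fin 3), pp (mul a b π)) / 6 = pp a * pp b := by
  rw [sum_mul3]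
  simp only [pp, Matrix.cons_val_zero, Matrix.cons_val_one, Matrix.cons_val]
  ring

theorem InT_pos {L : ℝ} (hL : L < 1) {v : V3} (h : InT L v) (i : Fin 3) : 0 < v i :=
  lt_of_lt_of_le (mul_pos (by linarith) h.1) (h.2 i)

theorem sum_mul_sum' (f : ι → ℝ) (g : κ → ℝ) :
    ∑ i, ∑ k, f i * g k = (∑ i, f i) * ∑ k, g k := by
  rw [Finset.sum_mul_sum]

theorem merge {L L' t al c : ℝ} (hL : L < 1) (hL' : L' < 1) (hal : 0 ≤ al) (hc : 0 ≤ c)
    (h1 : PW L L' t al c) (h2 : PWR L L') {a : ι → V3} {b : κ → V3} (ha : Good a) (hb : Good b)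
    (ia : ∀ i, InT L (a i)) (ib : ∀ k, InT L' (b k)) :
    Good (prodFam a b) ∧ XX (prodFam a b) ≤ XX a + XX b - t * (XX a * XX b) := by
  have hpos : ∀ x j, 0 < prodFam a b x j := fun x j =>
    mul_pos (InT_pos hL (ia x.1) j) (InT_pos hL' (ib x.2) j)
  have hXa := ha.X_nonneg
  have hXb := hb.X_nonneg
  have hXa1 := ha.X_le_one
  have hXb1 := hb.X_le_one
  refine ⟨⟨fun x j => (hpos x j).le, fun x => ?_, ?_, fun π => ?_, ?_⟩, ?_⟩
  · have := hpos x 0
    have := hpos x 1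
    have := hpos x 2
    unfold pp
    positivity
  · rw [sum_prodFam a b hb]
    simp only [avg_pp]
    rw [sum_mul_sum', ha.tot, hb.tot, one_mul]
  · obtain ⟨σ, hσ⟩ := ha.eqv π
    obtain ⟨τ, hτ⟩ := hb.eqv π
    refine ⟨Equiv.prodCongr σ τ, fun x => ?_⟩
    funext j
    simp only [prodFam, Equiv.prodCongr_apply, Prod.map_apply', hσ, hτ]
  · rw [sum_prodFam a b hb]
    have h3 : ∑ i, ∑ k, (Rr (a i) * (pp (b k) - Ff (b k)) + Rr (b k) * (pp (a i) - Ff (a i))) ≤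
        ∑ i, ∑ k, (∑ π : Equiv.Perm (Fin 3), Rr (mul (a i) (b k) π)) / 6 :=
      Finset.sum_le_sum fun i _ => Finset.sum_le_sum fun k _ => h2 _ _ (ia i) (ib k)
    refine le_trans ?_ h3
    have h4 : ∑ i, ∑ k, (Rr (a i) * (pp (b k) - Ff (b k)) + Rr (b k) * (pp (a i) - Ff (a i))) =
        (∑ i, Rr (a i)) * (1 - XX b) + (1 - XX a) * ∑ k, Rr (b k) := by
      simp only [Finset.sum_add_distrib]
      rw [sum_mul_sum']
      have : ∀ i k, Rr (b k) * (pp (a i) - Ff (a i)) = (pp (a i) - Ff (a i)) * Rr (b k) :=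
        fun i k => mul_comm _ _
      simp only [this]
      rw [sum_mul_sum', Finset.sum_sub_distrib, Finset.sum_sub_distrib, ha.tot, hb.tot]
      rfl
    rw [h4]
    exact add_nonneg (mul_nonneg ha.T (by linarith)) (mul_nonneg (by linarith) hb.T)
  · have h5 : XX (prodFam a b) ≤ ∑ i, ∑ k, (Ff (a i) * pp (b k) + pp (a i) * Ff (b k) -
        t * (Ff (a i) * Ff (b k)) - al * (Rr (a i) * (Ff (b k) - Rr (b k))) -
        c * (Rr (b k) * Ff (a i))) := by
      unfold XX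
      rw [sum_prodFam a b hb]
      exact Finset.sum_le_sum fun i _ => Finset.sum_le_sum fun k _ => h1 _ _ (ia i) (ib k)
    have h6 : ∑ i, ∑ k, (Ff (a i) * pp (b k) + pp (a i) * Ff (b k) -
        t * (Ff (a i) * Ff (b k)) - al * (Rr (a i) * (Ff (b k) - Rr (b k))) -
        c * (Rr (b k) * Ff (a i))) =
        XX a * 1 + 1 * XX b - t * (XX a * XX b) - al * ((∑ i, Rr (a i)) * (XX b - ∑ k, Rr (b k))) -
        c * (XX a * ∑ k, Rr (b k)) := by
      have : ∀ i k, Rr (b k) * Ff (a i) = Ff (a i) * Rr (b k) := fun i k => mul_comm _ _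
      simp only [this, Finset.sum_sub_distrib, Finset.sum_add_distrib, ← Finset.mul_sum]
      simp only [← Finset.mul_sum, ← Finset.sum_mul]
      rw [ha.tot, hb.tot]
      unfold XX
      simp only [← Finset.mul_sum, ← Finset.sum_mul, Finset.sum_sub_distrib]
    rw [h6] at h5
    have h7 : 0 ≤ al * ((∑ i, Rr (a i)) * (XX b - ∑ k, Rr (b k))) :=
      mul_nonneg hal (mul_nonneg ha.T (by linarith [hb.T_le_X]))
    have h8 : 0 ≤ c * (XX a * ∑ k, Rr (b k)) := mul_nonneg hc (mul_nonneg hXa hb.T)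
    linarith

end Vale.Agent.Potts
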