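import Mathlib
import Vale.Agent.Potts.All
import Vale.Agent.Potts.PartA

/-! P154: the class function `fm` for small antiferromagnetic channels. -/

namespace Vale.Agent.Potts

open Finset

theorem Ff_lt_pp (v : V3) (hv : Pos v) : 0 < pp v ∧ Ff v < pp v := by
  have h0 := hv 0
  have h1 := hv 1
  have h2 := hv 2
  have hp : 0 < pp v := by unfold pp; positivity
  refine ⟨hp, ?_⟩
  unfold Ff
  have : 0 < (v 0 * v 1 + v 1 * v 2 + v 0 * v 2) / (3 * pp v) := by positivity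
  linarith

theorem fm_eq_pos (v : V3) (hv : Pos v) :
    fm v = (pp v * Rr v - Ff v ^ 2) / (pp v - Ff v) := by
  obtain ⟨hp, hF⟩ := Ff_lt_pp v hv
  have h0 := hv 0
  have h1 := hv 1
  have h2 := hv 2
  have hE : 0 < v 0 * v 1 + v 1 * v 2 + v 0 * v 2 := by positivity
  have e1 : v 0 * v 1 + v 1 * v 2 + v 0 * v 2 = 3 * pp v * (pp v - Ff v) := by
    unfold Ff
    field_simp
    ring
  have e2 : v 0 * v 1 * v 2 = pp v ^ 2 * (2 * Rr v + pp v - 3 * Ff v) := by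
    unfold Rr
    field_simp
    ring
  unfold fm mm
  rw [e1, e2]
  have hpF : pp v - Ff v ≠ 0 := by linarith
  have hp' := hp.ne'
  generalize pp v = p at *
  generalize Ff v = F at *
  generalize Rr v = R at *
  field_simp
  ring

theorem fm_le_Rr (v : V3) (hv : Pos v) : fm v ≤ Rr v := by
  obtain ⟨hp, hF⟩ := Ff_lt_pp v hv
  have hR := Rr_le_Ff v hp fun i => (hv i).le
  have hF0 := Ff_nonneg v hp
  rw [fm_eq_pos v hv, div_le_iff₀ (by linarith)]
  have := mul_le_mul_of_nonneg_left hR hF0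
  nlinarith

/-- antiferromagnetic channel step -/
theorem fm_msg_neg {lam L : ℝ} (h0 : -L ≤ lam) (h1 : lam ≤ 0) (hL : L < 1 / 2) (v : V3)
    (hp : 0 < pp v) (hv : ∀ i, 0 ≤ v i) :
    Pos (msg lam v) ∧ -(L / (1 - L)) * Ff (msg lam v) ≤ fm (msg lam v) := by
  have hpos : Pos (msg lam v) := by
    intro i
    have hle : v i ≤ 3 * pp v := by
      have a0 := hv 0
      have a1 := hv 1
      have a2 := hv 2
      fin_cases i <;> simp only [pp] <;> simp <;> linarith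
    simp only [msg]
    have : lam * (3 * pp v) ≤ lam * v i := mul_le_mul_of_nonpos_left hle h1
    nlinarith
  refine ⟨hpos, ?_⟩
  obtain ⟨hp1, hF1⟩ := Ff_lt_pp _ hpos
  rw [fm_eq_pos _ hpos]
  have hF := Ff_nonneg v hp
  have hFp := Ff_le_pp v hp hv
  have hR := Rr_le_Ff v hp hv
  rw [pp_msg] at *
  rw [Ff_msg lam v hp.ne'] at *
  rw [Rr_msg lam v hp.ne']
  rw [le_div_iff₀ (by linarith)]
  generalize pp v = p at *
  generalize Ff v = F at *
  generalize Rr v = R at *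
  have key : ∀ l : ℝ, 0 ≤ l → l ≤ L → l ^ 2 * F < p →
      -(L / (1 - L)) * (l ^ 2 * F) * (p - l ^ 2 * F) ≤ p * (-l ^ 3 * R) - (l ^ 2 * F) ^ 2 := by
    intro l hl0 hlL hF1
    have hL1 : 0 < 1 - L := by linarith
    have hl1 : 0 < 1 - l := by linarith
    have hk : l / (1 - l) ≤ L / (1 - L) := by
      rw [div_le_div_iff₀ hl1 hL1]; nlinarith
    have hl2F : 0 ≤ l ^ 2 * F := by positivity
    have h3 : 0 ≤ l ^ 2 * F * (p - l ^ 2 * F) := mul_nonneg hl2F (by linarith)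
    have h4 : l / (1 - l) * (l ^ 2 * F * (p - l ^ 2 * F)) ≤
        L / (1 - L) * (l ^ 2 * F * (p - l ^ 2 * F)) := mul_le_mul_of_nonneg_right hk h3
    have h5 : p * (l ^ 3 * R) ≤ p * (l ^ 3 * F) :=
      mul_le_mul_of_nonneg_left (mul_le_mul_of_nonneg_left hR (by positivity)) hp.le
    have h6 : l ^ 3 * F * p + (l ^ 2 * F) ^ 2 ≤ l / (1 - l) * (l ^ 2 * F * (p - l ^ 2 * F)) := by
      rw [div_mul_eq_mul_div, le_div_iff₀ hl1]
      have : l * (l ^ 2 * F * (p - l ^ 2 * F)) - (l ^ 3 * F * p + (l ^ 2 * F) ^ 2) * (1 - l) =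
          l ^ 4 * F * (p - F) := by ring
      have h7 : 0 ≤ l ^ 4 * F * (p - F) := mul_nonneg (by positivity) (by linarith)
      linarith
    nlinarith
  have h := key (-lam) (by linarith) (by linarith) (by rw [neg_sq]; exact hF1)
  rw [neg_sq] at h
  have e : -(-lam) ^ 3 * R = lam ^ 3 * R := by ring
  rw [e] at h
  exact h

/-- closure of the class `-kap * X ≤ f` under merging (real numbers) -/
theorem class_closure {kap X1 X2 X12 f1 f2 M1 M2 M12 f12 : ℝ} (hk : 0 ≤ kap)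
    (hX1 : 0 ≤ X1) (hX1' : 2 * (1 + kap) * X1 ≤ 1) (hX2 : 0 ≤ X2)
    (hM1 : M1 = 1 - 2 * X1 + 2 * f1) (hM2 : M2 = 1 - 2 * X2 + 2 * f2) (hM2' : 0 ≤ M2)
    (hf1 : -kap * X1 ≤ f1) (hf2 : -kap * X2 ≤ f2) (hM12 : M12 = 1 - 2 * X12 + 2 * f12)
    (hj : M1 * M2 ≤ M12) (hq : X1 + X2 - 2 * (X1 * X2) ≤ X12) : -kap * X12 ≤ f12 := by
  have h1 : 0 ≤ 1 - 2 * (1 + kap) * X1 := by linarith
  have h2 : 1 - 2 * (1 + kap) * X1 ≤ M1 := by linarith
  have h3 : 1 - 2 * (1 + kap) * X2 ≤ M2 := by linarith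
  have h4 : (1 - 2 * (1 + kap) * X1) * (1 - 2 * (1 + kap) * X2) ≤ M1 * M2 := by
    calc _ ≤ (1 - 2 * (1 + kap) * X1) * M2 := mul_le_mul_of_nonneg_left h3 h1
      _ ≤ M1 * M2 := mul_le_mul_of_nonneg_right h2 hM2'
  have h5 : (1 + kap) * (X1 + X2 - 2 * (X1 * X2)) ≤ (1 + kap) * X12 :=
    mul_le_mul_of_nonneg_left hq (by linarith)
  have h6 : 0 ≤ kap * (1 + kap) * (X1 * X2) := by positivity
  nlinarith

end Vale.Agent.Potts
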