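import Mathlib
import Vale.Agent.Potts.Tree

/-! P154: broadcasting on Galton-Watson trees, definitions used in the result. -/

namespace Vale.Agent.Potts

open Finset

/-- Rooted ordered trees cut at depth `n`: for `n = 0` a single vertex, for `n + 1` the number `k`
of children of the root and, for each child, the subtree below it cut at depth `n`. -/
def Tr : ℕ → Type
  | 0 => Unit
  | n + 1 => Σ k : ℕ, (Fin k → Tr n)

/-- Spin configurations on the vertices at distance `n` from the root of `t`. -/
def TConf (q : ℕ) : (n : ℕ) → Tr n → Type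
  | 0, _ => Fin q
  | n + 1, ⟨k, ch⟩ => (i : Fin k) → TConf q n (ch i)

noncomputable instance tconfFintype (q : ℕ) : (n : ℕ) → (t : Tr n) → Fintype (TConf q n t)
  | 0, _ => (inferInstance : Fintype (Fin q))
  | n + 1, ⟨k, ch⟩ => by
    letI : ∀ i, Fintype (TConf q n (ch i)) := fun i => tconfFintype q n (ch i)
    classical
    exact (inferInstance : Fintype ((i : Fin k) → TConf q n (ch i)))

/-- `tLaw q lam n t i c`: probability of the level-`n` spins `c` on the tree `t` given that the
root spin is `i`. -/
noncomputable def tLaw (q : ℕ) (lam : ℝ) : (n : ℕ) → (t : Tr n) → Fin q → TConf q n t → ℝ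
  | 0, _, i, c => if (show Fin q from c) = i then 1 else 0
  | n + 1, ⟨k, ch⟩, i, c =>
      ∏ m : Fin k, ∑ j : Fin q, channel q lam i j * tLaw q lam n (ch m) j (c m)

/-- probability of the level-`n` spins `c` on the tree `t` for a uniform root spin -/
noncomputable def tProb (q : ℕ) (lam : ℝ) (n : ℕ) (t : Tr n) (c : TConf q n t) : ℝ :=
  ∑ i : Fin q, (1 / (q : ℝ)) * tLaw q lam n t i c

/-- posterior probability of the root spin `i` given the tree `t` and the level-`n` spins `c` -/
noncomputable def tPost (q : ℕ) (lam : ℝ) (n : ℕ) (t : Tr n) (i : Fin q) (c : TConf q n t) : ℝ :=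
  (1 / (q : ℝ)) * tLaw q lam n t i c / tProb q lam n t c

/-- expectation, given the tree `t`, of the total variation distance between the posterior and the
uniform law of the root spin -/
noncomputable def aTree (q : ℕ) (lam : ℝ) (n : ℕ) (t : Tr n) : ℝ :=
  ∑ c : TConf q n t, tProb q lam n t c *
    ((1 / 2) * ∑ i : Fin q, |tPost q lam n t i c - 1 / (q : ℝ)|)

/-- probability that the Galton-Watson tree with offspring law `p`, cut at depth `n`, is `t` -/
noncomputable def treeProb (p : ℕ → ℝ) : (n : ℕ) → Tr n → ℝ
  | 0, _ => 1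
  | n + 1, ⟨k, ch⟩ => p k * ∏ i : Fin k, treeProb p n (ch i)

/-- `a_n` for the Galton-Watson tree with offspring law `p` -/
noncomputable def aGW (q : ℕ) (p : ℕ → ℝ) (lam : ℝ) (n : ℕ) : ℝ :=
  ∑' t : Tr n, treeProb p n t * aTree q lam n t

end Vale.Agent.Potts
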