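import Mathlib
import Vale.Agent.Potts.Sym
import Vale.Agent.Potts.Alg
import Vale.Agent.Potts.All

/-! Lower bounds of the merged information on the WHOLE triangle, by
`|w|^2 / Z >= 2 Re (c w) - |c|^2 Z` with `c = al z_a + be z_b`. -/

namespace Vale.Agent.Potts

open Finset

/-- bilinear form -/
noncomputable def BB (c0 c1 c2 u0 u1 u2 : ℝ) : ℝ :=
  c0 * u0 + c1 * u1 + c2 * u2 -
    (c0 * u1 + c1 * u0 + c1 * u2 + c2 * u1 + c0 * u2 + c2 * u0) / 2

theorem Ff_test (k u0 u1 u2 c0 c1 c2 : ℝ) (hk : 0 < k) (hZ : 0 < (u0 + u1 + u2) / 3) :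
    k * ((2 * BB c0 c1 c2 u0 u1 u2 - (u0 + u1 + u2) / 3 * BB c0 c1 c2 c0 c1 c2) / 9) ≤
      Ff ![k * u0, k * u1, k * u2] := by
  have h1 : Ff ![k * u0, k * u1, k * u2] =
      (k * u0 + k * u1 + k * u2) / 3 -
        (k * u0 * (k * u1) + k * u1 * (k * u2) + k * u0 * (k * u2)) /
          (3 * ((k * u0 + k * u1 + k * u2) / 3)) := by
    simp [Ff, pp, Matrix.cons_val_two]
  obtain ⟨Z, hZd⟩ : ∃ Z, Z = (u0 + u1 + u2) / 3 := ⟨_, rfl⟩
  have h2 : (k * u0 + k * u1 + k * u2) / 3 = k * Z := by rw [hZd]; ring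
  rw [← hZd] at hZ ⊢
  rw [h1, h2]
  have h3 : k * Z - (k * u0 * (k * u1) + k * u1 * (k * u2) + k * u0 * (k * u2)) / (3 * (k * Z)) -
      k * ((2 * BB c0 c1 c2 u0 u1 u2 - Z * BB c0 c1 c2 c0 c1 c2) / 9) =
      k * (((9 * Z ^ 2 - 3 * (u0 * u1 + u1 * u2 + u0 * u2)) -
        2 * Z * BB c0 c1 c2 u0 u1 u2 + Z ^ 2 * BB c0 c1 c2 c0 c1 c2) / (9 * Z)) := by
    field_simp
    ring
  have h4 : (9 * Z ^ 2 - 3 * (u0 * u1 + u1 * u2 + u0 * u2)) -
        2 * Z * BB c0 c1 c2 u0 u1 u2 + Z ^ 2 * BB c0 c1 c2 c0 c1 c2 =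
      (((u0 - Z * c0) - (u1 - Z * c1)) ^ 2 + ((u1 - Z * c1) - (u2 - Z * c2)) ^ 2 +
        ((u0 - Z * c0) - (u2 - Z * c2)) ^ 2) / 2 := by
    have : 9 * Z ^ 2 = (u0 + u1 + u2) ^ 2 := by rw [hZd]; ring
    rw [this]
    simp only [BB]
    ring
  rw [h4] at h3
  have h5 : 0 ≤ k * ((((u0 - Z * c0) - (u1 - Z * c1)) ^ 2 + ((u1 - Z * c1) - (u2 - Z * c2)) ^ 2 +
        ((u0 - Z * c0) - (u2 - Z * c2)) ^ 2) / 2 / (9 * Z)) := by positivity
  linarith

/-- the polynomial identity behind the lower bound -/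
theorem test_id (al be a0 a1 b0 b1 : ℝ) :
    (let a2 := 3 - a0 - a1; let b2 := 3 - b0 - b1
     let t := fun c0 c1 c2 : ℝ =>
      (2 * BB (al * a0 + be * c0) (al * a1 + be * c1) (al * a2 + be * c2) (a0 * c0) (a1 * c1)
        (a2 * c2) - (a0 * c0 + a1 * c1 + a2 * c2) / 3 *
        BB (al * a0 + be * c0) (al * a1 + be * c1) (al * a2 + be * c2) (al * a0 + be * c0)
          (al * a1 + be * c1) (al * a2 + be * c2)) / 9
     (t b0 b1 b2 + t b1 b2 b0 + t b2 b0 b1) + (t b1 b0 b2 + t b2 b1 b0 + t b0 b2 b1)) =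
    6 * (2 * al * xx a0 a1 + 2 * be * xx b0 b1 - al ^ 2 * xx a0 a1 - be ^ 2 * xx b0 b1 -
      2 * al * be * (xx a0 a1 * xx b0 b1)) := by
  simp only [BB, xx]
  ring

/-- general lower bound; `a` nonnegative, `b` positive -/
theorem pw_test (al be : ℝ) (a b : V3) (ha : InT 1 a) (hb : Pos b) :
    (2 * al - al ^ 2) * (Ff a * pp b) + (2 * be - be ^ 2) * (pp a * Ff b) -
      2 * al * be * (Ff a * Ff b) ≤ (∑ π : Equiv.Perm (Fin 3), Ff (mul a b π)) / 6 := by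
  obtain ⟨hP, ha⟩ := ha
  have hQ : 0 < pp b := by
    have h0 := hb 0
    have h1 := hb 1
    have h2 := hb 2
    simp only [pp]; positivity
  obtain ⟨P, hPd⟩ : ∃ P, P = pp a := ⟨_, rfl⟩
  obtain ⟨Q, hQd⟩ : ∃ Q, Q = pp b := ⟨_, rfl⟩
  rw [← hPd] at hP ha ⊢
  rw [← hQd] at hQ ⊢
  obtain ⟨a0, h0⟩ : ∃ a0, a 0 = P * a0 := ⟨a 0 / P, by field_simp⟩
  obtain ⟨a1, h1⟩ : ∃ a1, a 1 = P * a1 := ⟨a 1 / P, by field_simp⟩
  obtain ⟨b0, g0⟩ : ∃ b0, b 0 = Q * b0 := ⟨b 0 / Q, by field_simp⟩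
  obtain ⟨b1, g1⟩ : ∃ b1, b 1 = Q * b1 := ⟨b 1 / Q, by field_simp⟩
  have h2 : a 2 = P * (3 - a0 - a1) := by
    have : P = (a 0 + a 1 + a 2) / 3 := hPd
    linarith
  have g2 : b 2 = Q * (3 - b0 - b1) := by
    have : Q = (b 0 + b 1 + b 2) / 3 := hQd
    linarith
  have ca : ∀ t i, a i = P * t → 0 ≤ t := by
    intro t i h
    have := ha i
    rw [h] at this
    exact le_of_mul_le_mul_left (by linarith) hP
  have cb : ∀ t i, b i = Q * t → 0 < t := by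
    intro t i h
    have := hb i
    rw [h] at this
    exact (mul_pos_iff_of_pos_left hQ).1 this
  have pa0 := ca a0 0 h0
  have pa1 := ca a1 1 h1
  have pa2 := ca _ 2 h2
  have pb0 := cb b0 0 g0
  have pb1 := cb b1 1 g1
  have pb2 := cb _ 2 g2
  have fFa : Ff a = P * xx a0 a1 := by
    simp only [Ff, ← hPd, h0, h1, h2, xx]
    field_simp
  have fFb : Ff b = Q * xx b0 b1 := by
    simp only [Ff, ← hQd, g0, g1, g2, xx]
    field_simp
  have hPQ : 0 < P * Q := mul_pos hP hQ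
  have term : ∀ c0 c1 c2 : ℝ, 0 < c0 → 0 < c1 → 0 < c2 →
      P * Q * ((2 * BB (al * a0 + be * c0) (al * a1 + be * c1) (al * (3 - a0 - a1) + be * c2)
        (a0 * c0) (a1 * c1) ((3 - a0 - a1) * c2) -
        (a0 * c0 + a1 * c1 + (3 - a0 - a1) * c2) / 3 *
        BB (al * a0 + be * c0) (al * a1 + be * c1) (al * (3 - a0 - a1) + be * c2)
          (al * a0 + be * c0) (al * a1 + be * c1) (al * (3 - a0 - a1) + be * c2)) / 9) ≤
      Ff ![P * a0 * (Q * c0), P * a1 * (Q * c1), P * (3 - a0 - a1) * (Q * c2)] := by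
    intro c0 c1 c2 k0 k1 k2
    have e : ![P * a0 * (Q * c0), P * a1 * (Q * c1), P * (3 - a0 - a1) * (Q * c2)] =
        ![(P * Q) * (a0 * c0), (P * Q) * (a1 * c1), (P * Q) * ((3 - a0 - a1) * c2)] := by
      congr 1
      · ring
      · congr 1
        · ring
        · congr 1
          ring
    have hZ : 0 < (a0 * c0 + a1 * c1 + (3 - a0 - a1) * c2) / 3 := by
      have m0 := mul_nonneg pa0 k0.le
      have m1 := mul_nonneg pa1 k1.le
      have m2 := mul_nonneg pa2 k2.le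
      rcases lt_or_ge 0 a0 with q | q
      · have := mul_pos q k0; linarith
      · rcases lt_or_ge 0 a1 with q' | q'
        · have := mul_pos q' k1; linarith
        · have : 0 < 3 - a0 - a1 := by linarith
          have := mul_pos this k2; linarith
    rw [e]
    exact Ff_test _ _ _ _ _ _ _ hPQ hZ
  have hid := test_id al be a0 a1 b0 b1
  simp only at hid
  rw [sum_mul3, h0, h1, h2, g0, g1, g2, fFa, fFb]
  have t1 := term b0 b1 (3-b0-b1) pb0 pb1 pb2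
  have t2 := term b1 (3-b0-b1) b0 pb1 pb2 pb0
  have t3 := term (3-b0-b1) b0 b1 pb2 pb0 pb1
  have t4 := term b1 b0 (3-b0-b1) pb1 pb0 pb2
  have t5 := term (3-b0-b1) b1 b0 pb2 pb1 pb0
  have t6 := term b0 (3-b0-b1) b1 pb0 pb2 pb1
  have hid2 := congrArg (fun z => P * Q * z) hid
  simp only [mul_add] at hid2
  have e1 : P * Q * (6 * (2 * al * xx a0 a1 + 2 * be * xx b0 b1 - al ^ 2 * xx a0 a1 -
      be ^ 2 * xx b0 b1 - 2 * al * be * (xx a0 a1 * xx b0 b1))) =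
      6 * ((2 * al - al ^ 2) * (P * xx a0 a1 * Q) + (2 * be - be ^ 2) * (P * (Q * xx b0 b1)) -
      2 * al * be * (P * xx a0 a1 * (Q * xx b0 b1))) := by ring
  rw [← mul_add, ← mul_add, ← mul_add, ← mul_add] at hid2
  linarith

/-- whole triangle times whole triangle -/
theorem pwq1 : PWq 1 := by
  intro a b ha hb
  have := pw_test 1 1 a b ha hb
  linarith

/-- hence for every `L ≤ 1` -/
theorem pwq_of_le {L : ℝ} (hL : L ≤ 1) : PWq L := by
  intro a b ha hb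
  refine pwq1 a b ⟨ha.1, fun i => ?_⟩ hb
  have h := ha.2 i
  have hp := ha.1
  nlinarith

/-- merging does not lose information: first factor -/
theorem pw_mono_left (a b : V3) (ha : InT 1 a) (hb : Pos b) :
    Ff a * pp b ≤ (∑ π : Equiv.Perm (Fin 3), Ff (mul a b π)) / 6 := by
  have := pw_test 1 0 a b ha hb
  linarith

/-- merging does not lose information: second factor -/
theorem pw_mono_right (a b : V3) (ha : InT 1 a) (hb : Pos b) :
    pp a * Ff b ≤ (∑ π : Equiv.Perm (Fin 3), Ff (mul a b π)) / 6 := by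
  have := pw_test 0 1 a b ha hb
  linarith

end Vale.Agent.Potts
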