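import Mathlib
import Vale.Agent.Potts.GWDefs
import Vale.Agent.Potts.Anti
import Vale.Agent.Potts.PwqAll

/-! P154: merging of messages for arbitrary finite trees (class `-kap * X ≤ f`). -/

namespace Vale.Agent.Potts

open Finset

/-- good families of positive vectors -/
structure GoodM (kap : ℝ) {ι : Type} [Fintype ι] (v : ι → V3) : Prop where
  ps : ∀ i, Pos (v i)
  tot : ∑ i, pp (v i) = 1
  eqv : ∀ π : Equiv.Perm (Fin 3), ∃ σ : ι ≃ ι, ∀ i, v (σ i) = fun j => v i (π j)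
  cls : -kap * XX v ≤ ∑ i, fm (v i)

/-- good families of nonnegative vectors -/
structure GoodV {ι : Type} [Fintype ι] (v : ι → V3) : Prop where
  nn : ∀ i j, 0 ≤ v i j
  pos : ∀ i, 0 < pp (v i)
  tot : ∑ i, pp (v i) = 1
  eqv : ∀ π : Equiv.Perm (Fin 3), ∃ σ : ι ≃ ι, ∀ i, v (σ i) = fun j => v i (π j)

variable {ι κ : Type} [Fintype ι] [Fintype κ]

theorem GoodM.pos {kap : ℝ} {v : ι → V3} (h : GoodM kap v) (i : ι) : 0 < pp (v i) :=
  (Ff_lt_pp _ (h.ps i)).1

theorem GoodM.toV {kap : ℝ} {v : ι → V3} (h : GoodM kap v) : GoodV v :=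
  ⟨fun i j => (h.ps i j).le, h.pos, h.tot, h.eqv⟩

theorem GoodV.X_nonneg {v : ι → V3} (h : GoodV v) : 0 ≤ XX v :=
  Finset.sum_nonneg fun i _ => Ff_nonneg _ (h.pos i)

theorem GoodV.X_le_one {v : ι → V3} (h : GoodV v) : XX v ≤ 1 := by
  rw [← h.tot]
  exact Finset.sum_le_sum fun i _ => Ff_le_pp _ (h.pos i) (h.nn i)

theorem sum_mm (v : ι → V3) (ht : ∑ i, pp (v i) = 1) :
    ∑ i, mm (v i) = 1 - 2 * XX v + 2 * ∑ i, fm (v i) := by
  have : ∀ i, mm (v i) = pp (v i) - 2 * Ff (v i) + 2 * fm (v i) := fun i => by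
    unfold fm; ring
  simp only [this, Finset.sum_add_distrib, Finset.sum_sub_distrib, ← Finset.mul_sum, ht]
  rfl

theorem sum_prodFam' (a : ι → V3) (b : κ → V3)
    (hb : ∀ π : Equiv.Perm (Fin 3), ∃ σ : κ ≃ κ, ∀ i, b (σ i) = fun j => b i (π j))
    (g : V3 → ℝ) :
    ∑ x, g (prodFam a b x) = ∑ i, ∑ k, (∑ π : Equiv.Perm (Fin 3), g (mul (a i) (b k) π)) / 6 := by
  rw [Fintype.sum_prod_type]
  refine Finset.sum_congr rfl fun i _ => ?_
  have h1 : ∀ π : Equiv.Perm (Fin 3), ∑ k, g (mul (a i) (b k) π) = ∑ k, g (prodFam a b (i, k)) := by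
    intro π
    obtain ⟨σ, hσ⟩ := hb π
    rw [← Equiv.sum_comp σ (fun k => g (prodFam a b (i, k)))]
    refine Finset.sum_congr rfl fun k _ => ?_
    congr 1
    funext j
    simp only [mul, prodFam, hσ k]
  rw [← Finset.sum_div, Finset.sum_comm]
  simp only [h1]
  rw [Finset.sum_const, Finset.card_univ, Fintype.card_perm, Fintype.card_fin]
  simp [Nat.factorial]

theorem Pos.inT1 {v : V3} (h : Pos v) : InT 1 v :=
  ⟨(Ff_lt_pp v h).1, fun i => by simpa using (h i).le⟩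

/-- merging a message with an accumulated family -/
theorem mergeK {L t c al kap : ℝ} (hal : 0 ≤ al) (hc : 0 ≤ c) (hk : 0 ≤ kap)
    (h1 : PWm L t c al) (h3 : PWj) {a : ι → V3} {b : κ → V3} (ha : GoodM kap a)
    (hb : GoodM kap b) (ia : ∀ i, InT L (a i)) :
    GoodM kap (prodFam a b) ∧
      XX (prodFam a b) ≤ XX a + XX b - (t - c * kap - al * kap * (1 + kap)) * (XX a * XX b) := by
  have hXa := ha.toV.X_nonneg
  have hXb := hb.toV.X_nonneg
  have hps : ∀ x, Pos (prodFam a b x) := fun x j => mul_pos (ha.ps x.1 j) (hb.ps x.2 j)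
  have htot : ∑ x, pp (prodFam a b x) = 1 := by
    rw [sum_prodFam' a b hb.eqv]
    simp only [avg_pp]
    rw [sum_mul_sum', ha.tot, hb.tot, one_mul]
  have heqv : ∀ π : Equiv.Perm (Fin 3), ∃ σ : ι × κ ≃ ι × κ, ∀ i,
      prodFam a b (σ i) = fun j => prodFam a b i (π j) := by
    intro π
    obtain ⟨σ, hσ⟩ := ha.eqv π
    obtain ⟨τ, hτ⟩ := hb.eqv π
    refine ⟨Equiv.prodCongr σ τ, fun x => ?_⟩
    funext j
    simp only [prodFam, Equiv.prodCongr_apply, Prod.map_apply', hσ, hτ]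
  -- `PWq`
  have hq : XX a + XX b - 2 * (XX a * XX b) ≤ XX (prodFam a b) := by
    have h5 : ∑ i, ∑ k, (Ff (a i) * pp (b k) + pp (a i) * Ff (b k) - 2 * (Ff (a i) * Ff (b k))) ≤
        XX (prodFam a b) := by
      unfold XX
      rw [sum_prodFam' a b hb.eqv]
      exact Finset.sum_le_sum fun i _ => Finset.sum_le_sum fun k _ =>
        pwq1 _ _ (ha.ps i).inT1 (hb.ps k)
    refine le_trans (le_of_eq ?_) h5
    simp only [Finset.sum_sub_distrib, Finset.sum_add_distrib, ← Finset.mul_sum]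
    simp only [← Finset.mul_sum, ← Finset.sum_mul]
    rw [ha.tot, hb.tot]
    unfold XX
    ring
  -- monotonicity
  have hmono : XX a ≤ XX (prodFam a b) := by
    have h5 : ∑ i, ∑ k, (Ff (a i) * pp (b k)) ≤ XX (prodFam a b) := by
      unfold XX
      rw [sum_prodFam' a b hb.eqv]
      exact Finset.sum_le_sum fun i _ => Finset.sum_le_sum fun k _ =>
        pw_mono_left _ _ (ha.ps i).inT1 (hb.ps k)
    rw [sum_mul_sum', hb.tot, mul_one] at h5
    exact h5
  -- `PWj`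
  have hj : (∑ i, mm (a i)) * (∑ k, mm (b k)) ≤ ∑ x, mm (prodFam a b x) := by
    rw [sum_prodFam' a b hb.eqv, ← sum_mul_sum']
    exact Finset.sum_le_sum fun i _ => Finset.sum_le_sum fun k _ => h3 _ _ (ha.ps i) (hb.ps k)
  have hM2 : 0 ≤ ∑ k, mm (b k) := Finset.sum_nonneg fun k _ => by
    have g0 := hb.ps k 0
    have g1 := hb.ps k 1
    have g2 := hb.ps k 2
    unfold mm
    positivity
  have hM1 : 0 ≤ ∑ k, mm (a k) := Finset.sum_nonneg fun k _ => by
    have g0 := ha.ps k 0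
    have g1 := ha.ps k 1
    have g2 := ha.ps k 2
    unfold mm
    positivity
  have e1 := sum_mm a ha.tot
  have e2 := sum_mm b hb.tot
  have e3 := sum_mm (prodFam a b) htot
  have hca := ha.cls
  have hcb := hb.cls
  refine ⟨⟨hps, htot, heqv, ?_⟩, ?_⟩
  · rcases le_or_gt (2 * (1 + kap) * XX a) 1 with hs | hs
    · exact class_closure hk hXa hs hXb e1 e2 hM2 hca hcb e3 hj hq
    · have h6 : 0 ≤ (∑ i, mm (a i)) * (∑ k, mm (b k)) := mul_nonneg hM1 hM2
      have h7 : 2 * (1 + kap) * XX a ≤ 2 * (1 + kap) * XX (prodFam a b) :=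
        mul_le_mul_of_nonneg_left hmono (by linarith)
      nlinarith
  · have h5 : XX (prodFam a b) ≤ ∑ i, ∑ k, (Ff (a i) * pp (b k) + pp (a i) * Ff (b k) -
        t * (Ff (a i) * Ff (b k)) - c * (Ff (a i) * fm (b k)) -
        al * (fm (a i) * (Ff (b k) - Rr (b k)))) := by
      unfold XX
      rw [sum_prodFam' a b hb.eqv]
      exact Finset.sum_le_sum fun i _ => Finset.sum_le_sum fun k _ => h1 _ _ (ia i) (hb.ps k)
    have h6 : ∑ i, ∑ k, (Ff (a i) * pp (b k) + pp (a i) * Ff (b k) -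
        t * (Ff (a i) * Ff (b k)) - c * (Ff (a i) * fm (b k)) -
        al * (fm (a i) * (Ff (b k) - Rr (b k)))) =
        XX a * 1 + 1 * XX b - t * (XX a * XX b) - c * (XX a * ∑ k, fm (b k)) -
        al * ((∑ i, fm (a i)) * (XX b - ∑ k, Rr (b k))) := by
      simp only [Finset.sum_sub_distrib, Finset.sum_add_distrib, ← Finset.mul_sum]
      simp only [← Finset.mul_sum, ← Finset.sum_mul]
      rw [ha.tot, hb.tot]
      unfold XX
      simp only [← Finset.mul_sum, ← Finset.sum_mul, Finset.sum_sub_distrib]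
    rw [h6] at h5
    obtain ⟨fa, hfa⟩ : ∃ fa, fa = ∑ i, fm (a i) := ⟨_, rfl⟩
    obtain ⟨fb, hfb⟩ : ∃ fb, fb = ∑ k, fm (b k) := ⟨_, rfl⟩
    obtain ⟨T, hT⟩ : ∃ T, T = ∑ k, Rr (b k) := ⟨_, rfl⟩
    rw [← hfa] at h5 hca
    rw [← hfb] at h5 hcb
    rw [← hT] at h5
    have hTX : T ≤ XX b := by
      rw [hT]
      exact Finset.sum_le_sum fun i _ => Rr_le_Ff _ (hb.pos i) fun j => (hb.ps i j).le
    have hTf : fb ≤ T := by
      rw [hT, hfb]
      exact Finset.sum_le_sum fun i _ => fm_le_Rr _ (hb.ps i)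
    have g1 : c * (XX a * (-kap * XX b)) ≤ c * (XX a * fb) :=
      mul_le_mul_of_nonneg_left (mul_le_mul_of_nonneg_left hcb hXa) hc
    have g2 : al * ((-kap * XX a) * (XX b - T)) ≤ al * (fa * (XX b - T)) :=
      mul_le_mul_of_nonneg_left (mul_le_mul_of_nonneg_right hca (by linarith)) hal
    have g3 : al * (kap * XX a * (XX b - T)) ≤ al * (kap * XX a * ((1 + kap) * XX b)) := by
      refine mul_le_mul_of_nonneg_left (mul_le_mul_of_nonneg_left ?_ (by positivity)) hal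
      linarith
    nlinarith

theorem GoodM.transfer {kap : ℝ} {v : ι → V3} {w : κ → V3} (e : κ ≃ ι)
    (h : GoodM kap v) (hw : ∀ k, w k = v (e k)) : GoodM kap w ∧ XX w = XX v := by
  have hX : XX w = XX v := Fintype.sum_equiv e _ _ fun k => by rw [hw]
  refine ⟨⟨fun i => by rw [hw]; exact h.ps _, ?_, fun π => ?_, ?_⟩, hX⟩
  · rw [← h.tot]
    exact Fintype.sum_equiv e _ _ fun k => by rw [hw]
  · obtain ⟨σ, hσ⟩ := h.eqv π
    refine ⟨(e.trans σ).trans e.symm, fun i => ?_⟩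
    rw [hw, hw]
    simp only [Equiv.trans_apply, Equiv.apply_symm_apply]
    exact hσ (e i)
  · have : ∑ i, fm (w i) = ∑ i, fm (v i) := Fintype.sum_equiv e _ _ fun k => by rw [hw]
    rw [this, hX]
    exact h.cls

/-- merging `k` messages, possibly over different index types -/
theorem merge_all {L t c al kap τ : ℝ} (hal : 0 ≤ al) (hc : 0 ≤ c) (hk : 0 ≤ kap)
    (hτ0 : 0 ≤ τ) (hτ1 : τ ≤ 1) (hτ : τ ≤ t - c * kap - al * kap * (1 + kap))
    (h1 : PWm L t c al) (h3 : PWj) :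
    ∀ (k : ℕ) (β : Fin k → Type) [∀ i, Fintype (β i)] (v : ∀ i, β i → V3),
      (∀ i, GoodM kap (v i)) → (∀ i j, InT L (v i j)) →
      GoodM kap (fun (c : ∀ i, β i) j => ∏ i, v i (c i) j) ∧
        ∏ i, (1 - τ * XX (v i)) ≤ 1 - τ * XX (fun (c : ∀ i, β i) j => ∏ i, v i (c i) j) := by
  intro k
  induction k with
  | zero =>
    intro β _ v _ _
    have e1 : (fun (c : ∀ i, β i) (j : Fin 3) => ∏ i, v i (c i) j) = fun _ _ => (1 : ℝ) := by
      funext c j
      simp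
    rw [e1]
    have e2 : XX (fun (_ : ∀ i, β i) (_ : Fin 3) => (1 : ℝ)) = 0 := by
      simp [XX, Ff, pp]
      norm_num
    refine ⟨⟨fun i j => one_pos, by simp [pp]; norm_num, fun π => ⟨Equiv.refl _, fun i => rfl⟩, ?_⟩, ?_⟩
    · rw [e2]
      simp [fm, mm, Ff, pp]
      norm_num
    · rw [e2]; simp
  | succ k ih =>
    intro β _ v hv hI
    obtain ⟨g1, g2⟩ := ih (fun i => β i.succ) (fun i => v i.succ) (fun i => hv i.succ)
      (fun i => hI i.succ)
    obtain ⟨g3, g4⟩ := mergeK hal hc hk h1 h3 (hv 0) g1 (hI 0)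
    obtain ⟨g5, g6⟩ := g3.transfer (w := fun (c : ∀ i, β i) j => ∏ i, v i (c i) j)
      (Fin.consEquiv β).symm (fun c => by
        funext j
        rw [Fin.prod_univ_succ]
        rfl)
    refine ⟨g5, ?_⟩
    rw [g6, Fin.prod_univ_succ]
    have hX0 := (hv 0).toV.X_nonneg
    have hX1 := (hv 0).toV.X_le_one
    have hY0 := g1.toV.X_nonneg
    obtain ⟨A, hA⟩ : ∃ A, A = XX (v 0) := ⟨_, rfl⟩
    obtain ⟨B, hB⟩ : ∃ B, B = XX (fun (c : ∀ i, β (Fin.succ i)) j => ∏ i, v i.succ (c i) j) :=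
      ⟨_, rfl⟩
    rw [← hB] at g2 g4 hY0
    rw [← hA] at g4 hX0 hX1 ⊢
    have k1 : 0 ≤ 1 - τ * A := by
      have : τ * A ≤ 1 * 1 := mul_le_mul hτ1 hX1 hX0 zero_le_one
      linarith
    have k2 : (1 - τ * A) * ∏ i : Fin k, (1 - τ * XX (v i.succ)) ≤ (1 - τ * A) * (1 - τ * B) :=
      mul_le_mul_of_nonneg_left g2 k1
    have k3 : τ * (A * B) ≤ (t - c * kap - al * kap * (1 + kap)) * (A * B) :=
      mul_le_mul_of_nonneg_right hτ (by positivity)
    have k4 := mul_le_mul_of_nonneg_left g4 hτ0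
    have k5 := mul_le_mul_of_nonneg_left k3 hτ0
    nlinarith

end Vale.Agent.Potts
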