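import Mathlib
import Vale.Agent.Potts.PartA

/-! P154, PART A, second file: the tree recursion and the limit. -/

namespace Vale.Agent.Potts

open Finset Filter

/-- likelihood vectors of the level-`n` configurations -/
noncomputable def lik (d : ℕ) (lam : ℝ) (n : ℕ) (c : Conf 3 d n) : V3 := fun i => leafLaw 3 d lam n i c

theorem channel_sum (lam : ℝ) (v : V3) (i : Fin 3) : ∑ j : Fin 3, channel 3 lam i j * v j = msg lam v i := by
  simp only [channel, msg, pp, add_mul, ite_mul, zero_mul, Finset.sum_add_distrib,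
    Finset.sum_ite_eq, Finset.mem_univ, if_true, Fin.sum_univ_three]
  push_cast
  ring

theorem lik_succ (d : ℕ) (lam : ℝ) (n : ℕ) (c : Conf 3 d (n + 1)) :
    lik d lam (n + 1) c = fun i => ∏ k : Fin d, msg lam (lik d lam n (c k)) i := by
  funext i
  simp only [lik, leafLaw]
  refine Finset.prod_congr rfl fun k _ => ?_
  exact channel_sum lam (lik d lam n (c k)) i

/-- the indicator vectors -/
def ind (c : Fin 3) : V3 := fun j => if c = j then 1 else 0

theorem pp_ind (c : Fin 3) : pp (ind c) = 1 / 3 := by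
  have h : ∑ j : Fin 3, ind c j = 1 := by
    simp only [ind, Finset.sum_ite_eq, Finset.mem_univ, if_true]
  rw [Fin.sum_univ_three] at h
  simp only [pp]
  rw [h]

theorem good_ind : Good ind where
  nn := fun c j => by
    simp only [ind]
    split_ifs <;> norm_num
  pos := fun c => by rw [pp_ind]; norm_num
  tot := by simp only [pp_ind]; norm_num
  eqv := fun π => by
    refine ⟨π.symm, fun c => ?_⟩
    funext j
    simp only [ind]
    congr 1
    apply propext
    constructor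
    · intro h
      rw [← h, Equiv.apply_symm_apply]
    · intro h
      rw [h, Equiv.symm_apply_apply]
  T := by
    rw [Fin.sum_univ_three]
    simp [Rr, Ff, pp, ind]
    norm_num

theorem good_zero (d : ℕ) (lam : ℝ) : Good (lik d lam 0) := good_ind

/-- bound for `a_n` -/
theorem aSeq_le {d : ℕ} {lam : ℝ} {n : ℕ} (h : Good (lik d lam n)) {η : ℝ} (hη : 0 < η) :
    aSeq 3 d lam n ≤ η / 2 + XX (lik d lam n) / (4 * η) := by
  have h0 : ∀ c, confProb 3 d lam n c = pp (lik d lam n c) := fun c => by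
    simp only [confProb, lik, pp, Fin.sum_univ_three]
    push_cast
    ring
  have h1 : ∀ c, confProb 3 d lam n c * ((1 / 2) * ∑ i : Fin 3, |posterior 3 d lam n i c - 1 / ((3 : ℕ) : ℝ)|) ≤
      η / 2 * pp (lik d lam n c) + Ff (lik d lam n c) / (4 * η) := by
    intro c
    have hp := h.pos c
    have h2 : ∀ i, posterior 3 d lam n i c - 1 / ((3 : ℕ) : ℝ) =
        (lik d lam n c i / pp (lik d lam n c) - 1) / 3 := by
      intro i
      unfold posterior
      rw [h0]
      simp only [lik]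
      push_cast
      ring
    simp only [h2]
    rw [h0]
    set v := lik d lam n c with hv
    have h3 : ∀ i, |(v i / pp v - 1) / 3| ≤ (η + (v i / pp v - 1) ^ 2 / (4 * η)) / 3 := by
      intro i
      rw [abs_div, abs_of_pos (by norm_num : (0 : ℝ) < 3)]
      refine div_le_div_of_nonneg_right ?_ (by norm_num)
      set x := v i / pp v - 1
      have h4 : |x| * (4 * η) ≤ 4 * η ^ 2 + x ^ 2 := by
        have := sq_nonneg (|x| - 2 * η)
        rw [← sq_abs x]
        nlinarith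
      have h5 : |x| ≤ (4 * η ^ 2 + x ^ 2) / (4 * η) := by
        rw [le_div_iff₀ (by positivity)]; exact h4
      calc |x| ≤ (4 * η ^ 2 + x ^ 2) / (4 * η) := h5
        _ = η + x ^ 2 / (4 * η) := by field_simp
    have h6 : ∑ i : Fin 3, |(v i / pp v - 1) / 3| ≤ ∑ i : Fin 3, (η + (v i / pp v - 1) ^ 2 / (4 * η)) / 3 :=
      Finset.sum_le_sum fun i _ => h3 i
    have h7 : pp v * (1 / 2 * ∑ i : Fin 3, (η + (v i / pp v - 1) ^ 2 / (4 * η)) / 3) =
        η / 2 * pp v + Ff v / (4 * η) := by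
      rw [Fin.sum_univ_three]
      have e : v 2 = 3 * pp v - v 0 - v 1 := by simp only [pp]; ring
      unfold Ff
      rw [e]
      have hp' := hp.ne'
      have hη' := hη.ne'
      generalize pp v = p at *
      field_simp
      ring
    rw [← h7]
    exact mul_le_mul_of_nonneg_left (mul_le_mul_of_nonneg_left h6 (by norm_num)) hp.le
  unfold aSeq
  refine le_trans (Finset.sum_le_sum fun c _ => h1 c) ?_
  rw [Finset.sum_add_distrib, ← Finset.mul_sum, h.tot, ← Finset.sum_div]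
  simp only [mul_one]
  rfl

theorem aSeq_nonneg {d : ℕ} {lam : ℝ} {n : ℕ} (h : Good (lik d lam n)) : 0 ≤ aSeq 3 d lam n := by
  have h0 : ∀ c, confProb 3 d lam n c = pp (lik d lam n c) := fun c => by
    simp only [confProb, lik, pp, Fin.sum_univ_three]
    push_cast
    ring
  unfold aSeq
  refine Finset.sum_nonneg fun c _ => ?_
  rw [h0]
  exact mul_nonneg (h.pos c).le (mul_nonneg (by norm_num) (Finset.sum_nonneg fun i _ => abs_nonneg _))

/-- the scalar recursion -/
theorem rec_tendsto {X : ℕ → ℝ} {s l t : ℝ} (ht : 0 < t) (hs : s * l ≤ 1)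
    (h0 : ∀ n, 0 ≤ X n) (h : ∀ n, X (n + 1) ≤ s * (l * X n) - t * (l * X n) ^ 2) :
    Tendsto X atTop (nhds 0) := by
  have hanti : Antitone X := antitone_nat_of_succ_le fun n => by
    have h1 := h n
    have h2 : 0 ≤ t * (l * X n) ^ 2 := by positivity
    have h3 : s * (l * X n) ≤ X n := by
      have := mul_le_mul_of_nonneg_right hs (h0 n)
      nlinarith
    linarith
  have hb : BddBelow (Set.range X) := ⟨0, by rintro _ ⟨n, rfl⟩; exact h0 n⟩
  have hlim := tendsto_atTop_ciInf hanti hb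
  set L := ⨅ n, X n with hL
  have hL0 : 0 ≤ L := le_ciInf fun n => h0 n
  have h1 : Tendsto (fun n => X (n + 1)) atTop (nhds L) := (tendsto_add_atTop_iff_nat 1).2 hlim
  have h2 : Tendsto (fun n => s * (l * X n) - t * (l * X n) ^ 2) atTop (nhds (s * (l * L) - t * (l * L) ^ 2)) :=
    ((hlim.const_mul l).const_mul s).sub (((hlim.const_mul l).pow 2).const_mul t)
  have h3 : L ≤ s * (l * L) - t * (l * L) ^ 2 := le_of_tendsto_of_tendsto' h1 h2 h
  have h4 : s * (l * L) ≤ L := by
    have := mul_le_mul_of_nonneg_right hs hL0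
    nlinarith
  have h5 : t * (l * L) ^ 2 ≤ 0 := by linarith
  have h6 : (l * L) ^ 2 = 0 := by
    have : 0 ≤ (l * L) ^ 2 := by positivity
    nlinarith
  have h7 : l * L = 0 := by simpa using h6
  have h8 : L = 0 := by
    rw [h7] at h3
    simp at h3
    linarith
  rw [h8] at hlim
  exact hlim

theorem aSeq_tendsto {d : ℕ} {lam : ℝ} (hg : ∀ n, Good (lik d lam n))
    (hX : Tendsto (fun n => XX (lik d lam n)) atTop (nhds 0)) :
    Tendsto (fun n => aSeq 3 d lam n) atTop (nhds 0) := by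
  rw [Metric.tendsto_atTop]
  intro ε hε
  have h1 : ∀ᶠ n in atTop, XX (lik d lam n) < ε ^ 2 := by
    have : (0 : ℝ) < ε ^ 2 := by positivity
    exact hX.eventually (gt_mem_nhds this)
  obtain ⟨N, hN⟩ := eventually_atTop.1 h1
  refine ⟨N, fun n hn => ?_⟩
  have h2 := hN n hn
  have h3 := aSeq_le (hg n) hε
  have h4 : XX (lik d lam n) / (4 * ε) < ε / 4 * 1 := by
    rw [div_lt_iff₀ (by positivity)]
    nlinarith
  rw [Real.dist_eq, sub_zero, abs_of_nonneg (aSeq_nonneg (hg n))]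
  linarith

/-! ### transfer along a surjective relabelling of the index set -/

theorem Good.transfer {ι κ : Type} [Fintype ι] [Fintype κ] {v : ι → V3} {w : κ → V3} (e : κ ≃ ι)
    (h : Good v) (hw : ∀ k, w k = v (e k)) : Good w ∧ XX w = XX v := by
  refine ⟨⟨fun i j => by rw [hw]; exact h.nn _ _, fun i => by rw [hw]; exact h.pos _, ?_, fun π => ?_, ?_⟩, ?_⟩
  · rw [← h.tot]
    exact Fintype.sum_equiv e _ _ fun k => by rw [hw]
  · obtain ⟨σ, hσ⟩ := h.eqv π
    refine ⟨(e.trans σ).trans e.symm, fun i => ?_⟩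
    rw [hw, hw]
    simp only [Equiv.trans_apply, Equiv.apply_symm_apply]
    exact hσ (e i)
  · have : ∑ i, Rr (w i) = ∑ i, Rr (v i) := Fintype.sum_equiv e _ _ fun k => by rw [hw]
    rw [this]
    exact h.T
  · exact Fintype.sum_equiv e _ _ fun k => by rw [hw]

/-! ### the recursion on the tree -/

/-- splitting a configuration of depth `n + 1` on the binary tree -/
def split2 (n : ℕ) : Conf 3 2 (n + 1) ≃ Conf 3 2 n × Conf 3 2 n where
  toFun := fun c => (c 0, c 1)
  invFun := fun x => fun k => if k = 0 then x.1 else x.2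
  left_inv := fun c => by
    funext k
    fin_cases k <;> rfl
  right_inv := fun x => rfl

def split3 (n : ℕ) : Conf 3 3 (n + 1) ≃ Conf 3 3 n × (Conf 3 3 n × Conf 3 3 n) where
  toFun := fun c => (c 2, (c 0, c 1))
  invFun := fun x => fun k => if k = 2 then x.1 else if k = 0 then x.2.1 else x.2.2
  left_inv := fun c => by
    funext k
    fin_cases k <;> rfl
  right_inv := fun x => rfl

theorem step2 (h1 : PW (5/7) (5/7) (1/100) (143/100) (57/50)) (h2 : PWR (5/7) (5/7))
    {lam : ℝ} (h0 : 0 ≤ lam) (hl : lam ≤ 5 / 7) {n : ℕ} (hg : Good (lik 2 lam n)) :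
    Good (lik 2 lam (n + 1)) ∧ XX (lik 2 lam (n + 1)) ≤
      2 * (lam ^ 2 * XX (lik 2 lam n)) - 1 / 100 * (lam ^ 2 * XX (lik 2 lam n)) ^ 2 := by
  have hm := hg.msg h0 (by linarith : lam ≤ 1)
  have hi : ∀ i, InT (5/7) (msg lam (lik 2 lam n i)) := fun i =>
    msg_InT h0 hl _ (hg.pos i) (hg.nn i)
  obtain ⟨g1, g2⟩ := merge (by norm_num) (by norm_num) (by norm_num) (by norm_num) h1 h2 hm hm hi hi
  obtain ⟨g3, g4⟩ := g1.transfer (w := lik 2 lam (n + 1)) (split2 n) (fun c => by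
    rw [lik_succ]
    funext i
    rw [Fin.prod_univ_two]
    rfl)
  refine ⟨g3, ?_⟩
  rw [g4]
  rw [XX_msg hg] at g2
  linarith

theorem InT_prod {lam : ℝ} (h0 : 0 ≤ lam) (hl : 3 * lam ^ 2 ≤ 1) {v w : V3}
    (hv : 0 < pp v) (hw : 0 < pp w) (nv : ∀ i, 0 ≤ v i) (nw : ∀ i, 0 ≤ w i) :
    InT (9 / 10) (fun i => msg lam v i * msg lam w i) := by
  have hl1 : lam ≤ 3 / 5 := by nlinarith
  have hpw : 0 < pp v * pp w := mul_pos hv hw
  have hlow : ∀ i, (1 - lam) ^ 2 * (pp v * pp w) ≤ msg lam v i * msg lam w i := fun i => by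
    have a1 : (1 - lam) * pp v ≤ msg lam v i := by
      have := mul_nonneg h0 (nv i); simp only [msg]; linarith
    have a2 : (1 - lam) * pp w ≤ msg lam w i := by
      have := mul_nonneg h0 (nw i); simp only [msg]; linarith
    have a3 : 0 ≤ (1 - lam) * pp v := mul_nonneg (by linarith) hv.le
    have a4 : 0 ≤ (1 - lam) * pp w := mul_nonneg (by linarith) hw.le
    calc (1 - lam) ^ 2 * (pp v * pp w) = ((1 - lam) * pp v) * ((1 - lam) * pp w) := by ring
      _ ≤ _ := mul_le_mul a1 a2 a4 (le_trans a3 a1)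
  have hup : pp (fun i => msg lam v i * msg lam w i) ≤ (1 + 2 * lam ^ 2) * (pp v * pp w) := by
    have e : (1 + 2 * lam ^ 2) * (pp v * pp w) - pp (fun i => msg lam v i * msg lam w i) =
        lam ^ 2 * ((v 0 * w 1 + v 0 * w 2 + v 1 * w 0 + v 1 * w 2 + v 2 * w 0 + v 2 * w 1) / 3) := by
      simp only [pp, msg]; ring
    have : 0 ≤ lam ^ 2 * ((v 0 * w 1 + v 0 * w 2 + v 1 * w 0 + v 1 * w 2 + v 2 * w 0 + v 2 * w 1) / 3) := by
      have := mul_nonneg (nv 0) (nw 1)
      have := mul_nonneg (nv 0) (nw 2)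
      have := mul_nonneg (nv 1) (nw 0)
      have := mul_nonneg (nv 1) (nw 2)
      have := mul_nonneg (nv 2) (nw 0)
      have := mul_nonneg (nv 2) (nw 1)
      positivity
    linarith
  have hc : (1 - 9 / 10) * (1 + 2 * lam ^ 2) ≤ (1 - lam) ^ 2 := by nlinarith
  refine ⟨?_, fun i => ?_⟩
  · have h1 := hlow 0
    have h2 := hlow 1
    have h3 := hlow 2
    have h4 : 0 < (1 - lam) ^ 2 * (pp v * pp w) := by
      have : 0 < 1 - lam := by linarith
      positivity
    have : pp (fun i => msg lam v i * msg lam w i) = (msg lam v 0 * msg lam w 0 +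
      msg lam v 1 * msg lam w 1 + msg lam v 2 * msg lam w 2) / 3 := rfl
    rw [this]
    linarith
  · calc (1 - 9 / 10) * pp (fun i => msg lam v i * msg lam w i)
        ≤ (1 - 9 / 10) * ((1 + 2 * lam ^ 2) * (pp v * pp w)) :=
          mul_le_mul_of_nonneg_left hup (by norm_num)
      _ = ((1 - 9 / 10) * (1 + 2 * lam ^ 2)) * (pp v * pp w) := by ring
      _ ≤ (1 - lam) ^ 2 * (pp v * pp w) := mul_le_mul_of_nonneg_right hc hpw.le
      _ ≤ _ := hlow i

theorem step3 (h1 : PW (5/7) (5/7) (1/100) (143/100) (57/50)) (h2 : PWR (5/7) (5/7))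
    (h3 : PW (7/12) (9/10) (1/100) (143/100) (57/50)) (h4 : PWR (7/12) (9/10))
    {lam : ℝ} (h0 : 0 ≤ lam) (hl : 3 * lam ^ 2 ≤ 1) {n : ℕ} (hg : Good (lik 3 lam n)) :
    Good (lik 3 lam (n + 1)) ∧ XX (lik 3 lam (n + 1)) ≤
      3 * (lam ^ 2 * XX (lik 3 lam n)) - 1 / 100 * (lam ^ 2 * XX (lik 3 lam n)) ^ 2 := by
  have hl1 : lam ≤ 7 / 12 := by nlinarith
  have hm := hg.msg h0 (by linarith : lam ≤ 1)
  have hi : ∀ i, InT (5/7) (msg lam (lik 3 lam n i)) := fun i =>
    msg_InT h0 (by linarith) _ (hg.pos i) (hg.nn i)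
  have hi' : ∀ i, InT (7/12) (msg lam (lik 3 lam n i)) := fun i =>
    msg_InT h0 hl1 _ (hg.pos i) (hg.nn i)
  obtain ⟨g1, g2⟩ := merge (by norm_num) (by norm_num) (by norm_num) (by norm_num) h1 h2 hm hm hi hi
  have hi2 : ∀ x, InT (9/10) (prodFam (fun i => msg lam (lik 3 lam n i)) (fun i => msg lam (lik 3 lam n i)) x) :=
    fun x => InT_prod h0 hl (hg.pos x.1) (hg.pos x.2) (hg.nn x.1) (hg.nn x.2)
  obtain ⟨g3, g4⟩ := merge (by norm_num) (by norm_num) (by norm_num) (by norm_num) h3 h4 hm g1 hi' hi2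
  obtain ⟨g5, g6⟩ := g3.transfer (w := lik 3 lam (n + 1)) (split3 n) (fun c => by
    rw [lik_succ]
    funext i
    rw [Fin.prod_univ_three, mul_comm]
    rfl)
  refine ⟨g5, ?_⟩
  rw [g6]
  rw [XX_msg hg] at g2 g4
  have hA := mul_nonneg (sq_nonneg lam) hg.X_nonneg
  have hA1 : lam ^ 2 * XX (lik 3 lam n) ≤ 1 := by
    have := hg.X_le_one
    have h5 : lam ^ 2 ≤ 1 := by nlinarith
    nlinarith [hg.X_nonneg]
  set A := lam ^ 2 * XX (lik 3 lam n) with hAdef
  set M := XX (prodFam (fun i => msg lam (lik 3 lam n i)) (fun i => msg lam (lik 3 lam n i))) with hM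
  have h6 : M * (1 - 1 / 100 * A) ≤ (A + A - 1 / 100 * (A * A)) * (1 - 1 / 100 * A) :=
    mul_le_mul_of_nonneg_right g2 (by linarith)
  nlinarith [mul_nonneg hA hA, mul_nonneg (mul_nonneg hA hA) hA, mul_nonneg (mul_nonneg hA hA) (by linarith : 0 ≤ 1 - A)]

/-- PART A, binary tree -/
theorem partA2 (h1 : PW (5/7) (5/7) (1/100) (143/100) (57/50)) (h2 : PWR (5/7) (5/7))
    (lam : ℝ) (h0 : 0 ≤ lam) (hl : 2 * lam ^ 2 ≤ 1) :
    Tendsto (fun n => aSeq 3 2 lam n) atTop (nhds 0) := by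
  have hl1 : lam ≤ 5 / 7 := by nlinarith
  have hg : ∀ n, Good (lik 2 lam n) := fun n => by
    induction n with
    | zero => exact good_zero 2 lam
    | succ n ih => exact (step2 h1 h2 h0 hl1 ih).1
  refine aSeq_tendsto hg (rec_tendsto (by norm_num : (0 : ℝ) < 1 / 100) hl (fun n => (hg n).X_nonneg)
    fun n => (step2 h1 h2 h0 hl1 (hg n)).2)

/-- PART A, ternary tree -/
theorem partA3 (h1 : PW (5/7) (5/7) (1/100) (143/100) (57/50)) (h2 : PWR (5/7) (5/7))
    (h3 : PW (7/12) (9/10) (1/100) (143/100) (57/50)) (h4 : PWR (7/12) (9/10))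
    (lam : ℝ) (h0 : 0 ≤ lam) (hl : 3 * lam ^ 2 ≤ 1) :
    Tendsto (fun n => aSeq 3 3 lam n) atTop (nhds 0) := by
  have hg : ∀ n, Good (lik 3 lam n) := fun n => by
    induction n with
    | zero => exact good_zero 3 lam
    | succ n ih => exact (step3 h1 h2 h3 h4 h0 hl ih).1
  refine aSeq_tendsto hg (rec_tendsto (by norm_num : (0 : ℝ) < 1 / 100) hl (fun n => (hg n).X_nonneg)
    fun n => (step3 h1 h2 h3 h4 h0 hl (hg n)).2)

end Vale.Agent.Potts
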