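import Mathlib
import Vale.Agent.Potts.GWMerge
import Vale.Agent.Potts.PartA2

/-! P154: the recursion on an arbitrary finite tree. -/

namespace Vale.Agent.Potts

open Finset

/-- likelihood vectors of the level-`n` configurations of a tree -/
noncomputable def likT (lam : ℝ) (n : ℕ) (t : Tr n) (c : TConf 3 n t) : V3 :=
  fun i => tLaw 3 lam n t i c

/-- the tree with subtrees `ch` -/
def node {n k : ℕ} (ch : Fin k → Tr n) : Tr (n + 1) := (⟨k, ch⟩ : Σ k : ℕ, (Fin k → Tr n))

theorem likT_succ (lam : ℝ) (n k : ℕ) (ch : Fin k → Tr n) (c : TConf 3 (n + 1) (node ch)) :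
    likT lam (n + 1) (node ch) c = fun i => ∏ m : Fin k, msg lam (likT lam n (ch m) (c m)) i := by
  funext i
  change ∏ m : Fin k, ∑ j : Fin 3, channel 3 lam i j * tLaw 3 lam n (ch m) j (c m) = _
  refine Finset.prod_congr rfl fun k _ => ?_
  exact channel_sum lam (likT lam n (ch k) (c k)) i

/-- what a channel has to satisfy -/
def MsgOK (lam L kap : ℝ) : Prop := ∀ (ι : Type) [Fintype ι] (v : ι → V3), GoodV v →
  -kap * XX v ≤ ∑ i, fm (v i) → GoodM kap (fun i => msg lam (v i)) ∧ ∀ i, InT L (msg lam (v i))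

theorem goodV_msg {ι : Type} [Fintype ι] {v : ι → V3} (h : GoodV v) {lam kap : ℝ}
    (hp : ∀ i, Pos (msg lam (v i)))
    (hc : -kap * (lam ^ 2 * XX v) ≤ ∑ i, fm (msg lam (v i))) :
    GoodM kap (fun i => msg lam (v i)) where
  ps := hp
  tot := by simp only [pp_msg]; exact h.tot
  eqv := fun π => by
    obtain ⟨σ, hσ⟩ := h.eqv π
    exact ⟨σ, fun i => by rw [hσ i, msg_comp]⟩
  cls := by
    have e : XX (fun i => msg lam (v i)) = lam ^ 2 * XX v := by
      unfold XX
      rw [Finset.mul_sum]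
      exact Finset.sum_congr rfl fun i _ => Ff_msg lam _ (h.pos i).ne'
    rw [e]
    exact hc

theorem XX_msg' {ι : Type} [Fintype ι] {v : ι → V3} (h : GoodV v) (lam : ℝ) :
    XX (fun i => msg lam (v i)) = lam ^ 2 * XX v := by
  unfold XX
  rw [Finset.mul_sum]
  exact Finset.sum_congr rfl fun i _ => Ff_msg lam _ (h.pos i).ne'

/-- ferromagnetic channels -/
theorem msgOK_pos (h4 : PWt) {lam L : ℝ} (h0 : 0 ≤ lam) (hL : lam ≤ L) (h1 : lam < 1) :
    MsgOK lam L 0 := by
  intro ι _ v hv hc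
  have hpos : ∀ i, Pos (msg lam (v i)) := fun i j => by
    have := mul_nonneg h0 (hv.nn i j)
    have : 0 < (1 - lam) * pp (v i) := mul_pos (by linarith) (hv.pos i)
    simp only [msg]
    linarith
  refine ⟨goodV_msg hv hpos ?_, fun i => msg_InT h0 hL _ (hv.pos i) (hv.nn i)⟩
  have h5 : ∑ i, lam ^ 3 * fm (v i) ≤ ∑ i, fm (msg lam (v i)) :=
    Finset.sum_le_sum fun i _ => h4 lam (v i) h0 h1 (hv.pos i) (hv.nn i)
  rw [← Finset.mul_sum] at h5
  have h6 : 0 ≤ ∑ i, fm (v i) := by simpa using hc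
  have : 0 ≤ lam ^ 3 * ∑ i, fm (v i) := mul_nonneg (by positivity) h6
  simp only [neg_zero, zero_mul]
  linarith

/-- antiferromagnetic channels -/
theorem msgOK_neg {lam L l : ℝ} (hl : -l ≤ lam) (h0 : lam ≤ 0) (hl1 : l < 1 / 2)
    (hL : 2 * l ≤ L) : MsgOK lam L (l / (1 - l)) := by
  intro ι _ v hv _
  have h1 := fun i => fm_msg_neg hl h0 hl1 (v i) (hv.pos i) (hv.nn i)
  refine ⟨goodV_msg hv (fun i => (h1 i).1) ?_, fun i => ⟨by rw [pp_msg]; exact hv.pos i, ?_⟩⟩
  · rw [← XX_msg' hv, XX, Finset.mul_sum]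
    exact Finset.sum_le_sum fun i _ => (h1 i).2
  · intro j
    rw [pp_msg]
    have hle : v i j ≤ 3 * pp (v i) := by
      have a0 := hv.nn i 0
      have a1 := hv.nn i 1
      have a2 := hv.nn i 2
      fin_cases j <;> simp only [pp] <;> simp <;> linarith
    simp only [msg]
    have h2 : lam * (3 * pp (v i)) ≤ lam * v i j := mul_le_mul_of_nonpos_left hle h0
    have h3 := hv.pos i
    nlinarith

theorem sum_fm_ind : 0 ≤ ∑ i, fm (ind i) := by
  rw [Fin.sum_univ_three]
  simp [fm, mm, Ff, pp, ind]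
  norm_num

section
variable {lam L t c al kap τ : ℝ}

/-- all likelihood families are good -/
theorem good_tree (hal : 0 ≤ al) (hc : 0 ≤ c) (hk : 0 ≤ kap)
    (hτ0 : 0 ≤ τ) (hτ1 : τ ≤ 1) (hτ : τ ≤ t - c * kap - al * kap * (1 + kap))
    (h1 : PWm L t c al) (h3 : PWj) (hm : MsgOK lam L kap) :
    ∀ (n : ℕ) (T : Tr n), GoodV (likT lam n T) ∧
      -kap * XX (likT lam n T) ≤ ∑ c, fm (likT lam n T c) := by
  intro n
  induction n with
  | zero =>
    intro T
    have hg := good_ind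
    have hV : GoodV ind := ⟨hg.nn, hg.pos, hg.tot, hg.eqv⟩
    have hX := hV.X_nonneg
    have h2 : -kap * XX ind ≤ ∑ i, fm (ind i) := by
      have := sum_fm_ind
      have : 0 ≤ kap * XX ind := mul_nonneg hk hX
      linarith
    exact ⟨hV, h2⟩
  | succ n ih =>
    rintro ⟨k, ch⟩
    obtain ⟨g1, _⟩ := merge_all hal hc hk hτ0 hτ1 hτ h1 h3 k (fun i => TConf 3 n (ch i))
      (fun i c => msg lam (likT lam n (ch i) c)) (fun i => (hm _ _ (ih (ch i)).1 (ih (ch i)).2).1)
      (fun i => (hm _ _ (ih (ch i)).1 (ih (ch i)).2).2)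
    obtain ⟨g2, _⟩ := g1.transfer (w := likT lam (n + 1) (node ch)) (Equiv.refl _) (fun c => by
      rw [likT_succ]
      rfl)
    exact (⟨g2.toV, g2.cls⟩ : GoodV (likT lam (n + 1) (node ch)) ∧
      -kap * XX (likT lam (n + 1) (node ch)) ≤ ∑ c, fm (likT lam (n + 1) (node ch) c))

/-- the multiplicative recursion on a tree -/
theorem rec_tree (hal : 0 ≤ al) (hc : 0 ≤ c) (hk : 0 ≤ kap)
    (hτ0 : 0 ≤ τ) (hτ1 : τ ≤ 1) (hτ : τ ≤ t - c * kap - al * kap * (1 + kap))
    (h1 : PWm L t c al) (h3 : PWj) (hm : MsgOK lam L kap) (n k : ℕ) (ch : Fin k → Tr n) :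
    ∏ m, (1 - τ * (lam ^ 2 * XX (likT lam n (ch m)))) ≤
      1 - τ * XX (likT lam (n + 1) (node ch)) := by
  have ih := good_tree hal hc hk hτ0 hτ1 hτ h1 h3 hm n
  obtain ⟨g1, g3⟩ := merge_all hal hc hk hτ0 hτ1 hτ h1 h3 k (fun i => TConf 3 n (ch i))
    (fun i c => msg lam (likT lam n (ch i) c)) (fun i => (hm _ _ (ih (ch i)).1 (ih (ch i)).2).1)
    (fun i => (hm _ _ (ih (ch i)).1 (ih (ch i)).2).2)
  obtain ⟨_, g2⟩ := g1.transfer (w := likT lam (n + 1) (node ch)) (Equiv.refl _) (fun c => by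
    rw [likT_succ]
    rfl)
  rw [g2]
  refine le_trans (le_of_eq ?_) g3
  refine Finset.prod_congr rfl fun m _ => ?_
  rw [XX_msg' (ih (ch m)).1]

end

/-- bound for the total variation distance given the tree -/
theorem aTree_le {lam : ℝ} {n : ℕ} {t : Tr n} (h : GoodV (likT lam n t)) {η : ℝ} (hη : 0 < η) :
    aTree 3 lam n t ≤ η / 2 + XX (likT lam n t) / (4 * η) := by
  have h0 : ∀ c, tProb 3 lam n t c = pp (likT lam n t c) := fun c => by
    simp only [tProb, likT, pp, Fin.sum_univ_three]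
    push_cast
    ring
  have h1 : ∀ c, tProb 3 lam n t c * ((1 / 2) * ∑ i : Fin 3,
      |tPost 3 lam n t i c - 1 / ((3 : ℕ) : ℝ)|) ≤
      η / 2 * pp (likT lam n t c) + Ff (likT lam n t c) / (4 * η) := by
    intro c
    have hp := h.pos c
    have h2 : ∀ i, tPost 3 lam n t i c - 1 / ((3 : ℕ) : ℝ) =
        (likT lam n t c i / pp (likT lam n t c) - 1) / 3 := by
      intro i
      unfold tPost
      rw [h0]
      simp only [likT]
      push_cast
      ring
    simp only [h2]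
    rw [h0]
    set v := likT lam n t c with hv
    have h3 : ∀ i, |(v i / pp v - 1) / 3| ≤ (η + (v i / pp v - 1) ^ 2 / (4 * η)) / 3 := by
      intro i
      rw [abs_div, abs_of_pos (by norm_num : (0 : ℝ) < 3)]
      refine div_le_div_of_nonneg_right ?_ (by norm_num)
      set x := v i / pp v - 1
      have h4 : |x| * (4 * η) ≤ 4 * η ^ 2 + x ^ 2 := by
        have := sq_nonneg (|x| - 2 * η)
        rw [← sq_abs x]
        nlinarith
      have h5 : |x| ≤ (4 * η ^ 2 + x ^ 2) / (4 * η) := by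
        rw [le_div_iff₀ (by positivity)]; exact h4
      calc |x| ≤ (4 * η ^ 2 + x ^ 2) / (4 * η) := h5
        _ = η + x ^ 2 / (4 * η) := by field_simp
    have h6 : ∑ i : Fin 3, |(v i / pp v - 1) / 3| ≤
        ∑ i : Fin 3, (η + (v i / pp v - 1) ^ 2 / (4 * η)) / 3 :=
      Finset.sum_le_sum fun i _ => h3 i
    have h7 : pp v * (1 / 2 * ∑ i : Fin 3, (η + (v i / pp v - 1) ^ 2 / (4 * η)) / 3) =
        η / 2 * pp v + Ff v / (4 * η) := by
      rw [Fin.sum_univ_three]
      have e : v 2 = 3 * pp v - v 0 - v 1 := by simp only [pp]; ring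
      unfold Ff
      rw [e]
      have hp' := hp.ne'
      have hη' := hη.ne'
      generalize pp v = p at *
      field_simp
      ring
    rw [← h7]
    exact mul_le_mul_of_nonneg_left (mul_le_mul_of_nonneg_left h6 (by norm_num)) hp.le
  unfold aTree
  refine le_trans (Finset.sum_le_sum fun c _ => h1 c) ?_
  rw [Finset.sum_add_distrib, ← Finset.mul_sum, h.tot, ← Finset.sum_div]
  simp only [mul_one]
  rfl

theorem aTree_nonneg {lam : ℝ} {n : ℕ} {t : Tr n} (h : GoodV (likT lam n t)) :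
    0 ≤ aTree 3 lam n t := by
  have h0 : ∀ c, tProb 3 lam n t c = pp (likT lam n t c) := fun c => by
    simp only [tProb, likT, pp, Fin.sum_univ_three]
    push_cast
    ring
  unfold aTree
  refine Finset.sum_nonneg fun c _ => ?_
  rw [h0]
  exact mul_nonneg (h.pos c).le
    (mul_nonneg (by norm_num) (Finset.sum_nonneg fun i _ => abs_nonneg _))

theorem aTree_le_one {lam : ℝ} {n : ℕ} {t : Tr n} (h : GoodV (likT lam n t)) :
    aTree 3 lam n t ≤ 1 := by
  have h1 := aTree_le h (η := 1) one_pos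
  have h2 := h.X_le_one
  linarith

end Vale.Agent.Potts
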