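import Mathlib
import Vale.Agent.Potts.GWTree

/-! P154: the `d`-ary tree, every `d ≥ 2`. -/

namespace Vale.Agent.Potts

open Finset Filter

/-- bound for the total variation distance given the tree -/
theorem aSeq_le' {d : ℕ} {lam : ℝ} {n : ℕ} (h : GoodV (lik d lam n)) {η : ℝ} (hη : 0 < η) :
    aSeq 3 d lam n ≤ η / 2 + XX (lik d lam n) / (4 * η) := by
  have h0 : ∀ c, confProb 3 d lam n c = pp (lik d lam n c) := fun c => by
    simp only [confProb, lik, pp, Fin.sum_univ_three]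
    push_cast
    ring
  have h1 : ∀ c, confProb 3 d lam n c * ((1 / 2) * ∑ i : Fin 3,
      |posterior 3 d lam n i c - 1 / ((3 : ℕ) : ℝ)|) ≤
      η / 2 * pp (lik d lam n c) + Ff (lik d lam n c) / (4 * η) := by
    intro c
    have hp := h.pos c
    have h2 : ∀ i, posterior 3 d lam n i c - 1 / ((3 : ℕ) : ℝ) =
        (lik d lam n c i / pp (lik d lam n c) - 1) / 3 := by
      intro i
      unfold posterior
      rw [h0]
      simp only [lik]
      push_cast
      ring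
    simp only [h2]
    rw [h0]
    set v := lik d lam n c with hv
    have h3 : ∀ i, |(v i / pp v - 1) / 3| ≤ (η + (v i / pp v - 1) ^ 2 / (4 * η)) / 3 := by
      intro i
      rw [abs_div, abs_of_pos (by norm_num : (0 : ℝ) < 3)]
      refine div_le_div_of_nonneg_right ?_ (by norm_num)
      set x := v i / pp v - 1
      have h4 : |x| * (4 * η) ≤ 4 * η ^ 2 + x ^ 2 := by
        have := sq_nonneg (|x| - 2 * η)
        rw [← sq_abs x]
        nlinarith
      have h5 : |x| ≤ (4 * η ^ 2 + x ^ 2) / (4 * η) := by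
        rw [le_div_iff₀ (by positivity)]; exact h4
      calc |x| ≤ (4 * η ^ 2 + x ^ 2) / (4 * η) := h5
        _ = η + x ^ 2 / (4 * η) := by field_simp
    have h6 : ∑ i : Fin 3, |(v i / pp v - 1) / 3| ≤
        ∑ i : Fin 3, (η + (v i / pp v - 1) ^ 2 / (4 * η)) / 3 :=
      Finset.sum_le_sum fun i _ => h3 i
    have h7 : pp v * (1 / 2 * ∑ i : Fin 3, (η + (v i / pp v - 1) ^ 2 / (4 * η)) / 3) =
        η / 2 * pp v + Ff v / (4 * η) := by
      rw [Fin.sum_univ_three]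
      have e : v 2 = 3 * pp v - v 0 - v 1 := by simp only [pp]; ring
      unfold Ff
      rw [e]
      have hp' := hp.ne'
      have hη' := hη.ne'
      generalize pp v = p at *
      field_simp
      ring
    rw [← h7]
    exact mul_le_mul_of_nonneg_left (mul_le_mul_of_nonneg_left h6 (by norm_num)) hp.le
  unfold aSeq
  refine le_trans (Finset.sum_le_sum fun c _ => h1 c) ?_
  rw [Finset.sum_add_distrib, ← Finset.mul_sum, h.tot, ← Finset.sum_div]
  simp only [mul_one]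
  rfl

theorem aSeq_nonneg' {d : ℕ} {lam : ℝ} {n : ℕ} (h : GoodV (lik d lam n)) :
    0 ≤ aSeq 3 d lam n := by
  have h0 : ∀ c, confProb 3 d lam n c = pp (lik d lam n c) := fun c => by
    simp only [confProb, lik, pp, Fin.sum_univ_three]
    push_cast
    ring
  unfold aSeq
  refine Finset.sum_nonneg fun c _ => ?_
  rw [h0]
  exact mul_nonneg (h.pos c).le
    (mul_nonneg (by norm_num) (Finset.sum_nonneg fun i _ => abs_nonneg _))

section
variable {lam L t c al kap τ : ℝ}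

theorem good_lik (hal : 0 ≤ al) (hc : 0 ≤ c) (hk : 0 ≤ kap)
    (hτ0 : 0 ≤ τ) (hτ1 : τ ≤ 1) (hτ : τ ≤ t - c * kap - al * kap * (1 + kap))
    (h1 : PWm L t c al) (h3 : PWj) (hm : MsgOK lam L kap) (d : ℕ) :
    ∀ n : ℕ, GoodV (lik d lam n) ∧ -kap * XX (lik d lam n) ≤ ∑ c, fm (lik d lam n c) := by
  intro n
  induction n with
  | zero =>
    have hg := good_ind
    have hV : GoodV ind := ⟨hg.nn, hg.pos, hg.tot, hg.eqv⟩
    have hX := hV.X_nonneg
    have h2 : -kap * XX ind ≤ ∑ i, fm (ind i) := by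
      have := sum_fm_ind
      have : 0 ≤ kap * XX ind := mul_nonneg hk hX
      linarith
    exact ⟨hV, h2⟩
  | succ n ih =>
    obtain ⟨g1, _⟩ := merge_all hal hc hk hτ0 hτ1 hτ h1 h3 d (fun _ => Conf 3 d n)
      (fun _ c => msg lam (lik d lam n c)) (fun _ => (hm _ _ ih.1 ih.2).1)
      (fun _ => (hm _ _ ih.1 ih.2).2)
    obtain ⟨g2, _⟩ := g1.transfer (w := lik d lam (n + 1)) (Equiv.refl _) (fun c => by
      rw [lik_succ]
      rfl)
    exact ⟨g2.toV, g2.cls⟩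

theorem rec_lik (hal : 0 ≤ al) (hc : 0 ≤ c) (hk : 0 ≤ kap)
    (hτ0 : 0 ≤ τ) (hτ1 : τ ≤ 1) (hτ : τ ≤ t - c * kap - al * kap * (1 + kap))
    (h1 : PWm L t c al) (h3 : PWj) (hm : MsgOK lam L kap) (d n : ℕ) :
    (1 - τ * (lam ^ 2 * XX (lik d lam n))) ^ d ≤ 1 - τ * XX (lik d lam (n + 1)) := by
  have ih := good_lik hal hc hk hτ0 hτ1 hτ h1 h3 hm d n
  obtain ⟨g1, g3⟩ := merge_all hal hc hk hτ0 hτ1 hτ h1 h3 d (fun _ => Conf 3 d n)
    (fun _ c => msg lam (lik d lam n c)) (fun _ => (hm _ _ ih.1 ih.2).1)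
    (fun _ => (hm _ _ ih.1 ih.2).2)
  obtain ⟨_, g2⟩ := g1.transfer (w := lik d lam (n + 1)) (Equiv.refl _) (fun c => by
    rw [lik_succ]
    rfl)
  rw [g2]
  refine le_trans (le_of_eq ?_) g3
  rw [Finset.prod_const, Finset.card_univ, Fintype.card_fin, XX_msg' ih.1]

/-- nonreconstruction on the `d`-ary tree -/
theorem regular_tendsto (hal : 0 ≤ al) (hc : 0 ≤ c) (hk : 0 ≤ kap)
    (hτ0 : 0 < τ) (hτ1 : τ ≤ 1) (hτ : τ ≤ t - c * kap - al * kap * (1 + kap))
    (h1 : PWm L t c al) (h3 : PWj) (hm : MsgOK lam L kap) (d : ℕ) (hd : 2 ≤ d)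
    (hl : d * lam ^ 2 ≤ 1) : Tendsto (fun n => aSeq 3 d lam n) atTop (nhds 0) := by
  have hg := good_lik hal hc hk hτ0.le hτ1 hτ h1 h3 hm d
  have hX0 := fun n => (hg n).1.X_nonneg
  have hX1 := fun n => (hg n).1.X_le_one
  have hdR : (2 : ℝ) ≤ d := by exact_mod_cast hd
  have hlam1 : lam ^ 2 ≤ 1 := by nlinarith [sq_nonneg lam]
  have hrec : ∀ n, τ * XX (lik d lam (n + 1)) ≤ d * (lam ^ 2 * (τ * XX (lik d lam n))) -
      ((d : ℝ) - 1) * (lam ^ 2 * (τ * XX (lik d lam n))) ^ 2 := by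
    intro n
    have h2 := rec_lik hal hc hk hτ0.le hτ1 hτ h1 h3 hm d n
    obtain ⟨x, hx⟩ : ∃ x, x = τ * (lam ^ 2 * XX (lik d lam n)) := ⟨_, rfl⟩
    have hx' : lam ^ 2 * (τ * XX (lik d lam n)) = x := by rw [hx]; ring
    rw [← hx] at h2
    rw [hx']
    have hx0 : 0 ≤ x := by rw [hx]; exact mul_nonneg hτ0.le (mul_nonneg (sq_nonneg _) (hX0 n))
    have hx1 : x ≤ 1 := by
      rw [hx]
      have h5 : lam ^ 2 * XX (lik d lam n) ≤ 1 * 1 :=
        mul_le_mul hlam1 (hX1 n) (hX0 n) zero_le_one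
      have h6 : 0 ≤ lam ^ 2 * XX (lik d lam n) := mul_nonneg (sq_nonneg _) (hX0 n)
      calc τ * (lam ^ 2 * XX (lik d lam n)) ≤ 1 * 1 := mul_le_mul hτ1 (by linarith) h6 zero_le_one
        _ = 1 := one_mul 1
    obtain ⟨e, rfl⟩ : ∃ e, d = e + 1 := ⟨d - 1, by omega⟩
    have h7 := one_add_mul_le_pow (show (-2 : ℝ) ≤ -x by linarith) e
    have h8 : (1 - x) * (1 + e * -x) ≤ (1 - x) * (1 + -x) ^ e :=
      mul_le_mul_of_nonneg_left h7 (by linarith)
    have h9 : (1 - x) * (1 + -x) ^ e = (1 - x) ^ (e + 1) := by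
      rw [← sub_eq_add_neg, pow_succ]; ring
    push_cast
    rw [h9] at h8
    nlinarith
  have hlim := rec_tendsto (X := fun n => τ * XX (lik d lam n)) (s := d) (l := lam ^ 2)
    (t := (d : ℝ) - 1) (by linarith) hl (fun n => mul_nonneg hτ0.le (hX0 n)) hrec
  have hlim2 : Tendsto (fun n => XX (lik d lam n)) atTop (nhds 0) := by
    have := hlim.const_mul τ⁻¹
    simp only [mul_zero] at this
    refine this.congr fun n => ?_
    rw [← mul_assoc, inv_mul_cancel₀ hτ0.ne', one_mul]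
  rw [Metric.tendsto_atTop]
  intro ε hε
  have h1 : ∀ᶠ n in atTop, XX (lik d lam n) < ε ^ 2 := by
    have : (0 : ℝ) < ε ^ 2 := by positivity
    exact hlim2.eventually (gt_mem_nhds this)
  obtain ⟨N, hN⟩ := eventually_atTop.1 h1
  refine ⟨N, fun n hn => ?_⟩
  have h2 := hN n hn
  have h3 := aSeq_le' (hg n).1 hε
  have h4 : XX (lik d lam n) / (4 * ε) < ε / 4 * 1 := by
    rw [div_lt_iff₀ (by positivity)]
    nlinarith
  rw [Real.dist_eq, sub_zero, abs_of_nonneg (aSeq_nonneg' (hg n).1)]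
  linarith

end

end Vale.Agent.Potts
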