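import Mathlib
import Vale.Agent.Potts.Regular

/-! P154: continuity of `a_n` in the channel parameter. -/

namespace Vale.Agent.Potts

open Finset Filter

theorem leafLaw_cont (d : ℕ) : ∀ (n : ℕ) (i : Fin 3) (c : Conf 3 d n),
    Continuous fun lam : ℝ => leafLaw 3 d lam n i c
  | 0, i, c => by
    simp only [leafLaw]
    exact continuous_const
  | n + 1, i, c => by
    simp only [leafLaw]
    refine continuous_finsetProd _ fun k _ => continuous_finsetSum _ fun j _ => ?_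
    refine Continuous.mul ?_ (leafLaw_cont d n j (c k))
    unfold channel
    split_ifs
    · fun_prop
    · fun_prop

theorem chan_nonneg {lam : ℝ} (h0 : -(1 / 2) ≤ lam) (h1 : lam ≤ 1) (i j : Fin 3) :
    0 ≤ channel 3 lam i j := by
  unfold channel
  push_cast
  split_ifs <;> linarith

theorem leafLaw_nonneg {lam : ℝ} (h0 : -(1 / 2) ≤ lam) (h1 : lam ≤ 1) (d : ℕ) :
    ∀ (n : ℕ) (i : Fin 3) (c : Conf 3 d n), 0 ≤ leafLaw 3 d lam n i c
  | 0, i, c => by
    simp only [leafLaw]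
    split_ifs <;> norm_num
  | n + 1, i, c => by
    simp only [leafLaw]
    exact Finset.prod_nonneg fun k _ => Finset.sum_nonneg fun j _ =>
      mul_nonneg (chan_nonneg h0 h1 i j) (leafLaw_nonneg h0 h1 d n j (c k))

/-- formula without division -/
theorem aSeq_formula {lam : ℝ} (h0 : -(1 / 2) ≤ lam) (h1 : lam ≤ 1) (d n : ℕ) :
    aSeq 3 d lam n = ∑ c : Conf 3 d n, (1 / 2) * ∑ i : Fin 3,
      |(1 / 3) * leafLaw 3 d lam n i c -
        (1 / 3) * ∑ j : Fin 3, (1 / 3) * leafLaw 3 d lam n j c| := by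
  unfold aSeq
  refine Finset.sum_congr rfl fun c _ => ?_
  have hP : confProb 3 d lam n c = ∑ j : Fin 3, (1 / 3) * leafLaw 3 d lam n j c := by
    simp [confProb]
  have hP0 : 0 ≤ confProb 3 d lam n c := by
    rw [hP]
    exact Finset.sum_nonneg fun j _ => mul_nonneg (by norm_num) (leafLaw_nonneg h0 h1 d n j c)
  rw [← hP]
  rw [mul_left_comm, Finset.mul_sum]
  congr 1
  refine Finset.sum_congr rfl fun i _ => ?_
  rcases hP0.eq_or_lt with h | h
  · rw [← h]
    have h2 : ∀ j, leafLaw 3 d lam n j c = 0 := by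
      have h3 : ∑ j : Fin 3, (1 / 3) * leafLaw 3 d lam n j c = 0 := by rw [← hP, ← h]
      intro j
      have h4 := (Finset.sum_eq_zero_iff_of_nonneg fun j _ =>
        mul_nonneg (by norm_num : (0 : ℝ) ≤ 1 / 3) (leafLaw_nonneg h0 h1 d n j c)).1 h3 j
          (mem_univ j)
      linarith
    rw [h2]
    simp
  · rw [← abs_of_pos h, ← abs_mul, abs_of_pos h]
    congr 1
    unfold posterior
    rw [mul_sub]
    push_cast
    rw [mul_div_cancel₀ _ h.ne']
    ring

theorem aSeq_le_at_half {d n : ℕ} {B : ℝ}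
    (h : ∀ lam : ℝ, -(1 / 2) < lam → lam < 0 → aSeq 3 d lam n ≤ B) :
    aSeq 3 d (-(1 / 2)) n ≤ B := by
  rw [aSeq_formula le_rfl (by norm_num)]
  set f : ℝ → ℝ := fun lam => ∑ c : Conf 3 d n, (1 / 2) * ∑ i : Fin 3,
      |(1 / 3) * leafLaw 3 d lam n i c -
        (1 / 3) * ∑ j : Fin 3, (1 / 3) * leafLaw 3 d lam n j c| with hf
  have hc : Continuous f := by
    refine continuous_finsetSum _ fun c _ => Continuous.mul continuous_const ?_
    refine continuous_finsetSum _ fun i _ => continuous_abs.comp ?_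
    refine Continuous.sub (continuous_const.mul (leafLaw_cont d n i c)) ?_
    exact continuous_const.mul (continuous_finsetSum _ fun j _ =>
      continuous_const.mul (leafLaw_cont d n j c))
  have ht : Tendsto f (nhdsWithin (-(1 / 2)) (Set.Ioi (-(1 / 2)))) (nhds (f (-(1 / 2)))) :=
    (hc.tendsto _).mono_left nhdsWithin_le_nhds
  refine le_of_tendsto ht ?_
  have hev : ∀ᶠ lam in nhdsWithin (-(1 / 2 : ℝ)) (Set.Ioi (-(1 / 2))), lam < 0 :=
    (gt_mem_nhds (by norm_num : (-(1 / 2) : ℝ) < 0)).filter_mono nhdsWithin_le_nhds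
  filter_upwards [hev, self_mem_nhdsWithin] with lam h1 h2
  have h3 : -(1 / 2) < lam := h2
  have := h lam h3 h1
  rw [aSeq_formula h3.le (by linarith)] at this
  exact this

/-- exponential decay of the information gives nonreconstruction, with a uniform bound -/
theorem aSeq_le_geom {d : ℕ} {lam ρ : ℝ} (hρ0 : 0 ≤ ρ)
    (h : ∀ n, GoodV (lik d lam n) ∧ XX (lik d lam (n + 1)) ≤ ρ * XX (lik d lam n))
    (n : ℕ) {η : ℝ} (hη : 0 < η) : aSeq 3 d lam n ≤ η / 2 + ρ ^ n / (4 * η) := by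
  have hX : XX (lik d lam n) ≤ ρ ^ n := by
    induction n with
    | zero => rw [pow_zero]; exact (h 0).1.X_le_one
    | succ n ih =>
      rw [pow_succ, mul_comm]
      exact (h n).2.trans (mul_le_mul_of_nonneg_left ih hρ0)
  have h1 := aSeq_le' (h n).1 hη
  have h2 : XX (lik d lam n) / (4 * η) ≤ ρ ^ n / (4 * η) :=
    div_le_div_of_nonneg_right hX (by positivity)
  linarith

theorem tendsto_of_geom {a : ℕ → ℝ} {ρ : ℝ} (hρ0 : 0 ≤ ρ) (hρ1 : ρ < 1) (ha : ∀ n, 0 ≤ a n)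
    (h : ∀ n (η : ℝ), 0 < η → a n ≤ η / 2 + ρ ^ n / (4 * η)) :
    Tendsto a atTop (nhds 0) := by
  rw [Metric.tendsto_atTop]
  intro ε hε
  have h1 : ∀ᶠ n in atTop, ρ ^ n < ε ^ 2 := by
    have : (0 : ℝ) < ε ^ 2 := by positivity
    exact (tendsto_pow_atTop_nhds_zero_of_lt_one hρ0 hρ1).eventually (gt_mem_nhds this)
  obtain ⟨N, hN⟩ := eventually_atTop.1 h1
  refine ⟨N, fun n hn => ?_⟩
  have h2 := hN n hn
  have h3 := h n ε hε
  have h4 : ρ ^ n / (4 * ε) < ε / 4 * 1 := by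
    rw [div_lt_iff₀ (by positivity)]
    nlinarith
  rw [Real.dist_eq, sub_zero, abs_of_nonneg (ha n)]
  linarith

theorem aSeq_nonneg'' {lam : ℝ} (h0 : -(1 / 2) ≤ lam) (h1 : lam ≤ 1) (d n : ℕ) :
    0 ≤ aSeq 3 d lam n := by
  rw [aSeq_formula h0 h1]
  exact Finset.sum_nonneg fun c _ => mul_nonneg (by norm_num)
    (Finset.sum_nonneg fun i _ => abs_nonneg _)

/-- the subcritical antiferromagnetic range, including `lam = -1/2` -/
theorem sub_tendsto {ρ : ℝ} (hρ0 : 0 ≤ ρ) (hρ1 : ρ < 1)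
    (hrec : ∀ (d : ℕ) (lam : ℝ), 2 ≤ d → -(1 / 2) < lam → lam < 0 → d * lam ^ 2 ≤ 3 / 4 →
      ∀ n, GoodV (lik d lam n) ∧ XX (lik d lam (n + 1)) ≤ ρ * XX (lik d lam n))
    (d : ℕ) (lam : ℝ) (hd : 2 ≤ d) (h0 : -(1 / 2) ≤ lam) (h1 : lam < 0)
    (hl : d * lam ^ 2 ≤ 3 / 4) : Tendsto (fun n => aSeq 3 d lam n) atTop (nhds 0) := by
  refine tendsto_of_geom hρ0 hρ1 (fun n => aSeq_nonneg'' h0 (by linarith) d n) fun n η hη => ?_
  rcases h0.eq_or_lt with h | h
  · rw [← h]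
    refine aSeq_le_at_half fun l h2 h3 => ?_
    have h4 : (d : ℝ) * l ^ 2 ≤ 3 / 4 := by
      rw [← h] at hl
      have h5 : l ^ 2 ≤ (-(1 / 2)) ^ 2 := by nlinarith
      exact (mul_le_mul_of_nonneg_left h5 (Nat.cast_nonneg d)).trans hl
    exact aSeq_le_geom hρ0 (hrec d l hd h2 h3 h4) n hη
  · exact aSeq_le_geom hρ0 (hrec d lam hd h h1 hl) n hη

end Vale.Agent.Potts
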