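import Vale.Agent.CK.IAEv

/-!
# P154: the two bi-affine inequalities, checked at the corners by ball arithmetic
-/

namespace Vale.Agent.Potts

open Vale.Agent.CK.IA

/-- the polynomial of the inequality for `|z|^2` -/
noncomputable def GG (x y p s : ℝ) : ℝ :=
  1 + x * y - 2 * (x + y) + 2 * ((1 - y) * p) + 2 * ((1 - x) * s) - 2 * ((1 - x - y) * (p * s))
    - (1 - x * y * (3 - 2 * (p * s))) * (1 / 100 + 57 / 50 * s + 143 / 100 * (p * (1 - s)))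

/-- the polynomial of the inequality for `Re z^3`, minus `1/3` -/
noncomputable def KP (x y p s : ℝ) : ℝ :=
  (p + s - (3 - 2 * (p * s)) * (1 - x * p - y * s + x * y * (p + s))
    + 3 / 2 * (2 - x - y - x * y)
    + (1 / 2 * ((3 - 2 * p) * (3 - 2 * s)) - 3 * ((1 - y) * p + (1 - x) * s))
    + 3 / 2 * ((1 - 2 * (p * s)) * ((1 - x * (3 - 2 * p)) * (1 - y * (3 - 2 * s))))) - 1 / 3

def on : Ex := Ex.k 1 1
def eP : Ex := Ex.sub Ex.x on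
def eS : Ex := Ex.sub Ex.y on
def e2 : Ex := Ex.k 2 1
def Xu (a b : ℕ) (P : Ex) : Ex :=
  Ex.mul (Ex.k (a * a * a) (b * b * b)) (Ex.inv (Ex.sub (Ex.k (3 * a) b) (Ex.mul e2 P)))
def eG (X Y P S : Ex) : Ex :=
  Ex.sub (Ex.sub (Ex.add (Ex.add (Ex.sub (Ex.add on (Ex.mul X Y)) (Ex.mul e2 (Ex.add X Y)))
    (Ex.mul e2 (Ex.mul (Ex.sub on Y) P))) (Ex.mul e2 (Ex.mul (Ex.sub on X) S)))
    (Ex.mul e2 (Ex.mul (Ex.sub (Ex.sub on X) Y) (Ex.mul P S))))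
    (Ex.mul (Ex.sub on (Ex.mul (Ex.mul X Y) (Ex.sub (Ex.k 3 1) (Ex.mul e2 (Ex.mul P S)))))
      (Ex.add (Ex.add (Ex.k 1 100) (Ex.mul (Ex.k 57 50) S))
        (Ex.mul (Ex.k 143 100) (Ex.mul P (Ex.sub on S)))))
def eK (X Y P S : Ex) : Ex :=
  Ex.sub (Ex.add (Ex.add (Ex.add (Ex.sub (Ex.add P S)
     (Ex.mul (Ex.sub (Ex.k 3 1) (Ex.mul e2 (Ex.mul P S)))
       (Ex.add (Ex.sub (Ex.sub on (Ex.mul X P)) (Ex.mul Y S)) (Ex.mul (Ex.mul X Y) (Ex.add P S)))))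
     (Ex.mul (Ex.k 3 2) (Ex.sub (Ex.sub (Ex.sub e2 X) Y) (Ex.mul X Y))))
     (Ex.sub (Ex.mul (Ex.k 1 2) (Ex.mul (Ex.sub (Ex.k 3 1) (Ex.mul e2 P)) (Ex.sub (Ex.k 3 1) (Ex.mul e2 S))))
       (Ex.mul (Ex.k 3 1) (Ex.add (Ex.mul (Ex.sub on Y) P) (Ex.mul (Ex.sub on X) S)))))
     (Ex.mul (Ex.k 3 2) (Ex.mul (Ex.sub on (Ex.mul e2 (Ex.mul P S)))
       (Ex.mul (Ex.sub on (Ex.mul X (Ex.sub (Ex.k 3 1) (Ex.mul e2 P))))
         (Ex.sub on (Ex.mul Y (Ex.sub (Ex.k 3 1) (Ex.mul e2 S)))))))) (Ex.k 1 3)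

theorem val_eG (X Y P S : Ex) (u v w : ℝ) :
    val (eG X Y P S) u v w = GG (val X u v w) (val Y u v w) (val P u v w) (val S u v w) := by
  simp only [eG, val, on, e2, GG]
  push_cast
  ring

theorem val_eK (X Y P S : Ex) (u v w : ℝ) :
    val (eK X Y P S) u v w = KP (val X u v w) (val Y u v w) (val P u v w) (val S u v w) := by
  simp only [eK, val, on, e2, KP]
  push_cast
  ring

theorem val_eP (u v w : ℝ) : val eP u v w = u - 1 := by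
  simp [eP, on, val]
theorem val_eS (u v w : ℝ) : val eS u v w = v - 1 := by
  simp [eS, on, val]
theorem val_Xu (a b : ℕ) (P : Ex) (u v w : ℝ) :
    val (Xu a b P) u v w = ((a : ℝ) / b) ^ 3 / (3 * ((a : ℝ) / b) - 2 * val P u v w) := by
  simp only [Xu, val, e2]
  push_cast
  rw [div_eq_mul_inv (((a : ℝ) / b) ^ 3)]
  congr 1
  · rw [div_pow]; ring
  · congr 1; ring
theorem val_sq (P : Ex) (u v w : ℝ) : val (Ex.mul P P) u v w = (val P u v w) ^ 2 := by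
  simp only [val]; ring

theorem inI_of' {l w : ℕ} {x : ℝ} {a b : ℝ} (h1 : a ≤ x) (h2 : x ≤ b)
    (ha : (l : ℝ) ≤ a * 1099511627776) (hb : b * 1099511627776 ≤ (l : ℝ) + w) : inI l w x := by
  unfold inI SC
  constructor
  · nlinarith
  · nlinarith

section
open Tr
def bxA : Bx := ⟨706828902470, 1178048174816, 706828902470, 1178048174816, 0, 0⟩

theorem cGA00 : check [eG (Ex.mul eP eP) (Ex.mul eS eS) eP eS]
  (x (y (y (x (y (x (y (l 0) (l 0)) (l 0)) (l 0)) (l 0)) (x (l 0) (l 0))) (x (y (l 0) (x (y (l 0)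
  (l 0)) (l 0))) (y (l 0) (y (l 0) (l 0))))) (y (y (x (y (l 0) (l 0)) (y (x (l 0) (y (x (l 0) (l
  0)) (l 0))) (x (l 0) (l 0)))) (x (l 0) (x (l 0) (y (l 0) (l 0))))) (x (y (x (l 0) (l 0)) (x (y
  (l 0) (l 0)) (y (l 0) (l 0)))) (y (x (y (l 0) (l 0)) (y (l 0) (x (l 0) (l 0)))) (x (y (l 0) (x
  (l 0) (l 0))) (y (x (l 0) (y (l 0) (l 0))) (x (y (l 0) (l 0)) (y (l 0) (x (l 0) (l 0))))))))))
  bxA = true := by decide +kernel

theorem cGA01 : check [eG (Ex.mul eP eP) (Xu 5 7 eS) eP eS]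
  (y (x (x (x (y (x (l 0) (l 0)) (l 0)) (y (l 0) (l 0))) (y (l 0) (l 0))) (x (x (l 0) (y (l 0) (l
  0))) (x (y (l 0) (l 0)) (y (x (l 0) (x (l 0) (l 0))) (x (l 0) (y (l 0) (l 0))))))) (x (x (y (x
  (l 0) (l 0)) (y (l 0) (x (l 0) (l 0)))) (y (l 0) (y (l 0) (l 0)))) (y (x (x (l 0) (l 0)) (x (x
  (l 0) (l 0)) (y (x (l 0) (l 0)) (x (l 0) (l 0))))) (x (y (x (l 0) (l 0)) (x (l 0) (y (l 0) (l
  0)))) (y (x (l 0) (x (l 0) (y (l 0) (l 0)))) (x (y (l 0) (x (l 0) (l 0))) (y (x (l 0) (l 0)) (x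
  (l 0) (y (l 0) (l 0))))))))))
  bxA = true := by decide +kernel

theorem cGA10 : check [eG (Xu 5 7 eP) (Ex.mul eS eS) eP eS]
  (x (y (y (y (x (y (l 0) (l 0)) (l 0)) (l 0)) (l 0)) (y (y (l 0) (l 0)) (y (x (l 0) (l 0)) (x (l
  0) (l 0))))) (y (y (x (y (y (l 0) (l 0)) (l 0)) (x (y (l 0) (l 0)) (y (x (l 0) (y (l 0) (l 0)))
  (l 0)))) (x (l 0) (x (l 0) (y (l 0) (l 0))))) (x (y (y (l 0) (l 0)) (y (l 0) (x (l 0) (l 0))))
  (y (x (y (l 0) (l 0)) (y (l 0) (x (l 0) (l 0)))) (x (y (l 0) (y (l 0) (l 0))) (y (x (l 0) (y (l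
  0) (l 0))) (x (y (l 0) (l 0)) (y (l 0) (x (l 0) (l 0))))))))))
  bxA = true := by decide +kernel

theorem cGA11 : check [eG (Xu 5 7 eP) (Xu 5 7 eS) eP eS]
  (x (y (y (x (y (l 0) (l 0)) (l 0)) (x (l 0) (l 0))) (y (x (l 0) (l 0)) (y (x (l 0) (l 0)) (x (l
  0) (y (l 0) (l 0)))))) (y (x (y (x (l 0) (l 0)) (l 0)) (x (y (l 0) (l 0)) (y (x (l 0) (x (l 0)
  (l 0))) (x (l 0) (y (l 0) (l 0)))))) (x (y (x (l 0) (l 0)) (y (x (l 0) (l 0)) (y (l 0) (x (l 0)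
  (l 0))))) (y (x (y (l 0) (l 0)) (x (y (l 0) (l 0)) (y (l 0) (l 0)))) (x (y (l 0) (y (l 0) (x (l
  0) (l 0)))) (y (x (l 0) (y (l 0) (l 0))) (x (y (l 0) (l 0)) (y (l 0) (x (l 0) (l 0))))))))))
  bxA = true := by decide +kernel

theorem cKA00 : check [eK (Ex.mul eP eP) (Ex.mul eS eS) eP eS]
  (x (y (x (l 0) (l 0)) (y (x (l 0) (l 0)) (x (y (l 0) (x (l 0) (l 0))) (y (l 0) (x (l 0) (l
  0)))))) (y (x (y (l 0) (l 0)) (y (x (l 0) (y (l 0) (l 0))) (x (l 0) (y (l 0) (l 0))))) (x (y (x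
  (l 0) (y (l 0) (l 0))) (y (x (l 0) (l 0)) (x (l 0) (y (l 0) (l 0))))) (y (x (y (l 0) (l 0)) (y
  (l 0) (x (l 0) (l 0)))) (x (y (x (l 0) (l 0)) (x (y (l 0) (l 0)) (y (l 0) (l 0)))) (y (y (x (l
  0) (l 0)) (x (l 0) (l 0))) (x (y (l 0) (x (l 0) (l 0))) (y (y (l 0) (l 0)) (x (y (l 0) (l 0)) (y
  (l 0) (l 0)))))))))))
  bxA = true := by decide +kernel

theorem cKA01 : check [eK (Ex.mul eP eP) (Xu 5 7 eS) eP eS]
  (y (x (x (l 0) (l 0)) (x (y (l 0) (l 0)) (x (y (l 0) (l 0)) (y (l 0) (x (l 0) (l 0)))))) (x (y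
  (x (l 0) (l 0)) (x (y (l 0) (y (l 0) (l 0))) (y (l 0) (x (l 0) (l 0))))) (y (x (x (l 0) (l 0))
  (x (y (l 0) (l 0)) (y (l 0) (x (l 0) (l 0))))) (x (y (x (l 0) (l 0)) (x (l 0) (y (l 0) (l 0))))
  (y (x (x (l 0) (l 0)) (x (y (l 0) (l 0)) (y (l 0) (l 0)))) (x (y (x (l 0) (l 0)) (x (l 0) (l
  0))) (y (x (l 0) (y (l 0) (l 0))) (x (y (l 0) (l 0)) (y (x (l 0) (l 0)) (x (l 0) (y (l 0) (l
  0))))))))))))
  bxA = true := by decide +kernel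

theorem cKA10 : check [eK (Xu 5 7 eP) (Ex.mul eS eS) eP eS]
  (x (y (y (l 0) (l 0)) (y (x (l 0) (l 0)) (y (x (l 0) (l 0)) (x (l 0) (y (l 0) (l 0)))))) (y (x
  (y (l 0) (l 0)) (y (x (l 0) (x (l 0) (l 0))) (x (l 0) (y (l 0) (l 0))))) (x (y (y (l 0) (l 0))
  (y (x (l 0) (l 0)) (x (l 0) (y (l 0) (l 0))))) (y (x (y (l 0) (l 0)) (y (l 0) (x (l 0) (l 0))))
  (x (y (y (l 0) (l 0)) (y (x (l 0) (l 0)) (x (l 0) (l 0)))) (y (x (y (l 0) (l 0)) (y (l 0) (l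
  0))) (x (y (l 0) (x (l 0) (l 0))) (y (x (l 0) (l 0)) (x (y (l 0) (l 0)) (y (l 0) (x (l 0) (l
  0))))))))))))
  bxA = true := by decide +kernel

theorem cKA11 : check [eK (Xu 5 7 eP) (Xu 5 7 eS) eP eS]
  (x (y (l 0) (y (l 0) (y (x (l 0) (l 0)) (x (l 0) (y (l 0) (l 0)))))) (y (x (l 0) (x (y (l 0) (l
  0)) (y (l 0) (x (l 0) (l 0))))) (x (y (x (l 0) (l 0)) (y (x (l 0) (l 0)) (x (l 0) (y (l 0) (l
  0))))) (y (x (y (l 0) (l 0)) (y (l 0) (x (l 0) (l 0)))) (x (y (x (l 0) (l 0)) (y (x (l 0) (l 0))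
  (x (l 0) (l 0)))) (y (x (y (l 0) (l 0)) (y (l 0) (l 0))) (x (y (l 0) (y (l 0) (l 0))) (y (x (l
  0) (l 0)) (x (y (l 0) (l 0)) (y (l 0) (x (l 0) (l 0))))))))))))
  bxA = true := by decide +kernel

def bxB : Bx := ⟨778820735241, 962072676503, 604731394177, 1484340699696, 0, 0⟩

theorem cGB00 : check [eG (Ex.mul eP eP) (Ex.mul eS eS) eP eS]
  (y (x (y (x (y (y (x (y (x (y (l 0) (l 0)) (l 0)) (l 0)) (l 0)) (l 0)) (l 0)) (y (y (l 0) (l 0))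
  (l 0))) (x (l 0) (l 0))) (y (y (x (y (x (l 0) (l 0)) (l 0)) (y (x (y (l 0) (l 0)) (y (x (l 0) (y
  (l 0) (l 0))) (l 0))) (x (l 0) (l 0)))) (x (l 0) (l 0))) (x (l 0) (y (l 0) (l 0))))) (x (y (x (l
  0) (l 0)) (x (y (x (l 0) (l 0)) (x (y (l 0) (y (l 0) (l 0))) (y (l 0) (l 0)))) (y (l 0) (y (l 0)
  (x (l 0) (l 0)))))) (y (x (y (l 0) (l 0)) (y (l 0) (x (l 0) (l 0)))) (x (y (x (l 0) (l 0)) (x (y
  (l 0) (y (l 0) (l 0))) (y (l 0) (y (l 0) (x (l 0) (l 0)))))) (y (x (y (l 0) (l 0)) (y (l 0) (l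
  0))) (x (y (x (l 0) (l 0)) (y (x (l 0) (l 0)) (x (l 0) (y (l 0) (l 0))))) (y (x (l 0) (l 0)) (x
  (y (l 0) (y (l 0) (l 0))) (y (l 0) (y (l 0) (x (l 0) (l 0))))))))))))
  bxB = true := by decide +kernel

theorem cGB01 : check [eG (Ex.mul eP eP) (Xu 9 10 eS) eP eS]
  (y (x (x (y (x (y (x (y (l 0) (l 0)) (l 0)) (l 0)) (y (l 0) (l 0))) (x (l 0) (l 0))) (y (y (l 0)
  (l 0)) (l 0))) (x (y (x (l 0) (y (l 0) (l 0))) (x (l 0) (l 0))) (y (x (y (x (l 0) (l 0)) (l 0))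
  (x (y (l 0) (l 0)) (y (x (l 0) (y (l 0) (l 0))) (x (l 0) (l 0))))) (x (y (l 0) (l 0)) (y (x (l
  0) (l 0)) (x (l 0) (l 0))))))) (x (y (x (x (l 0) (l 0)) (l 0)) (x (y (x (l 0) (l 0)) (y (x (l 0)
  (l 0)) (x (y (l 0) (l 0)) (l 0)))) (y (l 0) (y (l 0) (x (l 0) (y (l 0) (l 0))))))) (y (x (x (l
  0) (l 0)) (x (y (l 0) (l 0)) (y (x (l 0) (l 0)) (x (l 0) (l 0))))) (x (y (x (l 0) (l 0)) (y (x
  (l 0) (l 0)) (x (y (l 0) (x (l 0) (l 0))) (y (l 0) (x (l 0) (l 0)))))) (y (x (y (l 0) (l 0)) (y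
  (l 0) (x (l 0) (l 0)))) (x (y (x (l 0) (l 0)) (y (x (l 0) (l 0)) (x (l 0) (y (l 0) (l 0))))) (y
  (x (l 0) (y (l 0) (l 0))) (y (x (l 0) (l 0)) (x (y (l 0) (x (l 0) (l 0))) (y (l 0) (x (l 0) (l
  0))))))))))))
  bxB = true := by decide +kernel

theorem cGB10 : check [eG (Xu 7 12 eP) (Ex.mul eS eS) eP eS]
  (y (x (y (y (y (x (y (y (x (l 0) (l 0)) (l 0)) (l 0)) (y (y (l 0) (l 0)) (l 0))) (x (l 0) (l
  0))) (l 0)) (l 0)) (y (x (y (y (y (x (l 0) (l 0)) (l 0)) (l 0)) (l 0)) (y (x (y (y (l 0) (l 0))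
  (l 0)) (y (y (x (l 0) (y (x (l 0) (l 0)) (l 0))) (l 0)) (l 0))) (x (l 0) (l 0)))) (x (l 0) (y (l
  0) (l 0))))) (x (y (y (l 0) (l 0)) (y (y (l 0) (l 0)) (y (x (l 0) (l 0)) (x (y (l 0) (l 0)) (y
  (l 0) (x (l 0) (l 0))))))) (y (x (y (l 0) (l 0)) (y (l 0) (x (l 0) (l 0)))) (x (y (y (l 0) (l
  0)) (y (x (l 0) (l 0)) (x (y (l 0) (l 0)) (y (l 0) (x (l 0) (l 0)))))) (y (x (y (l 0) (l 0)) (y
  (l 0) (x (l 0) (l 0)))) (x (y (y (l 0) (l 0)) (y (x (l 0) (l 0)) (x (l 0) (y (l 0) (l 0))))) (y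
  (x (l 0) (y (l 0) (l 0))) (x (y (l 0) (x (l 0) (l 0))) (y (x (l 0) (l 0)) (x (y (l 0) (l 0)) (y
  (l 0) (l 0))))))))))))
  bxB = true := by decide +kernel

theorem cGB11 : check [eG (Xu 7 12 eP) (Xu 9 10 eS) eP eS]
  (y (x (y (x (y (y (x (l 0) (l 0)) (l 0)) (l 0)) (y (y (x (l 0) (l 0)) (l 0)) (l 0))) (y (x (l 0)
  (l 0)) (l 0))) (x (y (y (x (l 0) (l 0)) (x (l 0) (l 0))) (y (l 0) (l 0))) (x (y (y (x (l 0) (l
  0)) (l 0)) (y (l 0) (l 0))) (y (x (y (y (l 0) (l 0)) (l 0)) (y (x (l 0) (y (l 0) (l 0))) (x (l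
  0) (l 0)))) (x (y (l 0) (l 0)) (y (l 0) (l 0))))))) (x (y (x (l 0) (y (l 0) (l 0))) (y (x (l 0)
  (l 0)) (y (x (l 0) (l 0)) (x (y (l 0) (l 0)) (y (l 0) (x (l 0) (l 0))))))) (y (x (y (l 0) (l 0))
  (x (y (l 0) (l 0)) (y (x (l 0) (l 0)) (x (l 0) (l 0))))) (x (y (x (l 0) (l 0)) (y (x (l 0) (l
  0)) (x (y (l 0) (l 0)) (y (l 0) (x (l 0) (l 0)))))) (y (x (y (l 0) (l 0)) (x (y (l 0) (l 0)) (y
  (l 0) (l 0)))) (x (y (x (l 0) (l 0)) (y (x (l 0) (l 0)) (x (l 0) (y (l 0) (l 0))))) (y (x (l 0)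
  (y (l 0) (l 0))) (x (y (l 0) (y (l 0) (x (l 0) (l 0)))) (y (x (l 0) (l 0)) (x (y (l 0) (l 0)) (y
  (l 0) (l 0))))))))))))
  bxB = true := by decide +kernel

theorem cKB00 : check [eK (Ex.mul eP eP) (Ex.mul eS eS) eP eS]
  (y (x (y (l 0) (l 0)) (y (x (l 0) (x (l 0) (l 0))) (x (l 0) (y (l 0) (l 0))))) (x (y (y (l 0) (x
  (l 0) (l 0))) (x (y (y (l 0) (l 0)) (y (l 0) (x (l 0) (l 0)))) (y (y (l 0) (l 0)) (y (l 0) (l
  0))))) (y (x (y (l 0) (x (l 0) (l 0))) (y (x (l 0) (l 0)) (x (l 0) (y (l 0) (l 0))))) (x (y (x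
  (l 0) (y (l 0) (l 0))) (x (y (l 0) (l 0)) (y (l 0) (l 0)))) (y (x (y (l 0) (l 0)) (y (x (l 0) (l
  0)) (x (l 0) (l 0)))) (x (y (x (l 0) (l 0)) (x (l 0) (l 0))) (y (x (l 0) (y (l 0) (l 0))) (x (y
  (l 0) (l 0)) (y (x (l 0) (l 0)) (x (l 0) (l 0)))))))))))
  bxB = true := by decide +kernel

theorem cKB01 : check [eK (Ex.mul eP eP) (Xu 9 10 eS) eP eS]
  (y (x (y (l 0) (l 0)) (x (y (l 0) (l 0)) (y (l 0) (x (l 0) (l 0))))) (x (y (x (l 0) (l 0)) (y (x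
  (l 0) (l 0)) (x (y (l 0) (x (l 0) (l 0))) (y (l 0) (l 0))))) (y (x (y (l 0) (l 0)) (y (x (l 0)
  (l 0)) (x (l 0) (y (l 0) (l 0))))) (x (y (x (l 0) (l 0)) (x (y (l 0) (l 0)) (y (l 0) (x (l 0) (l
  0))))) (y (x (y (l 0) (l 0)) (y (l 0) (x (l 0) (l 0)))) (x (y (x (l 0) (l 0)) (x (l 0) (y (l 0)
  (l 0)))) (y (x (l 0) (y (l 0) (l 0))) (x (y (l 0) (l 0)) (y (x (l 0) (l 0)) (x (l 0) (l
  0)))))))))))
  bxB = true := by decide +kernel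

theorem cKB10 : check [eK (Xu 7 12 eP) (Ex.mul eS eS) eP eS]
  (y (x (y (l 0) (l 0)) (y (x (l 0) (x (l 0) (l 0))) (x (l 0) (y (l 0) (l 0))))) (x (y (y (l 0) (l
  0)) (y (x (l 0) (l 0)) (x (y (l 0) (l 0)) (y (l 0) (x (l 0) (l 0)))))) (y (x (y (l 0) (l 0)) (y
  (x (l 0) (l 0)) (x (l 0) (y (l 0) (l 0))))) (x (y (y (l 0) (l 0)) (y (x (l 0) (l 0)) (x (l 0) (l
  0)))) (y (x (y (l 0) (l 0)) (y (x (l 0) (l 0)) (x (l 0) (y (l 0) (l 0))))) (x (y (x (l 0) (l 0))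
  (x (l 0) (l 0))) (y (x (y (l 0) (l 0)) (y (l 0) (x (l 0) (l 0)))) (x (y (l 0) (l 0)) (x (y (l 0)
  (l 0)) (y (l 0) (l 0)))))))))))
  bxB = true := by decide +kernel

theorem cKB11 : check [eK (Xu 7 12 eP) (Xu 9 10 eS) eP eS]
  (y (x (y (l 0) (l 0)) (x (y (l 0) (l 0)) (y (l 0) (x (l 0) (l 0))))) (x (y (y (l 0) (l 0)) (y (x
  (l 0) (l 0)) (y (x (l 0) (l 0)) (x (l 0) (y (l 0) (l 0)))))) (y (x (y (l 0) (l 0)) (x (y (l 0)
  (l 0)) (y (l 0) (x (l 0) (l 0))))) (x (y (y (l 0) (l 0)) (y (x (l 0) (l 0)) (x (l 0) (y (l 0) (l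
  0))))) (y (x (y (l 0) (l 0)) (y (x (l 0) (l 0)) (x (l 0) (l 0)))) (x (y (x (l 0) (l 0)) (x (l 0)
  (y (l 0) (l 0)))) (y (x (y (l 0) (l 0)) (y (l 0) (l 0))) (x (y (l 0) (l 0)) (y (x (l 0) (l 0))
  (x (l 0) (y (l 0) (l 0))))))))))))
  bxB = true := by decide +kernel

end

theorem use_check {e : Ex} {T : Tr} {B : Bx} (hc : check [e] T B = true) {u v : ℝ}
    (hu : inI B.lx B.wx u) (hv : inI B.ly B.wy v) (hz : B.lz = 0) : 0 < val e u v 0 := by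
  obtain ⟨f, hf, h⟩ := check_sound _ _ _ hc u v 0 ⟨hu, hv, by rw [hz]; simp [inI]⟩
  simp only [List.mem_cons, List.not_mem_nil, or_false] at hf
  subst hf
  exact h

/-- upper boundary of the scaled triangle in the coordinates `(x, p)` -/
noncomputable def XL (L p : ℝ) : ℝ := L ^ 3 / (3 * L - 2 * p)

theorem affine_nonneg {f : ℝ → ℝ} {A B : ℝ} (hf : ∀ x, f x = A + B * x) {l h x : ℝ}
    (hl : 0 ≤ f l) (hh : 0 ≤ f h) (h1 : l ≤ x) (h2 : x ≤ h) : 0 ≤ f x := by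
  rw [hf] at *
  rcases le_total 0 B with hB | hB
  · nlinarith [mul_le_mul_of_nonneg_left h1 hB]
  · nlinarith [mul_le_mul_of_nonpos_left h2 hB]

theorem GG_affx (y p s : ℝ) : ∀ x, GG x y p s = GG 0 y p s + (GG 1 y p s - GG 0 y p s) * x := by
  intro x; simp only [GG]; ring
theorem GG_affy (x p s : ℝ) : ∀ y, GG x y p s = GG x 0 p s + (GG x 1 p s - GG x 0 p s) * y := by
  intro y; simp only [GG]; ring
theorem KP_affx (y p s : ℝ) : ∀ x, KP x y p s = KP 0 y p s + (KP 1 y p s - KP 0 y p s) * x := by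
  intro x; simp only [KP]; ring
theorem KP_affy (x p s : ℝ) : ∀ y, KP x y p s = KP x 0 p s + (KP x 1 p s - KP x 0 p s) * y := by
  intro y; simp only [KP]; ring

theorem biaffine {f : ℝ → ℝ → ℝ} (hx : ∀ y x, f x y = f 0 y + (f 1 y - f 0 y) * x)
    (hy : ∀ x y, f x y = f x 0 + (f x 1 - f x 0) * y) {a b c d x y : ℝ}
    (h00 : 0 ≤ f a c) (h01 : 0 ≤ f a d) (h10 : 0 ≤ f b c) (h11 : 0 ≤ f b d)
    (h1 : a ≤ x) (h2 : x ≤ b) (h3 : c ≤ y) (h4 : y ≤ d) : 0 ≤ f x y := by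
  have e1 : 0 ≤ f x c := affine_nonneg (hx c) h00 h10 h1 h2
  have e2 : 0 ≤ f x d := affine_nonneg (hx d) h01 h11 h1 h2
  exact affine_nonneg (hy x) e1 e2 h3 h4

theorem GG_nonnegA {x y p s : ℝ} (hp1 : -((5:ℝ)/7) / 2 ≤ p) (hp2 : p ≤ 5/7)
    (hs1 : -((5:ℝ)/7) / 2 ≤ s) (hs2 : s ≤ 5/7) (hx1 : p ^ 2 ≤ x) (hx2 : x ≤ XL (5/7) p)
    (hy1 : s ^ 2 ≤ y) (hy2 : y ≤ XL (5/7) s) : 0 ≤ GG x y p s := by
  have hu : inI bxA.lx bxA.wx (p + 1) :=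
    inI_of' (a := 1 - (5:ℝ)/7/2) (b := 1 + 5/7) (by linarith) (by linarith)
      (by norm_num [bxA]) (by norm_num [bxA])
  have hv : inI bxA.ly bxA.wy (s + 1) :=
    inI_of' (a := 1 - (5:ℝ)/7/2) (b := 1 + 5/7) (by linarith) (by linarith)
      (by norm_num [bxA]) (by norm_num [bxA])
  have h00 := use_check cGA00 hu hv rfl
  have h01 := use_check cGA01 hu hv rfl
  have h10 := use_check cGA10 hu hv rfl
  have h11 := use_check cGA11 hu hv rfl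
  simp only [val_eG, val_sq, val_Xu, val_eP, val_eS, add_sub_cancel_right, Nat.cast_ofNat] at h00 h01 h10 h11
  refine biaffine (f := fun x y => GG x y p s) (fun y x => GG_affx y p s x)
    (fun x y => GG_affy x p s y) (a := p ^ 2) (b := XL (5/7) p) (c := s ^ 2)
    (d := XL (5/7) s) ?_ ?_ ?_ ?_ hx1 hx2 hy1 hy2
  · exact h00.le
  · simpa only [XL] using h01.le
  · simpa only [XL] using h10.le
  · simpa only [XL] using h11.le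

theorem KP_nonnegA {x y p s : ℝ} (hp1 : -((5:ℝ)/7) / 2 ≤ p) (hp2 : p ≤ 5/7)
    (hs1 : -((5:ℝ)/7) / 2 ≤ s) (hs2 : s ≤ 5/7) (hx1 : p ^ 2 ≤ x) (hx2 : x ≤ XL (5/7) p)
    (hy1 : s ^ 2 ≤ y) (hy2 : y ≤ XL (5/7) s) : 0 ≤ KP x y p s := by
  have hu : inI bxA.lx bxA.wx (p + 1) :=
    inI_of' (a := 1 - (5:ℝ)/7/2) (b := 1 + 5/7) (by linarith) (by linarith)
      (by norm_num [bxA]) (by norm_num [bxA])
  have hv : inI bxA.ly bxA.wy (s + 1) :=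
    inI_of' (a := 1 - (5:ℝ)/7/2) (b := 1 + 5/7) (by linarith) (by linarith)
      (by norm_num [bxA]) (by norm_num [bxA])
  have h00 := use_check cKA00 hu hv rfl
  have h01 := use_check cKA01 hu hv rfl
  have h10 := use_check cKA10 hu hv rfl
  have h11 := use_check cKA11 hu hv rfl
  simp only [val_eK, val_sq, val_Xu, val_eP, val_eS, add_sub_cancel_right, Nat.cast_ofNat] at h00 h01 h10 h11
  refine biaffine (f := fun x y => KP x y p s) (fun y x => KP_affx y p s x)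
    (fun x y => KP_affy x p s y) (a := p ^ 2) (b := XL (5/7) p) (c := s ^ 2)
    (d := XL (5/7) s) ?_ ?_ ?_ ?_ hx1 hx2 hy1 hy2
  · exact h00.le
  · simpa only [XL] using h01.le
  · simpa only [XL] using h10.le
  · simpa only [XL] using h11.le

theorem GG_nonnegB {x y p s : ℝ} (hp1 : -((7:ℝ)/12) / 2 ≤ p) (hp2 : p ≤ 7/12)
    (hs1 : -((9:ℝ)/10) / 2 ≤ s) (hs2 : s ≤ 9/10) (hx1 : p ^ 2 ≤ x) (hx2 : x ≤ XL (7/12) p)
    (hy1 : s ^ 2 ≤ y) (hy2 : y ≤ XL (9/10) s) : 0 ≤ GG x y p s := by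
  have hu : inI bxB.lx bxB.wx (p + 1) :=
    inI_of' (a := 1 - (7:ℝ)/12/2) (b := 1 + 7/12) (by linarith) (by linarith)
      (by norm_num [bxB]) (by norm_num [bxB])
  have hv : inI bxB.ly bxB.wy (s + 1) :=
    inI_of' (a := 1 - (9:ℝ)/10/2) (b := 1 + 9/10) (by linarith) (by linarith)
      (by norm_num [bxB]) (by norm_num [bxB])
  have h00 := use_check cGB00 hu hv rfl
  have h01 := use_check cGB01 hu hv rfl
  have h10 := use_check cGB10 hu hv rfl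
  have h11 := use_check cGB11 hu hv rfl
  simp only [val_eG, val_sq, val_Xu, val_eP, val_eS, add_sub_cancel_right, Nat.cast_ofNat] at h00 h01 h10 h11
  refine biaffine (f := fun x y => GG x y p s) (fun y x => GG_affx y p s x)
    (fun x y => GG_affy x p s y) (a := p ^ 2) (b := XL (7/12) p) (c := s ^ 2)
    (d := XL (9/10) s) ?_ ?_ ?_ ?_ hx1 hx2 hy1 hy2
  · exact h00.le
  · simpa only [XL] using h01.le
  · simpa only [XL] using h10.le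
  · simpa only [XL] using h11.le

theorem KP_nonnegB {x y p s : ℝ} (hp1 : -((7:ℝ)/12) / 2 ≤ p) (hp2 : p ≤ 7/12)
    (hs1 : -((9:ℝ)/10) / 2 ≤ s) (hs2 : s ≤ 9/10) (hx1 : p ^ 2 ≤ x) (hx2 : x ≤ XL (7/12) p)
    (hy1 : s ^ 2 ≤ y) (hy2 : y ≤ XL (9/10) s) : 0 ≤ KP x y p s := by
  have hu : inI bxB.lx bxB.wx (p + 1) :=
    inI_of' (a := 1 - (7:ℝ)/12/2) (b := 1 + 7/12) (by linarith) (by linarith)
      (by norm_num [bxB]) (by norm_num [bxB])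
  have hv : inI bxB.ly bxB.wy (s + 1) :=
    inI_of' (a := 1 - (9:ℝ)/10/2) (b := 1 + 9/10) (by linarith) (by linarith)
      (by norm_num [bxB]) (by norm_num [bxB])
  have h00 := use_check cKB00 hu hv rfl
  have h01 := use_check cKB01 hu hv rfl
  have h10 := use_check cKB10 hu hv rfl
  have h11 := use_check cKB11 hu hv rfl
  simp only [val_eK, val_sq, val_Xu, val_eP, val_eS, add_sub_cancel_right, Nat.cast_ofNat] at h00 h01 h10 h11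
  refine biaffine (f := fun x y => KP x y p s) (fun y x => KP_affx y p s x)
    (fun x y => KP_affy x p s y) (a := p ^ 2) (b := XL (7/12) p) (c := s ^ 2)
    (d := XL (9/10) s) ?_ ?_ ?_ ?_ hx1 hx2 hy1 hy2
  · exact h00.le
  · simpa only [XL] using h01.le
  · simpa only [XL] using h10.le
  · simpa only [XL] using h11.le

end Vale.Agent.Potts
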