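import Vale.Agent.Potts.Corner

/-!
# P154, all `d`: the main inequality at the corners, checked by ball arithmetic
-/

namespace Vale.Agent.Potts

open Vale.Agent.CK.IA

/-- the expression of the main inequality, `Tx`, `Ty` upper bounds of the two class functions -/
noncomputable def GT (x y p s Tx Ty : ℝ) : ℝ :=
  1 + x * y - 2 * (x + y) + 2 * ((1 - y) * p) + 2 * ((1 - x) * s) - 2 * ((1 - x - y) * (p * s))
    - (1 - x * y * (3 - 2 * (p * s))) * (1 / 10 + Ty + 3 / 2 * ((1 - s) * Tx))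

def eT (X Y P S TX TY : Ex) : Ex :=
  Ex.sub (Ex.sub (Ex.add (Ex.add (Ex.sub (Ex.add on (Ex.mul X Y)) (Ex.mul e2 (Ex.add X Y)))
    (Ex.mul e2 (Ex.mul (Ex.sub on Y) P))) (Ex.mul e2 (Ex.mul (Ex.sub on X) S)))
    (Ex.mul e2 (Ex.mul (Ex.sub (Ex.sub on X) Y) (Ex.mul P S))))
    (Ex.mul (Ex.sub on (Ex.mul (Ex.mul X Y) (Ex.sub (Ex.k 3 1) (Ex.mul e2 (Ex.mul P S)))))
      (Ex.add (Ex.add (Ex.k 1 10) TY) (Ex.mul (Ex.k 3 2) (Ex.mul (Ex.sub on S) TX))))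

def tx0 (P : Ex) : Ex := Ex.sub on (Ex.inv (Ex.add on P))
def tx1 (a b : ℕ) (P : Ex) : Ex :=
  Ex.add (Ex.sub on (Ex.mul e2 (Ex.inv (Ex.add on P))))
    (Ex.mul (Ex.mul (Ex.inv (Ex.add on P)) (Ex.inv (Ex.add on P)))
      (Ex.mul (Ex.inv (Ex.sub on P)) (Ex.sub on (Xu a b P))))
def n3 (S : Ex) : Ex := Ex.sub (Ex.k 3 1) (Ex.mul e2 S)
def ty0 (S : Ex) : Ex :=
  Ex.add (Ex.sub on (n3 S)) (Ex.mul (Ex.k 1 4) (Ex.mul (Ex.mul (n3 S) (n3 S)) (Ex.add on S)))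
def ty1 (S : Ex) : Ex := Ex.sub on (Ex.mul (Ex.k 1 2) (n3 S))

theorem val_eT (X Y P S TX TY : Ex) (u v w : ℝ) :
    val (eT X Y P S TX TY) u v w = GT (val X u v w) (val Y u v w) (val P u v w) (val S u v w)
      (val TX u v w) (val TY u v w) := by
  simp only [eT, val, on, e2, GT]
  push_cast
  ring

theorem val_tx0 (P : Ex) (u v w : ℝ) : val (tx0 P) u v w = 1 - (1 + val P u v w)⁻¹ := by
  simp only [tx0, val, on]; push_cast; ring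
theorem val_tx1 (a b : ℕ) (P : Ex) (u v w : ℝ) : val (tx1 a b P) u v w =
    1 - 2 * (1 + val P u v w)⁻¹ + (1 + val P u v w)⁻¹ ^ 2 * ((1 - val P u v w)⁻¹ *
      (1 - val (Xu a b P) u v w)) := by
  simp only [tx1, val, on, e2]; push_cast; ring_nf
theorem val_ty0 (S : Ex) (u v w : ℝ) : val (ty0 S) u v w =
    1 - (3 - 2 * val S u v w) + (3 - 2 * val S u v w) ^ 2 / 4 * (1 + val S u v w) := by
  simp only [ty0, n3, val, on, e2]; push_cast; ring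
theorem val_ty1 (S : Ex) (u v w : ℝ) : val (ty1 S) u v w = 1 - (3 - 2 * val S u v w) / 2 := by
  simp only [ty1, n3, val, on, e2]; push_cast; ring

section
open Tr

def bxM : Bx := ⟨706828902470, 1178048174816, 549755812788, 1649267443863, 0, 0⟩

theorem cM00 : check [eT (Ex.mul eP eP) (Ex.mul eS eS) eP eS (tx0 eP) (ty0 eS)]
  (y (x (y (x (y (x (y (l 0) (l 0)) (l 0)) (x (l 0) (l 0))) (y (x (l 0) (l 0)) (x (l 0) (l 0))))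
  (x (y (x (l 0) (l 0)) (x (l 0) (l 0))) (y (l 0) (l 0)))) (y (y (x (x (l 0) (y (l 0) (l 0))) (y
  (x (l 0) (l 0)) (l 0))) (x (y (l 0) (l 0)) (y (l 0) (l 0)))) (y (x (l 0) (x (l 0) (l 0))) (x (l
  0) (x (l 0) (y (l 0) (l 0))))))) (x (y (x (y (x (l 0) (l 0)) (x (l 0) (l 0))) (y (l 0) (l 0)))
  (x (y (x (l 0) (l 0)) (x (y (l 0) (x (l 0) (l 0))) (y (l 0) (l 0)))) (y (l 0) (x (l 0) (l 0)))))
  (y (x (y (l 0) (x (l 0) (l 0))) (y (x (l 0) (y (l 0) (l 0))) (x (y (l 0) (l 0)) (y (l 0) (l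
  0))))) (x (y (x (l 0) (y (l 0) (l 0))) (x (y (l 0) (l 0)) (y (l 0) (x (l 0) (l 0))))) (y (x (y
  (l 0) (l 0)) (y (x (l 0) (l 0)) (x (l 0) (l 0)))) (x (y (x (l 0) (l 0)) (x (l 0) (y (l 0) (l
  0)))) (y (x (l 0) (y (l 0) (l 0))) (x (y (l 0) (l 0)) (y (l 0) (x (l 0) (l 0)))))))))))
  bxM = true := by decide +kernel

theorem cM01 : check [eT (Ex.mul eP eP) (Xu 1 1 eS) eP eS (tx0 eP) (ty1 eS)]
  (x (y (x (x (y (l 0) (l 0)) (y (l 0) (l 0))) (y (x (l 0) (l 0)) (l 0))) (y (x (x (l 0) (l 0)) (l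
  0)) (x (y (x (l 0) (l 0)) (x (y (l 0) (y (l 0) (l 0))) (y (l 0) (l 0)))) (y (l 0) (y (l 0) (x (l
  0) (l 0))))))) (y (x (y (x (l 0) (l 0)) (x (l 0) (l 0))) (y (x (l 0) (x (l 0) (l 0))) (x (l 0)
  (x (l 0) (l 0))))) (y (x (x (l 0) (l 0)) (x (y (l 0) (l 0)) (y (l 0) (x (l 0) (l 0))))) (x (y (x
  (l 0) (l 0)) (x (y (l 0) (l 0)) (y (l 0) (y (l 0) (l 0))))) (y (x (y (l 0) (l 0)) (y (l 0) (x (l
  0) (l 0)))) (x (y (l 0) (x (l 0) (y (l 0) (l 0)))) (y (x (l 0) (y (l 0) (l 0))) (x (y (l 0) (l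
  0)) (y (l 0) (y (l 0) (l 0)))))))))))
  bxM = true := by decide +kernel

theorem cM10 : check [eT (Xu 5 7 eP) (Ex.mul eS eS) eP eS (tx1 5 7 eP) (ty0 eS)]
  (x (y (x (y (x (y (x (l 0) (l 0)) (x (l 0) (l 0))) (y (y (l 0) (l 0)) (x (l 0) (l 0)))) (x (y (x
  (l 0) (l 0)) (y (l 0) (l 0))) (y (l 0) (l 0)))) (y (y (x (y (l 0) (l 0)) (y (l 0) (l 0))) (x (l
  0) (l 0))) (y (x (l 0) (l 0)) (x (l 0) (l 0))))) (y (x (y (x (l 0) (l 0)) (x (l 0) (l 0))) (y (x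
  (l 0) (l 0)) (x (l 0) (l 0)))) (x (y (x (y (l 0) (l 0)) (l 0)) (y (x (l 0) (l 0)) (y (l 0) (l
  0)))) (y (y (l 0) (l 0)) (y (x (l 0) (l 0)) (y (l 0) (x (l 0) (l 0)))))))) (y (x (y (y (x (y (l
  0) (l 0)) (y (l 0) (l 0))) (x (l 0) (l 0))) (y (x (l 0) (l 0)) (x (l 0) (l 0)))) (y (x (y (y (x
  (l 0) (l 0)) (l 0)) (y (l 0) (l 0))) (y (x (y (l 0) (l 0)) (y (l 0) (l 0))) (x (l 0) (y (l 0) (l
  0))))) (x (y (l 0) (l 0)) (y (x (l 0) (l 0)) (x (l 0) (y (l 0) (l 0))))))) (x (y (y (x (l 0) (l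
  0)) (x (l 0) (l 0))) (y (x (y (l 0) (l 0)) (y (l 0) (l 0))) (y (x (l 0) (l 0)) (x (y (l 0) (l
  0)) (y (l 0) (l 0)))))) (y (x (y (y (l 0) (l 0)) (y (l 0) (l 0))) (y (x (l 0) (y (l 0) (l 0)))
  (x (y (l 0) (l 0)) (y (l 0) (l 0))))) (y (x (y (l 0) (x (l 0) (l 0))) (y (x (l 0) (l 0)) (x (l
  0) (x (l 0) (l 0))))) (x (y (x (l 0) (l 0)) (x (l 0) (y (l 0) (l 0)))) (y (x (l 0) (y (l 0) (l
  0))) (x (y (l 0) (l 0)) (y (x (l 0) (l 0)) (x (l 0) (l 0)))))))))))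
  bxM = true := by decide +kernel

theorem cM11 : check [eT (Xu 5 7 eP) (Xu 1 1 eS) eP eS (tx1 5 7 eP) (ty1 eS)]
  (x (y (x (x (y (x (l 0) (l 0)) (x (l 0) (l 0))) (y (x (l 0) (l 0)) (l 0))) (x (y (l 0) (l 0)) (y
  (l 0) (l 0)))) (y (x (x (y (l 0) (l 0)) (l 0)) (x (l 0) (l 0))) (x (y (x (l 0) (l 0)) (y (x (l
  0) (l 0)) (y (l 0) (l 0)))) (y (x (l 0) (l 0)) (y (x (l 0) (l 0)) (y (l 0) (x (l 0) (l 0))))))))
  (y (x (x (y (l 0) (l 0)) (y (l 0) (l 0))) (x (y (x (l 0) (l 0)) (x (l 0) (l 0))) (y (x (l 0) (x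
  (l 0) (l 0))) (x (l 0) (y (l 0) (l 0)))))) (x (y (x (l 0) (y (l 0) (l 0))) (y (x (l 0) (l 0)) (y
  (x (l 0) (l 0)) (x (y (l 0) (l 0)) (y (l 0) (l 0)))))) (y (x (y (l 0) (l 0)) (y (x (l 0) (l 0))
  (x (l 0) (y (l 0) (l 0))))) (y (x (y (l 0) (l 0)) (x (y (l 0) (l 0)) (y (l 0) (l 0)))) (x (y (x
  (l 0) (l 0)) (y (l 0) (x (l 0) (l 0)))) (y (x (l 0) (y (l 0) (l 0))) (x (y (l 0) (l 0)) (y (x (l
  0) (l 0)) (x (l 0) (l 0)))))))))))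
  bxM = true := by decide +kernel

end

theorem conc_nonneg {f : ℝ → ℝ} {A B C : ℝ} (hf : ∀ x, f x = A + B * x + C * x ^ 2) (hC : C ≤ 0)
    {l h x : ℝ} (hl : 0 ≤ f l) (hh : 0 ≤ f h) (h1 : l ≤ x) (h2 : x ≤ h) : 0 ≤ f x := by
  rcases h1.eq_or_lt with e | e
  · rw [← e]; exact hl
  · have e3 : (h - l) * f x = (h - x) * f l + (x - l) * f h - C * ((x - l) * (h - x) * (h - l)) := by
      rw [hf x, hf l, hf h]; ring
    have e4 : 0 ≤ (h - x) * f l := mul_nonneg (by linarith) hl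
    have e5 : 0 ≤ (x - l) * f h := mul_nonneg (by linarith) hh
    have e6 : 0 ≤ (x - l) * (h - x) * (h - l) :=
      mul_nonneg (mul_nonneg (by linarith) (by linarith)) (by linarith)
    have e7 : 0 ≤ (h - l) * f x := by nlinarith [mul_nonneg_of_nonpos_of_nonpos hC (neg_nonpos.mpr e6)]
    exact nonneg_of_mul_nonneg_right e7 (by linarith)

noncomputable def Fxy (p s t0 k1 s0 k2 x y : ℝ) : ℝ := GT x y p s (t0 + k1 * (1 - x)) (s0 + k2 * (1 - y))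

theorem Fxy_x (p s t0 k1 s0 k2 y : ℝ) : ∀ x, Fxy p s t0 k1 s0 k2 x y =
    Fxy p s t0 k1 s0 k2 0 y + (Fxy p s t0 k1 s0 k2 1 y - Fxy p s t0 k1 s0 k2 0 y -
      (-(y * (3 - 2 * (p * s)) * (3 / 2 * ((1 - s) * k1))))) * x
      + (-(y * (3 - 2 * (p * s)) * (3 / 2 * ((1 - s) * k1)))) * x ^ 2 := by
  intro x; simp only [Fxy, GT]; ring
theorem Fxy_y (p s t0 k1 s0 k2 x : ℝ) : ∀ y, Fxy p s t0 k1 s0 k2 x y =
    Fxy p s t0 k1 s0 k2 x 0 + (Fxy p s t0 k1 s0 k2 x 1 - Fxy p s t0 k1 s0 k2 x 0 -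
      (-(x * (3 - 2 * (p * s)) * k2))) * y + (-(x * (3 - 2 * (p * s)) * k2)) * y ^ 2 := by
  intro y; simp only [Fxy, GT]; ring

theorem Fxy_corner {p s t0 k1 s0 k2 a b c d x y : ℝ} (hk1 : 0 ≤ k1) (hk2 : 0 ≤ k2) (hs : s ≤ 1)
    (hps : p * s ≤ 1) (ha : 0 ≤ a) (hc : 0 ≤ c)
    (h00 : 0 ≤ Fxy p s t0 k1 s0 k2 a c) (h01 : 0 ≤ Fxy p s t0 k1 s0 k2 a d)
    (h10 : 0 ≤ Fxy p s t0 k1 s0 k2 b c) (h11 : 0 ≤ Fxy p s t0 k1 s0 k2 b d)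
    (h1 : a ≤ x) (h2 : x ≤ b) (h3 : c ≤ y) (h4 : y ≤ d) : 0 ≤ Fxy p s t0 k1 s0 k2 x y := by
  have hx : 0 ≤ x := by linarith
  have hy : 0 ≤ y := by linarith
  have q : 0 ≤ 3 - 2 * (p * s) := by linarith
  have hs' : 0 ≤ 1 - s := by linarith
  have C1 : ∀ y, 0 ≤ y → -(y * (3 - 2 * (p * s)) * (3 / 2 * ((1 - s) * k1))) ≤ 0 := by
    intro y hy
    have : 0 ≤ y * (3 - 2 * (p * s)) * (3 / 2 * ((1 - s) * k1)) := by positivity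
    linarith
  have C2 : -(x * (3 - 2 * (p * s)) * k2) ≤ 0 := by
    have : 0 ≤ x * (3 - 2 * (p * s)) * k2 := by positivity
    linarith
  have e1 : 0 ≤ Fxy p s t0 k1 s0 k2 x c :=
    conc_nonneg (f := fun x => Fxy p s t0 k1 s0 k2 x c) (Fxy_x p s t0 k1 s0 k2 c) (C1 c hc) h00 h10 h1 h2
  have e2 : 0 ≤ Fxy p s t0 k1 s0 k2 x d :=
    conc_nonneg (f := fun x => Fxy p s t0 k1 s0 k2 x d) (Fxy_x p s t0 k1 s0 k2 d)
      (C1 d (by linarith)) h01 h11 h1 h2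
  exact conc_nonneg (f := fun y => Fxy p s t0 k1 s0 k2 x y) (Fxy_y p s t0 k1 s0 k2 x) C2 e1 e2 h3 h4

/-- main inequality, `x, y` in the domain; the exact class functions -/
theorem GM_nonneg {x y p s : ℝ} (hp1 : -((5:ℝ)/7) / 2 ≤ p) (hp2 : p ≤ 5/7)
    (hs1 : -(1:ℝ) / 2 ≤ s) (hs2 : s < 1) (hx1 : p ^ 2 ≤ x) (hx2 : x ≤ XL (5/7) p)
    (hy1 : s ^ 2 ≤ y) (hy2 : y ≤ XL 1 s) (hx3 : x < 1) (hy3 : y < 1)
    (hD0 : 0 ≤ 1 - x * y * (3 - 2 * (p * s))) :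
    0 ≤ GT x y p s ((p - x) / (1 - x)) ((s - y) / (1 - y)) := by
  have hu : inI bxM.lx bxM.wx (p + 1) :=
    inI_of' (a := 1 - (5:ℝ)/7/2) (b := 1 + 5/7) (by linarith) (by linarith)
      (by norm_num [bxM]) (by norm_num [bxM])
  have hv : inI bxM.ly bxM.wy (s + 1) :=
    inI_of' (a := 1 - (1:ℝ)/2) (b := 2) (by linarith) (by linarith)
      (by norm_num [bxM]) (by norm_num [bxM])
  have h00 := use_check cM00 hu hv rfl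
  have h01 := use_check cM01 hu hv rfl
  have h10 := use_check cM10 hu hv rfl
  have h11 := use_check cM11 hu hv rfl
  simp only [val_eT, val_tx0, val_tx1, val_ty0, val_ty1, val_sq, val_Xu, val_eP, val_eS,
    add_sub_cancel_right, Nat.cast_ofNat, Nat.cast_one, div_one, one_pow, mul_one] at h00 h01 h10 h11
  have p1 : 0 < 1 + p := by linarith
  have p2 : 0 < 1 - p := by linarith
  have s1 : 0 < 1 - s := by linarith
  have s3 : 0 < 3 - 2 * s := by linarith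
  have p3 : 0 < 3 * ((5:ℝ)/7) - 2 * p := by linarith
  set t0 := 1 - 2 * (1 + p)⁻¹ with ht0
  set k1 := (1 + p)⁻¹ ^ 2 * (1 - p)⁻¹ with hk1
  set s0 := 1 - (3 - 2 * s) with hs0
  set k2 := (3 - 2 * s) ^ 2 / 4 * (1 - s)⁻¹ with hk2
  have k1p : 0 ≤ k1 := by positivity
  have k2p : 0 ≤ k2 := by positivity
  have a0 : t0 + k1 * (1 - p ^ 2) = 1 - (1 + p)⁻¹ := by
    rw [ht0, hk1]; field_simp; ring
  have a1 : t0 + k1 * (1 - XL (5/7) p) = 1 - 2 * (1 + p)⁻¹ + (1 + p)⁻¹ ^ 2 * ((1 - p)⁻¹ *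
      (1 - (5 / 7) ^ 3 / (3 * (5 / 7) - 2 * p))) := by
    rw [ht0, hk1, XL]; ring
  have b0 : s0 + k2 * (1 - s ^ 2) = 1 - (3 - 2 * s) + (3 - 2 * s) ^ 2 / 4 * (1 + s) := by
    rw [hs0, hk2]; field_simp; ring
  have b1 : s0 + k2 * (1 - XL 1 s) = 1 - (3 - 2 * s) / 2 := by
    rw [hs0, hk2, XL]; field_simp; ring
  have xl1 : XL 1 s = 1 / (3 - 2 * s) := by rw [XL]; norm_num
  have hps : p * s ≤ 1 := by nlinarith
  have main : 0 ≤ Fxy p s t0 k1 s0 k2 x y := by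
    refine Fxy_corner (a := p ^ 2) (b := XL (5/7) p) (c := s ^ 2) (d := XL 1 s) k1p k2p hs2.le hps
      (sq_nonneg _) (sq_nonneg _) ?_ ?_ ?_ ?_ hx1 hx2 hy1 hy2
    · rw [Fxy, a0, b0]; exact h00.le
    · rw [Fxy, a0, b1, xl1]; exact h01.le
    · rw [Fxy, a1, b0]; exact h10.le
    · rw [Fxy, a1, b1, xl1]; exact h11.le
  have x1 : 0 < 1 - x := by linarith
  have y1 : 0 < 1 - y := by linarith
  have TX : (p - x) / (1 - x) ≤ t0 + k1 * (1 - x) := by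
    rw [div_le_iff₀ x1, ht0, hk1]
    have e : (1 - 2 * (1 + p)⁻¹ + (1 + p)⁻¹ ^ 2 * (1 - p)⁻¹ * (1 - x)) * (1 - x) - (p - x) =
        (1 - p) * (1 - (1 - x) * ((1 + p)⁻¹ * (1 - p)⁻¹)) ^ 2 := by
      field_simp; ring
    have : 0 ≤ (1 - p) * (1 - (1 - x) * ((1 + p)⁻¹ * (1 - p)⁻¹)) ^ 2 := by positivity
    linarith
  have TY : (s - y) / (1 - y) ≤ s0 + k2 * (1 - y) := by
    rw [div_le_iff₀ y1, hs0, hk2]
    have e : (1 - (3 - 2 * s) + (3 - 2 * s) ^ 2 / 4 * (1 - s)⁻¹ * (1 - y)) * (1 - y) - (s - y) =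
        (1 - s) * (1 - (1 - y) * ((3 - 2 * s) / 2 * (1 - s)⁻¹)) ^ 2 := by
      field_simp; ring
    have : 0 ≤ (1 - s) * (1 - (1 - y) * ((3 - 2 * s) / 2 * (1 - s)⁻¹)) ^ 2 := by positivity
    linarith
  have last : Fxy p s t0 k1 s0 k2 x y ≤ GT x y p s ((p - x) / (1 - x)) ((s - y) / (1 - y)) := by
    simp only [Fxy, GT]
    have h3 : (1 - s) * ((p - x) / (1 - x)) ≤ (1 - s) * (t0 + k1 * (1 - x)) :=
      mul_le_mul_of_nonneg_left TX s1.le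
    have h4 : (1 / 10 + (s - y) / (1 - y) + 3 / 2 * ((1 - s) * ((p - x) / (1 - x)))) ≤
        (1 / 10 + (s0 + k2 * (1 - y)) + 3 / 2 * ((1 - s) * (t0 + k1 * (1 - x)))) := by linarith
    have h5 := mul_le_mul_of_nonneg_left h4 hD0
    linarith
  linarith

end Vale.Agent.Potts
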