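import Vale.Agent.Potts.CornerW

/-!
# P154, antiferromagnetic messages: a variant of the main inequality at the corners
-/

namespace Vale.Agent.Potts

open Vale.Agent.CK.IA

noncomputable def GN (x y p s Ty : ℝ) : ℝ :=
  1 + x * y - 2 * (x + y) + 2 * ((1 - y) * p) + 2 * ((1 - x) * s) - 2 * ((1 - x - y) * (p * s))
    - (1 - x * y * (3 - 2 * (p * s))) * (3 / 10 + 27 / 20 * Ty)

def eN (X Y P S TY : Ex) : Ex :=
  Ex.sub (Ex.sub (Ex.add (Ex.add (Ex.sub (Ex.add on (Ex.mul X Y)) (Ex.mul e2 (Ex.add X Y)))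
    (Ex.mul e2 (Ex.mul (Ex.sub on Y) P))) (Ex.mul e2 (Ex.mul (Ex.sub on X) S)))
    (Ex.mul e2 (Ex.mul (Ex.sub (Ex.sub on X) Y) (Ex.mul P S))))
    (Ex.mul (Ex.sub on (Ex.mul (Ex.mul X Y) (Ex.sub (Ex.k 3 1) (Ex.mul e2 (Ex.mul P S)))))
      (Ex.add (Ex.k 3 10) (Ex.mul (Ex.k 27 20) TY)))

theorem val_eN (X Y P S TY : Ex) (u v w : ℝ) :
    val (eN X Y P S TY) u v w = GN (val X u v w) (val Y u v w) (val P u v w) (val S u v w)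
      (val TY u v w) := by
  simp only [eN, val, on, e2, GN]
  push_cast
  ring

section
open Tr

def bxN : Bx := ⟨907097091815, 577243606782, 549755812788, 1649267443863, 0, 0⟩

theorem cN00 : check [eN (Ex.mul eP eP) (Ex.mul eS eS) eP eS (tx0 eS)]
  (y (y (x (y (x (y (x (x (y (l 0) (l 0)) (l 0)) (l 0)) (x (x (x (y (l 0) (l 0)) (l 0)) (l 0)) (l
  0))) (l 0)) (x (x (y (x (y (l 0) (l 0)) (l 0)) (l 0)) (l 0)) (l 0))) (y (l 0) (l 0))) (x (y (l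
  0) (l 0)) (l 0))) (y (x (x (l 0) (l 0)) (y (l 0) (l 0))) (x (y (x (l 0) (l 0)) (x (y (l 0) (y (l
  0) (x (y (l 0) (y (l 0) (x (l 0) (l 0)))) (y (l 0) (y (l 0) (l 0)))))) (y (l 0) (y (l 0) (x (y
  (l 0) (l 0)) (y (l 0) (y (l 0) (l 0)))))))) (y (x (l 0) (l 0)) (x (y (l 0) (y (l 0) (x (y (l 0)
  (y (l 0) (x (l 0) (l 0)))) (y (l 0) (y (l 0) (x (l 0) (l 0))))))) (y (y (l 0) (l 0)) (y (x (l 0)
  (l 0)) (x (y (l 0) (y (l 0) (x (l 0) (l 0)))) (y (l 0) (x (l 0) (l 0)))))))))))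
  bxN = true := by decide +kernel

theorem cN01 : check [eN (Ex.mul eP eP) (Xu 1 1 eS) eP eS (tX eS)]
  (y (y (y (x (y (x (y (l 0) (l 0)) (l 0)) (x (x (y (l 0) (l 0)) (l 0)) (l 0))) (y (l 0) (l 0)))
  (x (x (y (x (l 0) (l 0)) (l 0)) (l 0)) (y (l 0) (l 0)))) (x (y (x (y (l 0) (l 0)) (l 0)) (x (l
  0) (l 0))) (y (l 0) (l 0)))) (y (x (y (l 0) (l 0)) (y (l 0) (l 0))) (x (y (x (l 0) (l 0)) (y (x
  (l 0) (l 0)) (x (y (l 0) (x (y (l 0) (y (l 0) (x (l 0) (l 0)))) (y (l 0) (y (l 0) (x (l 0) (l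
  0)))))) (y (l 0) (y (l 0) (x (y (l 0) (l 0)) (y (l 0) (l 0)))))))) (y (x (l 0) (y (l 0) (l 0)))
  (y (x (l 0) (y (l 0) (l 0))) (x (y (l 0) (x (y (l 0) (y (l 0) (x (l 0) (l 0)))) (y (l 0) (y (l
  0) (x (l 0) (l 0)))))) (y (x (l 0) (l 0)) (x (y (l 0) (y (l 0) (x (l 0) (l 0)))) (y (l 0) (y (l
  0) (x (l 0) (l 0))))))))))))
  bxN = true := by decide +kernel

theorem cN10 : check [eN (Xu 7 20 eP) (Ex.mul eS eS) eP eS (tx0 eS)]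
  (y (y (x (y (x (y (x (y (l 0) (l 0)) (l 0)) (x (x (y (l 0) (l 0)) (l 0)) (l 0))) (l 0)) (x (y (x
  (x (l 0) (l 0)) (l 0)) (l 0)) (l 0))) (y (x (l 0) (l 0)) (l 0))) (x (y (l 0) (l 0)) (l 0))) (y
  (x (y (l 0) (l 0)) (y (l 0) (l 0))) (x (y (l 0) (y (l 0) (y (l 0) (x (y (l 0) (y (l 0) (l 0)))
  (y (l 0) (y (l 0) (x (l 0) (l 0)))))))) (y (x (l 0) (y (l 0) (l 0))) (x (y (l 0) (y (l 0) (y (l
  0) (x (l 0) (y (l 0) (l 0)))))) (y (x (l 0) (l 0)) (x (y (l 0) (y (l 0) (x (l 0) (l 0)))) (y (l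
  0) (x (y (l 0) (l 0)) (y (l 0) (y (l 0) (x (l 0) (l 0)))))))))))))
  bxN = true := by decide +kernel

theorem cN11 : check [eN (Xu 7 20 eP) (Xu 1 1 eS) eP eS (tX eS)]
  (y (y (y (x (y (x (y (l 0) (l 0)) (l 0)) (x (y (l 0) (l 0)) (l 0))) (y (l 0) (l 0))) (x (y (x (l
  0) (l 0)) (l 0)) (x (l 0) (l 0)))) (x (y (x (y (l 0) (l 0)) (l 0)) (l 0)) (y (l 0) (l 0)))) (y
  (x (y (l 0) (l 0)) (y (l 0) (x (l 0) (l 0)))) (x (y (l 0) (y (l 0) (y (l 0) (y (x (l 0) (l 0))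
  (x (y (l 0) (l 0)) (y (l 0) (x (l 0) (l 0)))))))) (y (x (l 0) (y (l 0) (l 0))) (x (y (l 0) (y (l
  0) (y (l 0) (x (l 0) (y (l 0) (l 0)))))) (y (x (l 0) (l 0)) (x (y (l 0) (y (l 0) (y (l 0) (x (l
  0) (l 0))))) (y (l 0) (y (x (l 0) (l 0)) (x (y (l 0) (l 0)) (y (l 0) (x (l 0) (l 0)))))))))))))
  bxN = true := by decide +kernel

end

noncomputable def Fn (p s s0 k2 x y : ℝ) : ℝ := GN x y p s (s0 + k2 * (1 - y))

theorem Fn_x (p s s0 k2 y : ℝ) : ∀ x, Fn p s s0 k2 x y =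
    Fn p s s0 k2 0 y + (Fn p s s0 k2 1 y - Fn p s s0 k2 0 y) * x := by
  intro x; simp only [Fn, GN]; ring
theorem Fn_y (p s s0 k2 x : ℝ) : ∀ y, Fn p s s0 k2 x y =
    Fn p s s0 k2 x 0 + (Fn p s s0 k2 x 1 - Fn p s s0 k2 x 0 -
      (-(27 / 20 * (x * (3 - 2 * (p * s)) * k2)))) * y
      + (-(27 / 20 * (x * (3 - 2 * (p * s)) * k2))) * y ^ 2 := by
  intro y; simp only [Fn, GN]; ring

theorem Fn_corner {p s s0 k2 a b c d x y : ℝ} (hk2 : 0 ≤ k2)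
    (hps : p * s ≤ 1) (ha : 0 ≤ a)
    (h00 : 0 ≤ Fn p s s0 k2 a c) (h01 : 0 ≤ Fn p s s0 k2 a d)
    (h10 : 0 ≤ Fn p s s0 k2 b c) (h11 : 0 ≤ Fn p s s0 k2 b d)
    (h1 : a ≤ x) (h2 : x ≤ b) (h3 : c ≤ y) (h4 : y ≤ d) : 0 ≤ Fn p s s0 k2 x y := by
  have hx : 0 ≤ x := by linarith
  have q : 0 ≤ 3 - 2 * (p * s) := by linarith
  have C2 : -(27 / 20 * (x * (3 - 2 * (p * s)) * k2)) ≤ 0 := by
    have : 0 ≤ x * (3 - 2 * (p * s)) * k2 := by positivity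
    linarith
  have e1 : 0 ≤ Fn p s s0 k2 x c :=
    affine_nonneg (f := fun x => Fn p s s0 k2 x c) (Fn_x p s s0 k2 c) h00 h10 h1 h2
  have e2 : 0 ≤ Fn p s s0 k2 x d :=
    affine_nonneg (f := fun x => Fn p s s0 k2 x d) (Fn_x p s s0 k2 d) h01 h11 h1 h2
  exact conc_nonneg (f := fun y => Fn p s s0 k2 x y) (Fn_y p s s0 k2 x) C2 e1 e2 h3 h4

theorem GN_nonneg {x y p s : ℝ} (hp1 : -((7:ℝ)/20) / 2 ≤ p) (hp2 : p ≤ 7/20)
    (hs1 : -(1:ℝ) / 2 ≤ s) (hs2 : s < 1) (hx1 : p ^ 2 ≤ x) (hx2 : x ≤ XL (7/20) p)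
    (hy1 : s ^ 2 ≤ y) (hy2 : y ≤ XL 1 s) (hy3 : y < 1)
    (hD0 : 0 ≤ 1 - x * y * (3 - 2 * (p * s))) :
    0 ≤ GN x y p s ((s - y) / (1 - y)) := by
  have hu : inI bxN.lx bxN.wx (p + 1) :=
    inI_of' (a := 1 - (7:ℝ)/20/2) (b := 1 + 7/20) (by linarith) (by linarith)
      (by norm_num [bxN]) (by norm_num [bxN])
  have hv : inI bxN.ly bxN.wy (s + 1) :=
    inI_of' (a := 1 - (1:ℝ)/2) (b := 2) (by linarith) (by linarith)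
      (by norm_num [bxN]) (by norm_num [bxN])
  have h00 := use_check cN00 hu hv rfl
  have h01 := use_check cN01 hu hv rfl
  have h10 := use_check cN10 hu hv rfl
  have h11 := use_check cN11 hu hv rfl
  have xl3 := (inv_facts hs2).2.2
  simp only [val_eN, val_tx0, val_tX, val_sq, val_Xu, val_eP, val_eS,
    add_sub_cancel_right, Nat.cast_ofNat, Nat.cast_one, div_one, xl3] at h00 h01 h10 h11
  have s1 : 0 < 1 - s := by linarith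
  have s2 : 0 < 1 + s := by linarith
  have l0 : 1 - (1 + s)⁻¹ = q0 s := rfl
  have l1 : 1 - 2 * (1 + s)⁻¹ + 2 * ((1 + s)⁻¹ ^ 2 * (3 - 2 * s)⁻¹) = q1 s := rfl
  rw [l0, ← line0 hs1 hs2] at h00 h10
  rw [l1, ← line1 hs1 hs2] at h01 h11
  have xl1 : XL 1 s = (3 - 2 * s)⁻¹ := by rw [XL]; norm_num
  rw [xl1] at hy2
  have k2p : 0 ≤ (1 + s)⁻¹ ^ 2 * (1 - s)⁻¹ := by positivity
  have TY := tangent (x := y) hs2 (inv_pos.mpr s2) hy3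
  have hps : p * s ≤ 1 := by nlinarith
  generalize (1 + s)⁻¹ ^ 2 * (1 - s)⁻¹ = k2 at *
  generalize 1 - 2 * (1 + s)⁻¹ = s0 at *
  have main : 0 ≤ Fn p s s0 k2 x y :=
    Fn_corner (a := p ^ 2) (b := XL (7/20) p) (c := s ^ 2) (d := (3 - 2 * s)⁻¹) k2p hps
      (sq_nonneg _) h00.le h01.le (by simpa only [XL, Fn] using h10.le) (by simpa only [XL, Fn] using h11.le)
      hx1 hx2 hy1 hy2
  have last : Fn p s s0 k2 x y ≤ GN x y p s ((s - y) / (1 - y)) := by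
    simp only [Fn, GN]
    have h4 : (3 / 10 + 27 / 20 * ((s - y) / (1 - y))) ≤ (3 / 10 + 27 / 20 * (s0 + k2 * (1 - y))) := by
      linarith
    have h5 := mul_le_mul_of_nonneg_left h4 hD0
    linarith
  linarith

end Vale.Agent.Potts
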