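import Vale.Agent.Potts.CornerM

/-!
# P154, all trees: the main inequality on the whole triangle x whole triangle
-/

namespace Vale.Agent.Potts

open Vale.Agent.CK.IA

def tX (P : Ex) : Ex := Ex.add (Ex.sub on (Ex.mul e2 (Ex.inv (Ex.add on P))))
  (Ex.mul e2 (Ex.mul (Ex.mul (Ex.inv (Ex.add on P)) (Ex.inv (Ex.add on P)))
    (Ex.inv (Ex.sub (Ex.k 3 1) (Ex.mul e2 P)))))
def wA0 (P : Ex) : Ex := Ex.add on P
def wA1 (P : Ex) : Ex := Ex.mul e2 (Ex.inv (n3 P))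
def wB1 (P : Ex) : Ex := Ex.mul (Ex.sub (Ex.mul e2 P) on) (Ex.inv (n3 P))
def eB (S TX TY : Ex) : Ex :=
  Ex.sub (Ex.sub (Ex.k 9 10) TY) (Ex.mul (Ex.k 3 2) (Ex.mul (Ex.sub on S) TX))
def eC (P S a b c d : Ex) : Ex :=
  Ex.mul e2 (Ex.sub (Ex.add (Ex.mul c b) (Ex.mul a d)) (Ex.mul (Ex.mul P S) (Ex.mul a c)))
def eA (K P S a b c d TX TY : Ex) : Ex := Ex.add (Ex.mul K (eB S TX TY)) (eC P S a b c d)
def Ka (P S : Ex) : Ex := Ex.mul (Ex.mul (Ex.add on P) (Ex.add on S)) (Ex.add on (Ex.mul e2 (Ex.mul P S)))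
def Kd (P S : Ex) : Ex := Ex.mul (Ex.k 2 3) (Ex.mul (Ex.sub on (Ex.mul P S)) (Ex.sub on (Ex.mul P S)))
def Ke (P S : Ex) : Ex := Ex.mul e2 (Ex.mul (Ex.add (Ex.add on P) (Ex.mul P P)) (Ex.inv (n3 S)))
def Kf (P S : Ex) : Ex := Ex.mul (Ex.k 6 1) (Ex.mul (Ex.inv (n3 P)) (Ex.inv (n3 S)))

theorem val_tX (P : Ex) (u v w : ℝ) : val (tX P) u v w =
    1 - 2 * (1 + val P u v w)⁻¹ + 2 * ((1 + val P u v w)⁻¹ ^ 2 * (3 - 2 * val P u v w)⁻¹) := by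
  simp only [tX, val, on, e2]; push_cast; ring_nf
theorem val_n3 (P : Ex) (u v w : ℝ) : val (n3 P) u v w = 3 - 2 * val P u v w := by
  simp only [n3, val, e2]; push_cast; ring
theorem val_wA0 (P : Ex) (u v w : ℝ) : val (wA0 P) u v w = 1 + val P u v w := by
  simp only [wA0, val, on]; push_cast; ring
theorem val_wA1 (P : Ex) (u v w : ℝ) : val (wA1 P) u v w = 2 * (3 - 2 * val P u v w)⁻¹ := by
  simp only [wA1, val, e2, val_n3]; push_cast; ring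
theorem val_wB1 (P : Ex) (u v w : ℝ) :
    val (wB1 P) u v w = (2 * val P u v w - 1) * (3 - 2 * val P u v w)⁻¹ := by
  simp only [wB1, val, e2, on, val_n3]; push_cast; ring
theorem val_eB (S TX TY : Ex) (u v w : ℝ) : val (eB S TX TY) u v w =
    9 / 10 - val TY u v w - 3 / 2 * ((1 - val S u v w) * val TX u v w) := by
  simp only [eB, val, on]; push_cast; ring
theorem val_eC (P S a b c d : Ex) (u v w : ℝ) : val (eC P S a b c d) u v w =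
    2 * (val c u v w * val b u v w + val a u v w * val d u v w
      - val P u v w * val S u v w * (val a u v w * val c u v w)) := by
  simp only [eC, val, e2]; push_cast; ring
theorem val_eA (K P S a b c d TX TY : Ex) (u v w : ℝ) : val (eA K P S a b c d TX TY) u v w =
    val K u v w * val (eB S TX TY) u v w + val (eC P S a b c d) u v w := by
  simp only [eA, val]
theorem val_Ka (P S : Ex) (u v w : ℝ) : val (Ka P S) u v w =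
    (1 + val P u v w) * (1 + val S u v w) * (1 + 2 * (val P u v w * val S u v w)) := by
  simp only [Ka, val, on, e2]; push_cast; ring
theorem val_Kd (P S : Ex) (u v w : ℝ) : val (Kd P S) u v w =
    2 / 3 * (1 - val P u v w * val S u v w) ^ 2 := by
  simp only [Kd, val, on]; push_cast; ring
theorem val_Ke (P S : Ex) (u v w : ℝ) : val (Ke P S) u v w =
    2 * (1 + val P u v w + val P u v w ^ 2) * (3 - 2 * val S u v w)⁻¹ := by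
  simp only [Ke, val, on, e2, val_n3]; push_cast; ring
theorem val_Kf (P S : Ex) (u v w : ℝ) : val (Kf P S) u v w =
    6 * ((3 - 2 * val P u v w)⁻¹ * (3 - 2 * val S u v w)⁻¹) := by
  simp only [Kf, val, val_n3]; push_cast; ring

section
open Tr

def bxW : Bx := ⟨549755812788, 1649267443863, 549755812788, 1649267443863, 0, 0⟩

theorem cW00 : check [eT (Ex.mul eP eP) (Ex.mul eS eS) eP eS (tx0 eP) (tx0 eS),
    eA (Ka eP eS) eP eS (wA0 eP) eP (wA0 eS) eS (tx0 eP) (tx0 eS),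
    eA (Kd eP eS) eP eS (wA0 eP) eP (wA0 eS) eS (tx0 eP) (tx0 eS)]
  (x (y (x (y (x (y (x (l 0) (l 0)) (x (l 0) (l 0))) (y (x (l 0) (l 0)) (l 0))) (x (y (l 0) (l 0))
  (y (l 0) (l 0)))) (y (y (x (y (l 0) (l 0)) (y (l 0) (l 0))) (x (l 0) (l 0))) (y (l 0) (l 0))))
  (x (x (y (y (l 0) (l 2)) (x (l 2) (l 2))) (y (l 0) (l 2))) (y (x (l 2) (l 2)) (l 2)))) (y (y (y
  (x (x (y (l 2) (l 2)) (y (l 2) (l 2))) (y (l 2) (l 2))) (x (x (l 2) (l 2)) (l 2))) (x (y (l 2)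
  (l 2)) (y (l 2) (l 2)))) (x (y (l 2) (l 2)) (y (l 2) (y (l 2) (l 1))))))
  bxW = true := by decide +kernel

theorem cB00 : check [eB eS (tx0 eP) (tx0 eS)]
  (x (y (x (y (x (l 0) (l 0)) (x (l 0) (l 0))) (y (y (l 0) (l 0)) (l 0))) (x (x (y (l 0) (l 0)) (y
  (l 0) (l 0))) (y (l 0) (l 0)))) (y (y (y (x (l 0) (l 0)) (x (l 0) (l 0))) (x (l 0) (y (l 0) (l
  0)))) (y (x (l 0) (l 0)) (l 0))))
  bxW = true := by decide +kernel

theorem cW01 : check [eT (Ex.mul eP eP) (Xu 1 1 eS) eP eS (tx0 eP) (tX eS),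
    eA (Ke eP eS) eP eS (wA0 eP) eP (wA1 eS) (wB1 eS) (tx0 eP) (tX eS)]
  (y (x (y (x (y (x (x (y (l 0) (l 0)) (y (l 0) (l 0))) (y (x (l 0) (l 0)) (l 0))) (x (x (l 0) (l
  0)) (y (l 0) (l 0)))) (y (y (x (l 0) (l 0)) (x (l 0) (l 0))) (x (l 0) (y (l 0) (l 0))))) (x (x
  (y (x (l 0) (l 0)) (x (l 0) (l 0))) (y (l 0) (l 0))) (y (x (l 0) (l 0)) (x (l 0) (l 0))))) (y (y
  (x (x (y (l 0) (l 0)) (y (x (l 0) (l 0)) (l 0))) (y (x (l 1) (l 1)) (x (l 1) (l 1)))) (x (x (y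
  (l 0) (l 0)) (y (l 0) (l 0))) (x (y (l 1) (l 1)) (y (l 1) (l 1))))) (x (x (y (l 0) (l 0)) (y (x
  (l 0) (l 0)) (y (l 0) (l 0)))) (x (y (y (l 1) (l 1)) (l 1)) (y (l 1) (l 1)))))) (x (x (y (x (y
  (x (l 0) (l 0)) (x (y (l 0) (l 0)) (l 0))) (y (l 0) (l 0))) (y (x (x (y (l 0) (l 1)) (l 0)) (l
  0)) (x (y (x (l 1) (l 1)) (x (l 1) (l 1))) (y (l 1) (l 1))))) (y (x (l 0) (y (l 0) (l 0))) (y (x
  (l 0) (l 0)) (x (l 1) (l 1))))) (y (y (x (x (l 1) (l 1)) (y (l 1) (l 1))) (x (y (l 1) (l 1)) (y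
  (l 1) (l 1)))) (x (y (y (l 1) (l 1)) (y (l 1) (l 1))) (y (y (l 1) (l 1)) (y (l 1) (l 1)))))))
  bxW = true := by decide +kernel

theorem cB01 : check [eB eS (tx0 eP) (tX eS)]
  (y (y (x (x (y (l 0) (l 0)) (y (l 0) (l 0))) (y (y (l 0) (l 0)) (x (l 0) (l 0)))) (x (x (x (l 0)
  (l 0)) (y (l 0) (l 0))) (y (l 0) (l 0)))) (x (y (x (x (l 0) (l 0)) (l 0)) (x (y (l 0) (l 0)) (y
  (l 0) (l 0)))) (y (y (l 0) (l 0)) (y (l 0) (l 0)))))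
  bxW = true := by decide +kernel

theorem cW10 : check [eT (Xu 1 1 eP) (Ex.mul eS eS) eP eS (tX eP) (tx0 eS),
    eA (Ke eS eP) eP eS (wA1 eP) (wB1 eP) (wA0 eS) eS (tX eP) (tx0 eS)]
  (x (x (y (x (y (y (x (y (l 0) (l 0)) (l 0)) (x (l 0) (l 0))) (x (y (l 0) (l 0)) (y (l 0) (l
  0)))) (y (y (x (l 0) (l 0)) (x (l 0) (l 0))) (y (l 0) (x (l 0) (l 0))))) (y (x (y (x (l 0) (l
  0)) (y (x (l 0) (l 0)) (x (l 0) (l 0)))) (y (x (l 0) (l 0)) (y (l 0) (l 0)))) (y (x (x (l 1) (l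
  1)) (x (l 1) (l 1))) (y (x (l 1) (l 1)) (x (l 1) (l 1)))))) (y (y (x (y (y (x (l 1) (l 1)) (l
  0)) (l 0)) (y (y (l 0) (l 0)) (l 0))) (x (y (l 0) (l 0)) (y (l 0) (l 0)))) (y (y (x (l 0) (l 0))
  (x (x (l 0) (l 0)) (l 1))) (y (x (l 1) (l 1)) (x (l 1) (l 1)))))) (x (y (y (y (x (y (l 0) (l 0))
  (y (y (l 0) (l 0)) (l 0))) (x (l 0) (l 0))) (y (x (l 0) (l 0)) (x (l 0) (l 0)))) (x (y (y (l 0)
  (l 1)) (y (l 1) (l 1))) (y (y (l 1) (l 1)) (x (l 1) (l 1))))) (y (y (y (x (x (l 1) (l 1)) (x (y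
  (l 1) (l 1)) (y (l 1) (l 1)))) (x (y (l 1) (l 1)) (x (l 1) (l 1)))) (x (y (l 0) (l 1)) (y (x (l
  1) (l 1)) (x (l 1) (l 1))))) (y (x (x (l 1) (l 1)) (x (l 1) (l 1))) (x (x (l 1) (l 1)) (y (x (l
  1) (l 1)) (x (l 1) (l 1))))))))
  bxW = true := by decide +kernel

theorem cB10 : check [eB eS (tX eP) (tx0 eS)]
  (x (x (y (x (y (l 0) (x (l 0) (l 0))) (y (l 0) (l 0))) (x (y (x (l 0) (l 0)) (y (l 0) (y (l 0)
  (l 0)))) (y (l 0) (y (l 0) (l 0))))) (y (y (x (l 0) (l 0)) (x (l 0) (l 0))) (y (x (l 0) (l 0))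
  (y (l 0) (l 0))))) (y (x (y (y (l 0) (l 0)) (x (l 0) (l 0))) (y (x (y (l 0) (l 0)) (y (l 0) (x
  (l 0) (l 0)))) (x (l 0) (x (l 0) (y (l 0) (l 0)))))) (x (y (x (l 0) (l 0)) (l 0)) (x (l 0) (y (x
  (l 0) (l 0)) (l 0))))))
  bxW = true := by decide +kernel

theorem cW11 : check [eT (Xu 1 1 eP) (Xu 1 1 eS) eP eS (tX eP) (tX eS),
    eA (Kf eP eS) eP eS (wA1 eP) (wB1 eP) (wA1 eS) (wB1 eS) (tX eP) (tX eS)]
  (x (y (x (y (x (y (x (y (l 0) (l 0)) (y (l 0) (l 0))) (x (y (l 0) (l 0)) (y (l 0) (l 0)))) (y (y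
  (x (l 0) (l 0)) (x (l 0) (l 0))) (x (y (l 0) (l 0)) (y (l 0) (l 0))))) (x (y (x (y (l 0) (l 0))
  (l 0)) (x (y (l 0) (l 0)) (l 0))) (y (x (l 0) (l 0)) (x (l 0) (l 0))))) (y (y (x (y (x (l 0) (l
  0)) (x (l 0) (l 0))) (y (x (l 0) (l 0)) (l 0))) (x (y (x (l 0) (l 0)) (x (l 0) (l 0))) (y (l 0)
  (l 0)))) (x (y (x (l 0) (l 0)) (x (l 0) (l 0))) (y (y (l 0) (l 0)) (y (l 0) (l 0)))))) (y (x (x
  (y (x (y (l 0) (l 0)) (y (l 0) (l 0))) (x (y (l 0) (l 0)) (y (l 0) (l 0)))) (y (x (l 0) (l 0))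
  (y (x (l 0) (l 0)) (x (l 0) (l 0))))) (y (x (x (l 0) (l 0)) (y (l 0) (l 0))) (x (y (l 0) (l 1))
  (y (l 1) (l 1))))) (x (y (x (y (x (l 1) (l 1)) (x (l 1) (l 1))) (y (x (l 1) (l 1)) (x (l 1) (l
  1)))) (y (x (x (l 1) (l 1)) (y (l 1) (l 1))) (y (x (l 1) (l 1)) (x (l 1) (l 1))))) (y (x (y (l
  1) (l 1)) (y (l 1) (l 1))) (y (x (l 1) (l 1)) (x (l 1) (l 1))))))) (y (x (y (y (x (y (x (l 1) (l
  1)) (l 0)) (y (x (l 0) (l 0)) (x (l 0) (l 0)))) (x (y (l 0) (l 0)) (y (x (l 0) (l 0)) (x (l 0)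
  (l 0))))) (x (y (y (l 0) (l 0)) (y (l 0) (l 0))) (y (x (l 0) (l 1)) (x (l 1) (l 1))))) (y (x (y
  (y (x (l 1) (l 1)) (x (l 1) (l 1))) (x (y (l 1) (l 1)) (y (l 1) (l 1)))) (y (x (y (l 1) (l 1))
  (x (y (l 1) (l 1)) (y (l 1) (l 1)))) (x (y (l 1) (l 1)) (y (l 1) (l 1))))) (x (y (x (l 1) (y (l
  1) (l 1))) (x (l 1) (l 1))) (x (y (y (l 1) (l 1)) (y (l 1) (l 1))) (y (y (l 1) (l 1)) (y (l 1)
  (l 1))))))) (y (x (y (x (y (l 0) (l 0)) (x (l 1) (l 1))) (x (y (l 1) (l 1)) (y (l 1) (l 1)))) (x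
  (y (x (l 1) (y (l 1) (l 1))) (x (y (l 1) (l 1)) (y (l 1) (l 1)))) (y (x (y (l 1) (l 1)) (y (l 1)
  (l 1))) (x (y (l 1) (l 1)) (y (l 1) (l 1)))))) (x (y (x (y (l 1) (l 1)) (y (l 1) (l 1))) (y (x
  (l 1) (l 1)) (x (l 1) (x (l 1) (l 1))))) (y (x (y (x (l 1) (l 1)) (x (l 1) (l 1))) (x (y (l 1)
  (l 1)) (y (l 1) (l 1)))) (x (y (x (l 1) (l 1)) (x (l 1) (l 1))) (y (x (l 1) (l 1)) (x (l 1) (l
  1)))))))))
  bxW = true := by decide +kernel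

theorem cB11 : check [eB eS (tX eP) (tX eS)]
  (x (y (x (y (x (y (l 0) (l 0)) (y (l 0) (l 0))) (x (y (l 0) (l 0)) (l 0))) (y (y (x (l 0) (l 0))
  (l 0)) (x (l 0) (l 0)))) (x (y (x (y (l 0) (l 0)) (l 0)) (x (y (l 0) (y (l 0) (l 0))) (y (l 0)
  (l 0)))) (y (x (l 0) (l 0)) (y (l 0) (l 0))))) (y (y (x (y (x (l 0) (l 0)) (l 0)) (y (x (l 0) (y
  (l 0) (l 0))) (x (l 0) (l 0)))) (x (y (l 0) (l 0)) (x (y (l 0) (l 0)) (y (l 0) (l 0))))) (y (x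
  (y (l 0) (l 0)) (x (l 0) (l 0))) (x (y (l 0) (l 0)) (y (l 0) (l 0))))))
  bxW = true := by decide +kernel

end

theorem use_check' {F : List Ex} {T : Tr} {B : Bx} (hc : check F T B = true) {u v : ℝ}
    (hu : inI B.lx B.wx u) (hv : inI B.ly B.wy v) (hz : B.lz = 0) : ∃ e ∈ F, 0 < val e u v 0 :=
  check_sound _ _ _ hc u v 0 ⟨hu, hv, by rw [hz]; simp [inI]⟩

/-- algebraic form of `GT` -/
theorem GT_form (x y p s T1 T2 : ℝ) : GT x y p s T1 T2 =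
    (1 - x * y * (3 - 2 * (p * s))) * (9 / 10 - T2 - 3 / 2 * ((1 - s) * T1))
    + 2 * ((1 - y) * (p - x) + (1 - x) * (s - y) - p * s * ((1 - x) * (1 - y))) := by
  simp only [GT]; ring

/-- a corner is nonnegative if the reduced expression is -/
theorem GT_red {x y p s T1 T2 A B C D K : ℝ} (hp : p ≤ 1) (hs : s ≤ 1)
    (hA : 1 - x = (1 - p) * A) (hB : p - x = (1 - p) * B) (hC : 1 - y = (1 - s) * C)
    (hD : s - y = (1 - s) * D) (hK : (1 - p) * (1 - s) * K ≤ 1 - x * y * (3 - 2 * (p * s)))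
    (hb : 0 ≤ 9 / 10 - T2 - 3 / 2 * ((1 - s) * T1))
    (h : 0 < K * (9 / 10 - T2 - 3 / 2 * ((1 - s) * T1)) + 2 * (C * B + A * D - p * s * (A * C))) :
    0 ≤ GT x y p s T1 T2 := by
  rw [GT_form]
  have h1 := mul_le_mul_of_nonneg_right hK hb
  have h2 : 0 ≤ (1 - p) * (1 - s) * (K * (9 / 10 - T2 - 3 / 2 * ((1 - s) * T1))
      + 2 * (C * B + A * D - p * s * (A * C))) :=
    mul_nonneg (mul_nonneg (by linarith) (by linarith)) h.le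
  have h3 : (1 - y) * (p - x) + (1 - x) * (s - y) - p * s * ((1 - x) * (1 - y)) =
      (1 - p) * (1 - s) * (C * B + A * D - p * s * (A * C)) := by
    rw [hA, hB, hC, hD]; ring
  rw [h3]
  linarith

theorem bil (p s : ℝ) (hp : -1 / 2 ≤ p) (hs : -1 / 2 ≤ s) :
    2 / 3 * ((1 - p) * (1 - s)) ≤ 1 + 2 * (p * s) := by
  nlinarith [mul_nonneg (show 0 ≤ p + 1 / 2 by linarith) (show 0 ≤ s + 1 / 2 by linarith)]


noncomputable def q0 (p : ℝ) : ℝ := 1 - (1 + p)⁻¹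
noncomputable def q1 (p : ℝ) : ℝ := 1 - 2 * (1 + p)⁻¹ + 2 * ((1 + p)⁻¹ ^ 2 * (3 - 2 * p)⁻¹)

theorem boxW {p s : ℝ} (hp1 : -(1:ℝ) / 2 ≤ p) (hp2 : p < 1) (hs1 : -(1:ℝ) / 2 ≤ s) (hs2 : s < 1) :
    inI bxW.lx bxW.wx (p + 1) ∧ inI bxW.ly bxW.wy (s + 1) :=
  ⟨inI_of' (a := 1 - (1:ℝ)/2) (b := 2) (by linarith) (by linarith)
      (by norm_num [bxW]) (by norm_num [bxW]),
    inI_of' (a := 1 - (1:ℝ)/2) (b := 2) (by linarith) (by linarith)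
      (by norm_num [bxW]) (by norm_num [bxW])⟩

theorem corner00 {p s : ℝ} (hp1 : -(1:ℝ) / 2 ≤ p) (hp2 : p < 1) (hs1 : -(1:ℝ) / 2 ≤ s) (hs2 : s < 1) :
    0 ≤ GT (p ^ 2) (s ^ 2) p s (q0 p) (q0 s) := by
  obtain ⟨hu, hv⟩ := boxW hp1 hp2 hs1 hs2
  obtain ⟨e, he, hw⟩ := use_check' cW00 hu hv rfl
  have hb := use_check cB00 hu hv rfl
  simp only [List.mem_cons, List.not_mem_nil, or_false] at he
  simp only [val_eB, val_tx0, val_eP, val_eS, add_sub_cancel_right] at hb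
  have hq : 0 ≤ 1 + 2 * (p * s) := by
    have := bil p s hp1 hs1
    have : 0 ≤ (1 - p) * (1 - s) := mul_nonneg (by linarith) (by linarith)
    linarith
  rcases he with rfl | rfl | rfl
  · simp only [val_eT, val_tx0, val_sq, val_eP, val_eS, add_sub_cancel_right] at hw
    exact hw.le
  · simp only [val_eA, val_eB, val_eC, val_Ka, val_wA0, val_tx0, val_eP, val_eS,
      add_sub_cancel_right] at hw
    refine GT_red hp2.le hs2.le (by ring) (by ring) (by ring) (by ring) ?_ hb.le hw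
    have e1 : 1 - p ^ 2 * s ^ 2 * (3 - 2 * (p * s)) = (1 - p * s) ^ 2 * (1 + 2 * (p * s)) := by ring
    rw [e1]
    have e2 : (1 - p) * (1 - s) * ((1 + p) * (1 + s) * (1 + 2 * (p * s))) =
        ((1 - p * s) ^ 2 - (p - s) ^ 2) * (1 + 2 * (p * s)) := by ring
    rw [e2]
    exact mul_le_mul_of_nonneg_right (by linarith [sq_nonneg (p - s)]) hq
  · simp only [val_eA, val_eB, val_eC, val_Kd, val_wA0, val_tx0, val_eP, val_eS,
      add_sub_cancel_right] at hw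
    refine GT_red hp2.le hs2.le (by ring) (by ring) (by ring) (by ring) ?_ hb.le hw
    have e1 : 1 - p ^ 2 * s ^ 2 * (3 - 2 * (p * s)) = (1 - p * s) ^ 2 * (1 + 2 * (p * s)) := by ring
    rw [e1]
    have e2 : (1 - p) * (1 - s) * (2 / 3 * (1 - p * s) ^ 2) =
        (1 - p * s) ^ 2 * (2 / 3 * ((1 - p) * (1 - s))) := by ring
    rw [e2]
    exact mul_le_mul_of_nonneg_left (bil p s hp1 hs1) (sq_nonneg _)

theorem inv_facts {p : ℝ} (hp2 : p < 1) : 1 - (3 - 2 * p)⁻¹ = (1 - p) * (2 * (3 - 2 * p)⁻¹) ∧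
    p - (3 - 2 * p)⁻¹ = (1 - p) * ((2 * p - 1) * (3 - 2 * p)⁻¹) ∧
    (1:ℝ) ^ 3 / (3 * 1 - 2 * p) = (3 - 2 * p)⁻¹ := by
  have p3 : 0 < 3 - 2 * p := by linarith
  have i1 : (3 - 2 * p) * (3 - 2 * p)⁻¹ = 1 := mul_inv_cancel₀ p3.ne'
  exact ⟨by linear_combination (-1) * i1, by linear_combination (-p) * i1, by norm_num⟩

theorem corner01 {p s : ℝ} (hp1 : -(1:ℝ) / 2 ≤ p) (hp2 : p < 1) (hs1 : -(1:ℝ) / 2 ≤ s) (hs2 : s < 1) :
    0 ≤ GT (p ^ 2) ((3 - 2 * s)⁻¹) p s (q0 p) (q1 s) := by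
  obtain ⟨hu, hv⟩ := boxW hp1 hp2 hs1 hs2
  obtain ⟨e, he, hw⟩ := use_check' cW01 hu hv rfl
  have hb := use_check cB01 hu hv rfl
  obtain ⟨hC1, hD1, xl3⟩ := inv_facts hs2
  have s3 : 0 < 3 - 2 * s := by linarith
  simp only [List.mem_cons, List.not_mem_nil, or_false] at he
  simp only [val_eB, val_tx0, val_tX, val_eP, val_eS, add_sub_cancel_right] at hb
  rcases he with rfl | rfl
  · simp only [val_eT, val_tx0, val_tX, val_sq, val_Xu, val_eP, val_eS, add_sub_cancel_right,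
      Nat.cast_one, div_one, xl3] at hw
    exact hw.le
  · simp only [val_eA, val_eB, val_eC, val_Ke, val_wA0, val_wA1, val_wB1, val_tx0, val_tX, val_eP,
      val_eS, add_sub_cancel_right] at hw
    refine GT_red hp2.le hs2.le (by ring) (by ring) hC1 hD1 ?_ hb.le hw
    have e1 : 1 - p ^ 2 * (3 - 2 * s)⁻¹ * (3 - 2 * (p * s)) - (1 - p) * (1 - s) *
        (2 * (1 + p + p ^ 2) * (3 - 2 * s)⁻¹) = (1 - p) ^ 2 * (1 + 2 * p) * (3 - 2 * s)⁻¹ := by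
      have i2 : (3 - 2 * s) * (3 - 2 * s)⁻¹ = 1 := mul_inv_cancel₀ s3.ne'
      linear_combination (-1) * i2
    have e2 : 0 ≤ (1 - p) ^ 2 * (1 + 2 * p) * (3 - 2 * s)⁻¹ := by
      have : 0 ≤ 1 + 2 * p := by linarith
      positivity
    linarith

theorem corner10 {p s : ℝ} (hp1 : -(1:ℝ) / 2 ≤ p) (hp2 : p < 1) (hs1 : -(1:ℝ) / 2 ≤ s) (hs2 : s < 1) :
    0 ≤ GT ((3 - 2 * p)⁻¹) (s ^ 2) p s (q1 p) (q0 s) := by
  obtain ⟨hu, hv⟩ := boxW hp1 hp2 hs1 hs2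
  obtain ⟨e, he, hw⟩ := use_check' cW10 hu hv rfl
  have hb := use_check cB10 hu hv rfl
  obtain ⟨hC1, hD1, xl3⟩ := inv_facts hp2
  have p3 : 0 < 3 - 2 * p := by linarith
  simp only [List.mem_cons, List.not_mem_nil, or_false] at he
  simp only [val_eB, val_tx0, val_tX, val_eP, val_eS, add_sub_cancel_right] at hb
  rcases he with rfl | rfl
  · simp only [val_eT, val_tx0, val_tX, val_sq, val_Xu, val_eP, val_eS, add_sub_cancel_right,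
      Nat.cast_one, div_one, xl3] at hw
    exact hw.le
  · simp only [val_eA, val_eB, val_eC, val_Ke, val_wA0, val_wA1, val_wB1, val_tx0, val_tX, val_eP,
      val_eS, add_sub_cancel_right] at hw
    refine GT_red hp2.le hs2.le hC1 hD1 (by ring) (by ring) ?_ hb.le hw
    have e1 : 1 - (3 - 2 * p)⁻¹ * s ^ 2 * (3 - 2 * (p * s)) - (1 - p) * (1 - s) *
        (2 * (1 + s + s ^ 2) * (3 - 2 * p)⁻¹) = (1 - s) ^ 2 * (1 + 2 * s) * (3 - 2 * p)⁻¹ := by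
      have i2 : (3 - 2 * p) * (3 - 2 * p)⁻¹ = 1 := mul_inv_cancel₀ p3.ne'
      linear_combination (-1) * i2
    have e2 : 0 ≤ (1 - s) ^ 2 * (1 + 2 * s) * (3 - 2 * p)⁻¹ := by
      have : 0 ≤ 1 + 2 * s := by linarith
      positivity
    linarith

theorem corner11 {p s : ℝ} (hp1 : -(1:ℝ) / 2 ≤ p) (hp2 : p < 1) (hs1 : -(1:ℝ) / 2 ≤ s) (hs2 : s < 1) :
    0 ≤ GT ((3 - 2 * p)⁻¹) ((3 - 2 * s)⁻¹) p s (q1 p) (q1 s) := by
  obtain ⟨hu, hv⟩ := boxW hp1 hp2 hs1 hs2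
  obtain ⟨e, he, hw⟩ := use_check' cW11 hu hv rfl
  have hb := use_check cB11 hu hv rfl
  obtain ⟨hA1, hB1, xl3⟩ := inv_facts hp2
  obtain ⟨hC1, hD1, xl4⟩ := inv_facts hs2
  have p3 : 0 < 3 - 2 * p := by linarith
  have s3 : 0 < 3 - 2 * s := by linarith
  simp only [List.mem_cons, List.not_mem_nil, or_false] at he
  simp only [val_eB, val_tX, val_eP, val_eS, add_sub_cancel_right] at hb
  rcases he with rfl | rfl
  · simp only [val_eT, val_tX, val_Xu, val_eP, val_eS, add_sub_cancel_right,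
      Nat.cast_one, div_one, xl3, xl4] at hw
    exact hw.le
  · simp only [val_eA, val_eB, val_eC, val_Kf, val_wA1, val_wB1, val_tX, val_eP,
      val_eS, add_sub_cancel_right] at hw
    refine GT_red hp2.le hs2.le hA1 hB1 hC1 hD1 ?_ hb.le hw
    have i1 : (3 - 2 * p) * (3 - 2 * p)⁻¹ = 1 := mul_inv_cancel₀ p3.ne'
    have i2 : (3 - 2 * s) * (3 - 2 * s)⁻¹ = 1 := mul_inv_cancel₀ s3.ne'
    have e1 : 1 - (3 - 2 * p)⁻¹ * (3 - 2 * s)⁻¹ * (3 - 2 * (p * s)) = (1 - p) * (1 - s) *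
        (6 * ((3 - 2 * p)⁻¹ * (3 - 2 * s)⁻¹)) := by
      linear_combination (-1) * ((3 - 2 * s) * (3 - 2 * s)⁻¹) * i1 - i2
    rw [e1]

theorem tangent {x p k : ℝ} (hp : p < 1) (hk : 0 < k) (hx : x < 1) :
    (p - x) / (1 - x) ≤ (1 - 2 * k) + k ^ 2 * (1 - p)⁻¹ * (1 - x) := by
  have x1 : 0 < 1 - x := by linarith
  have p2 : 0 < 1 - p := by linarith
  rw [div_le_iff₀ x1]
  have i : (1 - p) * (1 - p)⁻¹ = 1 := mul_inv_cancel₀ p2.ne'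
  have e : ((1 - 2 * k) + k ^ 2 * (1 - p)⁻¹ * (1 - x)) * (1 - x) - (p - x) =
      (1 - p) * (1 - (1 - x) * (k * (1 - p)⁻¹)) ^ 2 := by
    linear_combination (2 * (1 - x) * k - (1 - x) ^ 2 * k ^ 2 * (1 - p)⁻¹) * i
  have : 0 ≤ (1 - p) * (1 - (1 - x) * (k * (1 - p)⁻¹)) ^ 2 := by positivity
  linarith

theorem line0 {p : ℝ} (hp1 : -(1:ℝ) / 2 ≤ p) (hp2 : p < 1) :
    (1 - 2 * (1 + p)⁻¹) + (1 + p)⁻¹ ^ 2 * (1 - p)⁻¹ * (1 - p ^ 2) = q0 p := by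
  have p1 : 0 < 1 + p := by linarith
  have p2 : 0 < 1 - p := by linarith
  unfold q0
  field_simp; ring

theorem line1 {p : ℝ} (hp1 : -(1:ℝ) / 2 ≤ p) (hp2 : p < 1) :
    (1 - 2 * (1 + p)⁻¹) + (1 + p)⁻¹ ^ 2 * (1 - p)⁻¹ * (1 - (3 - 2 * p)⁻¹) = q1 p := by
  have p1 : 0 < 1 + p := by linarith
  have p2 : 0 < 1 - p := by linarith
  have p3 : 0 < 3 - 2 * p := by linarith
  unfold q1
  rw [(inv_facts hp2).1]
  field_simp

/-- main inequality on the whole triangle -/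
theorem GW_nonneg {x y p s : ℝ} (hp1 : -(1:ℝ) / 2 ≤ p) (hp2 : p < 1)
    (hs1 : -(1:ℝ) / 2 ≤ s) (hs2 : s < 1) (hx1 : p ^ 2 ≤ x) (hx2 : x ≤ XL 1 p)
    (hy1 : s ^ 2 ≤ y) (hy2 : y ≤ XL 1 s) (hx3 : x < 1) (hy3 : y < 1)
    (hD0 : 0 ≤ 1 - x * y * (3 - 2 * (p * s))) :
    0 ≤ GT x y p s ((p - x) / (1 - x)) ((s - y) / (1 - y)) := by
  have p1 : 0 < 1 + p := by linarith
  have p2 : 0 < 1 - p := by linarith
  have s1 : 0 < 1 - s := by linarith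
  have s2 : 0 < 1 + s := by linarith
  have xl1 : XL 1 s = (3 - 2 * s)⁻¹ := by rw [XL]; norm_num
  have xl2 : XL 1 p = (3 - 2 * p)⁻¹ := by rw [XL]; norm_num
  have k1p : 0 ≤ (1 + p)⁻¹ ^ 2 * (1 - p)⁻¹ := by positivity
  have k2p : 0 ≤ (1 + s)⁻¹ ^ 2 * (1 - s)⁻¹ := by positivity
  have hps : p * s ≤ 1 := by nlinarith
  have c00 := corner00 hp1 hp2 hs1 hs2
  have c01 := corner01 hp1 hp2 hs1 hs2
  have c10 := corner10 hp1 hp2 hs1 hs2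
  have c11 := corner11 hp1 hp2 hs1 hs2
  rw [← line0 hp1 hp2, ← line0 hs1 hs2] at c00
  rw [← line0 hp1 hp2, ← line1 hs1 hs2] at c01
  rw [← line1 hp1 hp2, ← line0 hs1 hs2] at c10
  rw [← line1 hp1 hp2, ← line1 hs1 hs2] at c11
  rw [xl1] at hy2
  rw [xl2] at hx2
  have TX := tangent (x := x) hp2 (inv_pos.mpr p1) hx3
  have TY := tangent (x := y) hs2 (inv_pos.mpr s2) hy3
  generalize (1 + p)⁻¹ ^ 2 * (1 - p)⁻¹ = k1 at *
  generalize (1 + s)⁻¹ ^ 2 * (1 - s)⁻¹ = k2 at *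
  generalize 1 - 2 * (1 + p)⁻¹ = t0 at *
  generalize 1 - 2 * (1 + s)⁻¹ = s0 at *
  have main : 0 ≤ Fxy p s t0 k1 s0 k2 x y :=
    Fxy_corner (a := p ^ 2) (b := (3 - 2 * p)⁻¹) (c := s ^ 2) (d := (3 - 2 * s)⁻¹) k1p k2p hs2.le hps
      (sq_nonneg _) (sq_nonneg _) c00 c01 c10 c11 hx1 hx2 hy1 hy2
  have last : Fxy p s t0 k1 s0 k2 x y ≤ GT x y p s ((p - x) / (1 - x)) ((s - y) / (1 - y)) := by
    simp only [Fxy, GT]
    have h3 : (1 - s) * ((p - x) / (1 - x)) ≤ (1 - s) * (t0 + k1 * (1 - x)) :=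
      mul_le_mul_of_nonneg_left TX s1.le
    have h4 : (1 / 10 + (s - y) / (1 - y) + 3 / 2 * ((1 - s) * ((p - x) / (1 - x)))) ≤
        (1 / 10 + (s0 + k2 * (1 - y)) + 3 / 2 * ((1 - s) * (t0 + k1 * (1 - x)))) := by linarith
    have h5 := mul_le_mul_of_nonneg_left h4 hD0
    linarith
  linarith

end Vale.Agent.Potts
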