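import Mathlib
import Vale.Agent.Potts.All
import Vale.Agent.Potts.PartA2

/-! P154, all `d`: the framework with the class function `fm`. -/

namespace Vale.Agent.Potts.Frame

open Finset Filter

/-- class of families: nonnegative, mass one, `S_3`-invariant, and `-kap X ≤ sum fm` -/
structure GoodK (kap : ℝ) {ι : Type} [Fintype ι] (v : ι → V3) : Prop where
  nn : ∀ i j, 0 ≤ v i j
  pos : ∀ i, 0 < pp (v i)
  tot : ∑ i, pp (v i) = 1
  eqv : ∀ π : Equiv.Perm (Fin 3), ∃ σ : ι ≃ ι, ∀ i, v (σ i) = fun j => v i (π j)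
  cls : -kap * XX v ≤ ∑ i, fm (v i)

variable {ι κ : Type} [Fintype ι] [Fintype κ] {kap : ℝ}

theorem GoodK.X_nonneg {v : ι → V3} (h : GoodK kap v) : 0 ≤ XX v :=
  Finset.sum_nonneg fun i _ => Ff_nonneg _ (h.pos i)

theorem GoodK.X_le_one {v : ι → V3} (h : GoodK kap v) : XX v ≤ 1 := by
  rw [← h.tot]
  exact Finset.sum_le_sum fun i _ => Ff_le_pp _ (h.pos i) (h.nn i)

theorem GoodK.T_le_X {v : ι → V3} (h : GoodK kap v) : ∑ i, Rr (v i) ≤ XX v :=
  Finset.sum_le_sum fun i _ => Rr_le_Ff _ (h.pos i) (h.nn i)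

theorem fm_le_Rr {v : V3} (h : Pos v) : fm v ≤ Rr v := by
  have h0 := h 0
  have h1 := h 1
  have h2 := h 2
  have e2 : 0 < v 0 * v 1 + v 1 * v 2 + v 0 * v 2 := by positivity
  have e1 : 0 < v 0 + v 1 + v 2 := by positivity
  have hp : 0 < pp v := by unfold pp; positivity
  have key : 9 * (v 0 * v 1 * v 2) ≤ (v 0 + v 1 + v 2) * (v 0 * v 1 + v 1 * v 2 + v 0 * v 2) := by
    nlinarith [mul_nonneg h0.le (sq_nonneg (v 1 - v 2)), mul_nonneg h1.le (sq_nonneg (v 0 - v 2)),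
        mul_nonneg h2.le (sq_nonneg (v 0 - v 1))]
  have hF := Ff_nonneg v hp
  have e : Rr v - fm v = Ff v * (1 - 9 * (v 0 * v 1 * v 2) /
      ((v 0 + v 1 + v 2) * (v 0 * v 1 + v 1 * v 2 + v 0 * v 2))) / 2 := by
    unfold Rr fm mm Ff pp
    field_simp
    ring
  have h3 : 9 * (v 0 * v 1 * v 2) /
      ((v 0 + v 1 + v 2) * (v 0 * v 1 + v 1 * v 2 + v 0 * v 2)) ≤ 1 := by
    rw [div_le_one (mul_pos e1 e2)]; exact key
  have h4 : 0 ≤ Rr v - fm v := by
    rw [e]
    have : 0 ≤ 1 - 9 * (v 0 * v 1 * v 2) /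
      ((v 0 + v 1 + v 2) * (v 0 * v 1 + v 1 * v 2 + v 0 * v 2)) := by linarith
    positivity
  linarith

theorem mm_nonneg {v : V3} (h : ∀ i, 0 ≤ v i) : 0 ≤ mm v := by
  have h0 := h 0
  have h1 := h 1
  have h2 := h 2
  unfold mm
  positivity

theorem sum_mm {v : ι → V3} (h : ∑ i, pp (v i) = 1) :
    ∑ i, mm (v i) = 1 - 2 * XX v + 2 * ∑ i, fm (v i) := by
  have : ∀ i, mm (v i) = pp (v i) - 2 * Ff (v i) + 2 * fm (v i) := fun i => by
    unfold fm; ring
  simp only [this, Finset.sum_add_distrib, Finset.sum_sub_distrib, ← Finset.mul_sum]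
  rw [h]
  rfl

/-- `sum_prodFam` only needs the equivariance -/
theorem sum_prodFam' (a : ι → V3) (b : κ → V3)
    (hb : ∀ π : Equiv.Perm (Fin 3), ∃ σ : κ ≃ κ, ∀ i, b (σ i) = fun j => b i (π j)) (g : V3 → ℝ) :
    ∑ x, g (prodFam a b x) = ∑ i, ∑ k, (∑ π : Equiv.Perm (Fin 3), g (mul (a i) (b k) π)) / 6 := by
  rw [Fintype.sum_prod_type]
  refine Finset.sum_congr rfl fun i _ => ?_
  have h1 : ∀ π : Equiv.Perm (Fin 3), ∑ k, g (mul (a i) (b k) π) = ∑ k, g (prodFam a b (i, k)) := by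
    intro π
    obtain ⟨σ, hσ⟩ := hb π
    rw [← Equiv.sum_comp σ (fun k => g (prodFam a b (i, k)))]
    refine Finset.sum_congr rfl fun k _ => ?_
    congr 1
    funext j
    simp only [mul, prodFam, hσ k]
  rw [← Finset.sum_div, Finset.sum_comm]
  simp only [h1]
  rw [Finset.sum_const, Finset.card_univ, Fintype.card_perm, Fintype.card_fin]
  simp [Nat.factorial]

/-- The real-number part of the closure of the class under merging. -/
theorem closure_real {kap Xa Xb Xab Ma Mb Mab fa fb fab : ℝ} (hk : 0 ≤ kap) (hXa : 0 ≤ Xa)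
    (hXb : 0 ≤ Xb) (hMb : 0 ≤ Mb) (hMa : 0 ≤ Ma)
    (ea : Ma = 1 - 2 * Xa + 2 * fa) (eb : Mb = 1 - 2 * Xb + 2 * fb)
    (eab : Mab = 1 - 2 * Xab + 2 * fab) (ha : -kap * Xa ≤ fa) (hb : -kap * Xb ≤ fb)
    (hsm : 2 * (1 + kap) * Xa ≤ 1) (hj : Ma * Mb ≤ Mab)
    (hq : Xa + Xb - 2 * (Xa * Xb) ≤ Xab) : -kap * Xab ≤ fab := by
  have hua : 0 ≤ 1 - 2 * (1 + kap) * Xa := by linarith
  have h1 : 1 - 2 * (1 + kap) * Xa ≤ Ma := by rw [ea]; linarith
  have h2 : 1 - 2 * (1 + kap) * Xb ≤ Mb := by rw [eb]; linarith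
  have h3 : (1 - 2 * (1 + kap) * Xa) * (1 - 2 * (1 + kap) * Xb) ≤ Ma * Mb := by
    rcases le_total 0 (1 - 2 * (1 + kap) * Xb) with h | h
    · exact mul_le_mul h1 h2 h hMa
    · have h4 : (1 - 2 * (1 + kap) * Xa) * (1 - 2 * (1 + kap) * Xb) ≤ 0 :=
        mul_nonpos_of_nonneg_of_nonpos hua h
      have h5 := mul_nonneg hMa hMb
      linarith
  have h6 : 0 ≤ kap * (1 + kap) * (Xa * Xb) := by positivity
  have h7 : (1 + kap) * (Xa + Xb - 2 * (Xa * Xb)) ≤ (1 + kap) * Xab :=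
    mul_le_mul_of_nonneg_left hq (by linarith)
  nlinarith

theorem mergeK {L t c al : ℝ} (hc : 0 ≤ c) (hal : 0 ≤ al) (hk : 0 ≤ kap)
    (h1 : PWm L t c al) (h2 : PWq L) (h3 : PWj) {a : ι → V3} {b : κ → V3}
    (ha : GoodK kap a) (hb : GoodK kap b) (ia : ∀ i, InT L (a i)) (pa : ∀ i, Pos (a i))
    (pb : ∀ k, Pos (b k)) (hsm : 2 * (1 + kap) * XX a ≤ 1) :
    GoodK kap (prodFam a b) ∧
      XX a + XX b - 2 * (XX a * XX b) ≤ XX (prodFam a b) ∧
      XX (prodFam a b) ≤ XX a + XX b - (t - c * kap - al * kap * (1 + kap)) * (XX a * XX b) := by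
  have hpos : ∀ x j, 0 < prodFam a b x j := fun x j => mul_pos (pa x.1 j) (pb x.2 j)
  have hXa := ha.X_nonneg
  have hXb := hb.X_nonneg
  have htot : ∑ x, pp (prodFam a b x) = 1 := by
    rw [sum_prodFam' a b hb.eqv]
    simp only [avg_pp]
    rw [sum_mul_sum', ha.tot, hb.tot, one_mul]
  have hq : XX a + XX b - 2 * (XX a * XX b) ≤ XX (prodFam a b) := by
    have h5 : ∑ i, ∑ k, (Ff (a i) * pp (b k) + pp (a i) * Ff (b k) - 2 * (Ff (a i) * Ff (b k))) ≤
        XX (prodFam a b) := by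
      unfold XX
      rw [sum_prodFam' a b hb.eqv]
      exact Finset.sum_le_sum fun i _ => Finset.sum_le_sum fun k _ => h2 _ _ (ia i) (pb k)
    refine le_trans (le_of_eq ?_) h5
    simp only [Finset.sum_sub_distrib, Finset.sum_add_distrib, ← Finset.mul_sum]
    simp only [← Finset.sum_mul]
    rw [ha.tot, hb.tot]
    unfold XX
    ring
  have hj : (∑ i, mm (a i)) * (∑ k, mm (b k)) ≤ ∑ x, mm (prodFam a b x) := by
    rw [sum_prodFam' a b hb.eqv, ← sum_mul_sum']
    exact Finset.sum_le_sum fun i _ => Finset.sum_le_sum fun k _ => h3 _ _ (pa i) (pb k)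
  have hcls : -kap * XX (prodFam a b) ≤ ∑ x, fm (prodFam a b x) :=
    closure_real hk hXa hXb (Finset.sum_nonneg fun k _ => mm_nonneg (hb.nn k))
      (Finset.sum_nonneg fun i _ => mm_nonneg (ha.nn i)) (sum_mm ha.tot) (sum_mm hb.tot)
      (sum_mm htot) ha.cls hb.cls hsm hj hq
  refine ⟨⟨fun x j => (hpos x j).le, fun x => ?_, htot, fun π => ?_, hcls⟩, hq, ?_⟩
  · have := hpos x 0
    have := hpos x 1
    have := hpos x 2
    unfold pp
    positivity
  · obtain ⟨σ, hσ⟩ := ha.eqv π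
    obtain ⟨τ, hτ⟩ := hb.eqv π
    refine ⟨Equiv.prodCongr σ τ, fun x => ?_⟩
    funext j
    simp only [prodFam, Equiv.prodCongr_apply, Prod.map_apply', hσ, hτ]
  · have h5 : XX (prodFam a b) ≤ ∑ i, ∑ k, (Ff (a i) * pp (b k) + pp (a i) * Ff (b k) -
        t * (Ff (a i) * Ff (b k)) - c * (Ff (a i) * fm (b k)) -
        al * (fm (a i) * (Ff (b k) - Rr (b k)))) := by
      unfold XX
      rw [sum_prodFam' a b hb.eqv]
      exact Finset.sum_le_sum fun i _ => Finset.sum_le_sum fun k _ => h1 _ _ (ia i) (pb k)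
    have h6 : ∑ i, ∑ k, (Ff (a i) * pp (b k) + pp (a i) * Ff (b k) -
        t * (Ff (a i) * Ff (b k)) - c * (Ff (a i) * fm (b k)) -
        al * (fm (a i) * (Ff (b k) - Rr (b k)))) =
        XX a * 1 + 1 * XX b - t * (XX a * XX b) - c * (XX a * ∑ k, fm (b k)) -
        al * ((∑ i, fm (a i)) * (XX b - ∑ k, Rr (b k))) := by
      simp only [Finset.sum_sub_distrib, Finset.sum_add_distrib, ← Finset.mul_sum]
      simp only [← Finset.mul_sum, ← Finset.sum_mul]
      rw [ha.tot, hb.tot]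
      unfold XX
      simp only [← Finset.mul_sum, ← Finset.sum_mul, Finset.sum_sub_distrib]
    rw [h6] at h5
    have hT1 : ∑ k, Rr (b k) ≤ XX b := hb.T_le_X
    have hT2 : -kap * XX b ≤ ∑ k, Rr (b k) :=
      hb.cls.trans (Finset.sum_le_sum fun k _ => fm_le_Rr (pb k))
    have hfa := ha.cls
    have hfb := hb.cls
    set fa := ∑ i, fm (a i)
    set fb := ∑ k, fm (b k)
    set Tb := ∑ k, Rr (b k)
    have h7 : -(kap * (1 + kap) * (XX a * XX b)) ≤ fa * (XX b - Tb) := by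
      have h8 : 0 ≤ XX b - Tb := by linarith
      have h9 : XX b - Tb ≤ (1 + kap) * XX b := by linarith
      have h10 : -kap * XX a * (XX b - Tb) ≤ fa * (XX b - Tb) :=
        mul_le_mul_of_nonneg_right hfa h8
      have h11 : (kap * XX a) * (XX b - Tb) ≤ (kap * XX a) * ((1 + kap) * XX b) :=
        mul_le_mul_of_nonneg_left h9 (mul_nonneg hk hXa)
      nlinarith
    have h8 : -(kap * (XX a * XX b)) ≤ XX a * fb := by
      have := mul_le_mul_of_nonneg_left hfb hXa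
      nlinarith
    have h9 := mul_le_mul_of_nonneg_left h7 hal
    have h10 := mul_le_mul_of_nonneg_left h8 hc
    nlinarith

/-! ### powers -/

/-- product of `k` independent copies -/
def powFam (a : ι → V3) (k : ℕ) : (Fin k → ι) → V3 := fun c j => ∏ l : Fin k, a (c l) j

def splitFin (ι : Type) (k : ℕ) : (Fin (k + 1) → ι) ≃ ι × (Fin k → ι) where
  toFun := fun c => (c 0, fun j => c j.succ)
  invFun := fun x => Fin.cons x.1 x.2
  left_inv := fun c => by
    funext j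
    refine Fin.cases ?_ (fun i => ?_) j
    · rfl
    · rfl
  right_inv := fun x => by
    ext1
    · rfl
    · rfl

omit [Fintype ι] in
theorem powFam_succ (a : ι → V3) (k : ℕ) (c : Fin (k + 1) → ι) :
    powFam a (k + 1) c = prodFam a (powFam a k) (splitFin ι k c) := by
  funext j
  simp only [powFam, prodFam, splitFin, Fin.prod_univ_succ, Equiv.coe_fn_mk]

theorem GoodK.transfer {v : ι → V3} {w : κ → V3} (e : κ ≃ ι)
    (h : GoodK kap v) (hw : ∀ k, w k = v (e k)) : GoodK kap w ∧ XX w = XX v := by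
  have hX : XX w = XX v := Fintype.sum_equiv e _ _ fun k => by rw [hw]
  refine ⟨⟨fun i j => by rw [hw]; exact h.nn _ _, fun i => by rw [hw]; exact h.pos _, ?_, fun π => ?_, ?_⟩, hX⟩
  · rw [← h.tot]
    exact Fintype.sum_equiv e _ _ fun k => by rw [hw]
  · obtain ⟨σ, hσ⟩ := h.eqv π
    refine ⟨(e.trans σ).trans e.symm, fun i => ?_⟩
    rw [hw, hw]
    simp only [Equiv.trans_apply, Equiv.apply_symm_apply]
    exact hσ (e i)
  · have : ∑ i, fm (w i) = ∑ i, fm (v i) := Fintype.sum_equiv e _ _ fun k => by rw [hw]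
    rw [this, hX]
    exact h.cls

theorem powFam_zero_good (a : ι → V3) : GoodK kap (powFam a 0) ∧ XX (powFam a 0) = 0 := by
  have h1 : ∀ c : Fin 0 → ι, powFam a 0 c = fun _ => 1 := fun c => by
    funext j; simp [powFam]
  have hpp : pp (fun _ => (1 : ℝ)) = 1 := by simp only [pp]; norm_num
  have hF : Ff (fun _ => (1 : ℝ)) = 0 := by simp only [Ff, pp]; norm_num
  have hf : fm (fun _ => (1 : ℝ)) = 0 := by simp only [fm, mm, Ff, pp]; norm_num
  have hX : XX (powFam a 0) = 0 := by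
    unfold XX
    simp only [h1, hF, Finset.sum_const_zero]
  refine ⟨⟨fun c j => by rw [h1]; norm_num, fun c => by rw [h1, hpp]; norm_num, ?_, fun π => ?_, ?_⟩, hX⟩
  · simp only [h1, hpp]
    simp
  · refine ⟨Equiv.refl _, fun c => ?_⟩
    rw [h1, h1]
  · rw [hX]
    simp only [h1, hf, Finset.sum_const_zero]
    simp

theorem powFam_good {L t c al : ℝ} (hc : 0 ≤ c) (hal : 0 ≤ al) (hk : 0 ≤ kap)
    (hτ : 0 ≤ t - c * kap - al * kap * (1 + kap))
    (h1 : PWm L t c al) (h2 : PWq L) (h3 : PWj) {a : ι → V3}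
    (ha : GoodK kap a) (ia : ∀ i, InT L (a i)) (pa : ∀ i, Pos (a i))
    (hsm : 2 * (1 + kap) * XX a ≤ 1) (k : ℕ) :
    GoodK kap (powFam a (k + 1)) ∧ XX a ≤ XX (powFam a (k + 1)) ∧
      XX (powFam a (k + 1)) ≤ (k + 1) * XX a -
        k * ((t - c * kap - al * kap * (1 + kap)) * (XX a) ^ 2) := by
  have hpw : ∀ (k : ℕ) (x : Fin k → ι), Pos (powFam a k x) := fun k x j =>
    Finset.prod_pos fun l _ => pa (x l) j
  have hX := ha.X_nonneg
  have hx2 : 0 ≤ 1 - 2 * XX a := by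
    have : 0 ≤ kap * XX a := mul_nonneg hk hX
    linarith
  induction k with
  | zero =>
    obtain ⟨g0, x0⟩ := powFam_zero_good (kap := kap) a
    obtain ⟨g1, g2, g3⟩ := mergeK hc hal hk h1 h2 h3 ha g0 ia pa (hpw 0) hsm
    obtain ⟨g4, g5⟩ := g1.transfer (splitFin ι 0) (powFam_succ a 0)
    rw [x0] at g2 g3
    refine ⟨g4, ?_, ?_⟩
    · rw [g5]; linarith
    · rw [g5]; push_cast; linarith
  | succ k ih =>
    obtain ⟨g0, x0, x1⟩ := ih
    obtain ⟨g1, g2, g3⟩ := mergeK hc hal hk h1 h2 h3 ha g0 ia pa (hpw (k + 1)) hsm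
    obtain ⟨g4, g5⟩ := g1.transfer (splitFin ι (k + 1)) (powFam_succ a (k + 1))
    set τ := t - c * kap - al * kap * (1 + kap)
    set P := XX (powFam a (k + 1))
    refine ⟨g4, ?_, ?_⟩
    · rw [g5]
      have : 0 ≤ P * (1 - 2 * XX a) := mul_nonneg (le_trans hX x0) hx2
      nlinarith
    · rw [g5]
      have h4 : τ * (XX a * XX a) ≤ τ * (XX a * P) :=
        mul_le_mul_of_nonneg_left (mul_le_mul_of_nonneg_left x0 hX) hτ
      push_cast
      nlinarith

/-! ### the tree -/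

theorem goodK_ind : GoodK kap ind ∨ kap < 0 := by
  rcases lt_or_ge kap 0 with h | hk
  · exact Or.inr h
  refine Or.inl ⟨good_ind.nn, good_ind.pos, good_ind.tot, good_ind.eqv, ?_⟩
  have h1 : 0 ≤ XX ind := good_ind.X_nonneg
  have h2 : 0 ≤ ∑ i, fm (ind i) := by
    rw [Fin.sum_univ_three]
    simp [fm, mm, Ff, pp, ind]
    norm_num
  have h3 : 0 ≤ kap * XX ind := mul_nonneg hk h1
  linarith

/-- abstract channel hypotheses for one value of `lam` -/
structure ChanOK (kap L lam : ℝ) : Prop where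
  pos : ∀ v : V3, 0 < pp v → (∀ i, 0 ≤ v i) → Pos (msg lam v)
  inT : ∀ v : V3, 0 < pp v → (∀ i, 0 ≤ v i) → InT L (msg lam v)
  cls : ∀ {ι : Type} [Fintype ι] (v : ι → V3), GoodK kap v →
    -kap * XX (fun i => msg lam (v i)) ≤ ∑ i, fm (msg lam (v i))

theorem GoodK.msg {v : ι → V3} (h : GoodK kap v) {lam L : ℝ} (hch : ChanOK kap L lam) :
    GoodK kap (fun i => msg lam (v i)) where
  nn := fun i j => (hch.pos _ (h.pos i) (h.nn i) j).le
  pos := fun i => by rw [pp_msg]; exact h.pos i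
  tot := by simp only [pp_msg]; exact h.tot
  eqv := fun π => by
    obtain ⟨σ, hσ⟩ := h.eqv π
    exact ⟨σ, fun i => by rw [hσ i, msg_comp]⟩
  cls := hch.cls v h

theorem XX_msgK {v : ι → V3} (h : GoodK kap v) (lam : ℝ) :
    XX (fun i => msg lam (v i)) = lam ^ 2 * XX v := by
  unfold XX
  rw [Finset.mul_sum]
  exact Finset.sum_congr rfl fun i _ => Ff_msg lam _ (h.pos i).ne'

theorem stepK {L t c al lam : ℝ} (hc : 0 ≤ c) (hal : 0 ≤ al) (hk : 0 ≤ kap)
    (hτ : 0 ≤ t - c * kap - al * kap * (1 + kap))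
    (h1 : PWm L t c al) (h2 : PWq L) (h3 : PWj) (hch : ChanOK kap L lam)
    (hsm : 2 * (1 + kap) * lam ^ 2 ≤ 1) (k : ℕ) {n : ℕ} (hg : GoodK kap (lik (k + 2) lam n)) :
    GoodK kap (lik (k + 2) lam (n + 1)) ∧ XX (lik (k + 2) lam (n + 1)) ≤
      ((k + 2 : ℕ) : ℝ) * (lam ^ 2 * XX (lik (k + 2) lam n)) -
        (t - c * kap - al * kap * (1 + kap)) * (lam ^ 2 * XX (lik (k + 2) lam n)) ^ 2 := by
  have hm := hg.msg hch
  have hXm := XX_msgK hg lam
  have hX1 := hg.X_le_one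
  have hX0 := hg.X_nonneg
  have hsm' : 2 * (1 + kap) * XX (fun i => Potts.msg lam (lik (k + 2) lam n i)) ≤ 1 := by
    rw [hXm]
    have : 2 * (1 + kap) * lam ^ 2 * XX (lik (k + 2) lam n) ≤ 2 * (1 + kap) * lam ^ 2 * 1 :=
      mul_le_mul_of_nonneg_left hX1 (by positivity)
    linarith
  obtain ⟨g1, g2, g3⟩ := powFam_good hc hal hk hτ h1 h2 h3 hm
    (fun i => hch.inT _ (hg.pos i) (hg.nn i)) (fun i => hch.pos _ (hg.pos i) (hg.nn i)) hsm' (k + 1)
  obtain ⟨g4, g5⟩ := g1.transfer (w := lik (k + 2) lam (n + 1)) (Equiv.refl _) (fun c => by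
    rw [lik_succ]
    rfl)
  refine ⟨g4, ?_⟩
  rw [g5]
  rw [hXm] at g3
  set A := lam ^ 2 * XX (lik (k + 2) lam n)
  have h4 : 0 ≤ (t - c * kap - al * kap * (1 + kap)) * A ^ 2 := by positivity
  have h5 : 0 ≤ (k : ℝ) * ((t - c * kap - al * kap * (1 + kap)) * A ^ 2) := by positivity
  push_cast at g3 ⊢
  have h6 : ((k : ℝ) + 1) * ((t - c * kap - al * kap * (1 + kap)) * A ^ 2) =
      (k : ℝ) * ((t - c * kap - al * kap * (1 + kap)) * A ^ 2) +
        (t - c * kap - al * kap * (1 + kap)) * A ^ 2 := by ring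
  have h7 : ((k : ℝ) + 1 + 1) * A = ((k : ℝ) + 2) * A := by ring
  rw [h6, h7] at g3
  refine le_trans g3 ?_
  linarith

/-- bound for `a_n` -/
theorem aSeq_leK {d : ℕ} {lam : ℝ} {n : ℕ} (hpos : ∀ c, 0 < pp (lik d lam n c))
    (htot : ∑ c, pp (lik d lam n c) = 1) {η : ℝ} (hη : 0 < η) :
    aSeq 3 d lam n ≤ η / 2 + XX (lik d lam n) / (4 * η) := by
  have h0 : ∀ c, confProb 3 d lam n c = pp (lik d lam n c) := fun c => by
    simp only [confProb, lik, pp, Fin.sum_univ_three]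
    push_cast
    ring
  have h1 : ∀ c, confProb 3 d lam n c * ((1 / 2) * ∑ i : Fin 3, |posterior 3 d lam n i c - 1 / ((3 : ℕ) : ℝ)|) ≤
      η / 2 * pp (lik d lam n c) + Ff (lik d lam n c) / (4 * η) := by
    intro c
    have hp := hpos c
    have h2 : ∀ i, posterior 3 d lam n i c - 1 / ((3 : ℕ) : ℝ) =
        (lik d lam n c i / pp (lik d lam n c) - 1) / 3 := by
      intro i
      unfold posterior
      rw [h0]
      simp only [lik]
      push_cast
      ring
    simp only [h2]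
    rw [h0]
    set v := lik d lam n c with hv
    have h3 : ∀ i, |(v i / pp v - 1) / 3| ≤ (η + (v i / pp v - 1) ^ 2 / (4 * η)) / 3 := by
      intro i
      rw [abs_div, abs_of_pos (by norm_num : (0 : ℝ) < 3)]
      refine div_le_div_of_nonneg_right ?_ (by norm_num)
      set x := v i / pp v - 1
      have h4 : |x| * (4 * η) ≤ 4 * η ^ 2 + x ^ 2 := by
        have := sq_nonneg (|x| - 2 * η)
        rw [← sq_abs x]
        nlinarith
      have h5 : |x| ≤ (4 * η ^ 2 + x ^ 2) / (4 * η) := by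
        rw [le_div_iff₀ (by positivity)]; exact h4
      calc |x| ≤ (4 * η ^ 2 + x ^ 2) / (4 * η) := h5
        _ = η + x ^ 2 / (4 * η) := by field_simp
    have h6 : ∑ i : Fin 3, |(v i / pp v - 1) / 3| ≤ ∑ i : Fin 3, (η + (v i / pp v - 1) ^ 2 / (4 * η)) / 3 :=
      Finset.sum_le_sum fun i _ => h3 i
    have h7 : pp v * (1 / 2 * ∑ i : Fin 3, (η + (v i / pp v - 1) ^ 2 / (4 * η)) / 3) =
        η / 2 * pp v + Ff v / (4 * η) := by
      rw [Fin.sum_univ_three]
      have e : v 2 = 3 * pp v - v 0 - v 1 := by simp only [pp]; ring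
      unfold Ff
      rw [e]
      have hp' := hp.ne'
      have hη' := hη.ne'
      generalize pp v = p at *
      field_simp
      ring
    rw [← h7]
    exact mul_le_mul_of_nonneg_left (mul_le_mul_of_nonneg_left h6 (by norm_num)) hp.le
  unfold aSeq
  refine le_trans (Finset.sum_le_sum fun c _ => h1 c) ?_
  rw [Finset.sum_add_distrib, ← Finset.mul_sum, htot, ← Finset.sum_div]
  simp only [mul_one]
  rfl

theorem aSeq_nonnegK {d : ℕ} {lam : ℝ} {n : ℕ} (hpos : ∀ c, 0 < pp (lik d lam n c)) :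
    0 ≤ aSeq 3 d lam n := by
  have h0 : ∀ c, confProb 3 d lam n c = pp (lik d lam n c) := fun c => by
    simp only [confProb, lik, pp, Fin.sum_univ_three]
    push_cast
    ring
  unfold aSeq
  refine Finset.sum_nonneg fun c _ => ?_
  rw [h0]
  exact mul_nonneg (hpos c).le (mul_nonneg (by norm_num) (Finset.sum_nonneg fun i _ => abs_nonneg _))

theorem aSeq_tendstoK {d : ℕ} {lam : ℝ} (hpos : ∀ n c, 0 < pp (lik d lam n c))
    (htot : ∀ n, ∑ c, pp (lik d lam n c) = 1)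
    (hX : Tendsto (fun n => XX (lik d lam n)) atTop (nhds 0)) :
    Tendsto (fun n => aSeq 3 d lam n) atTop (nhds 0) := by
  rw [Metric.tendsto_atTop]
  intro ε hε
  have h1 : ∀ᶠ n in atTop, XX (lik d lam n) < ε ^ 2 := by
    have : (0 : ℝ) < ε ^ 2 := by positivity
    exact hX.eventually (gt_mem_nhds this)
  obtain ⟨N, hN⟩ := eventually_atTop.1 h1
  refine ⟨N, fun n hn => ?_⟩
  have h2 := hN n hn
  have h3 := aSeq_leK (hpos n) (htot n) hε
  have h4 : XX (lik d lam n) / (4 * ε) < ε / 4 * 1 := by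
    rw [div_lt_iff₀ (by positivity)]
    nlinarith
  rw [Real.dist_eq, sub_zero, abs_of_nonneg (aSeq_nonnegK (hpos n))]
  linarith

theorem frame {L t c al lam : ℝ} (hc : 0 ≤ c) (hal : 0 ≤ al) (hk : 0 ≤ kap)
    (hτ : 0 < t - c * kap - al * kap * (1 + kap))
    (h1 : PWm L t c al) (h2 : PWq L) (h3 : PWj) (hch : ChanOK kap L lam)
    (hsm : 2 * (1 + kap) * lam ^ 2 ≤ 1) (d : ℕ) (hd : 2 ≤ d) (hl : d * lam ^ 2 ≤ 1) :
    Tendsto (fun n => aSeq 3 d lam n) atTop (nhds 0) := by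
  obtain ⟨k, rfl⟩ : ∃ k, d = k + 2 := ⟨d - 2, by omega⟩
  have hg : ∀ n, GoodK kap (lik (k + 2) lam n) := fun n => by
    induction n with
    | zero =>
      rcases goodK_ind (kap := kap) with h | h
      · exact h
      · exact absurd h (not_lt.2 hk)
    | succ n ih => exact (stepK hc hal hk hτ.le h1 h2 h3 hch hsm k ih).1
  have hX : Tendsto (fun n => XX (lik (k + 2) lam n)) atTop (nhds 0) :=
    rec_tendsto hτ hl (fun n => (hg n).X_nonneg)
      fun n => (stepK hc hal hk hτ.le h1 h2 h3 hch hsm k (hg n)).2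
  exact aSeq_tendstoK (fun n => (hg n).pos) (fun n => (hg n).tot) hX

/-- the channel hypotheses for `0 ≤ lam` -/
theorem chanOK_pos (h4 : PWt) (hk : 0 ≤ kap) {L lam : ℝ} (h0 : 0 ≤ lam) (hL : lam ≤ L)
    (h1 : lam < 1) : ChanOK kap L lam where
  pos := fun v hp hn i => by
    have a1 := mul_nonneg h0 (hn i)
    have a2 : 0 < (1 - lam) * pp v := mul_pos (by linarith) hp
    simp only [msg]
    linarith
  inT := fun v hp hn => msg_InT h0 hL v hp hn
  cls := fun {ι} _ v hv => by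
    have e1 : ∀ i, lam ^ 3 * fm (v i) ≤ fm (msg lam (v i)) := fun i =>
      h4 lam _ h0 h1 (hv.pos i) (hv.nn i)
    have e2 : lam ^ 3 * ∑ i, fm (v i) ≤ ∑ i, fm (msg lam (v i)) := by
      rw [Finset.mul_sum]
      exact Finset.sum_le_sum fun i _ => e1 i
    have e3 : lam ^ 3 * (-kap * XX v) ≤ lam ^ 3 * ∑ i, fm (v i) :=
      mul_le_mul_of_nonneg_left hv.cls (by positivity)
    rw [XX_msgK hv]
    have e4 : 0 ≤ kap * XX v * (lam ^ 2 * (1 - lam)) := by
      have := hv.X_nonneg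
      have : 0 ≤ 1 - lam := by linarith
      positivity
    nlinarith

/-- the channel hypotheses for `lam < 0` close to `0` -/
theorem chanOK_neg {L lam : ℝ} (h0 : lam ≤ 0) (h1 : -(1 / 2) < lam) (hL : -lam * 2 ≤ L)
    (hc : ∀ v : V3, 0 < pp v → (∀ i, 0 ≤ v i) → -kap * Ff (msg lam v) ≤ fm (msg lam v)) :
    ChanOK kap L lam where
  pos := fun v hp hn i => by
    have a1 : v i ≤ 3 * pp v := by
      have h0 := hn 0
      have h1 := hn 1
      have h2 := hn 2
      simp only [pp]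
      fin_cases i <;> simp <;> linarith
    have a2 : lam * (3 * pp v) ≤ lam * v i := mul_le_mul_of_nonpos_left a1 h0
    have a3 : 0 < (1 + 2 * lam) * pp v := mul_pos (by linarith) hp
    simp only [msg]
    nlinarith
  inT := fun v hp hn => by
    refine ⟨by rw [pp_msg]; exact hp, fun i => ?_⟩
    have a1 : v i ≤ 3 * pp v := by
      have h0 := hn 0
      have h1 := hn 1
      have h2 := hn 2
      simp only [pp]
      fin_cases i <;> simp <;> linarith
    have a2 : lam * (3 * pp v) ≤ lam * v i := mul_le_mul_of_nonpos_left a1 h0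
    have a3 : 0 ≤ (L + 2 * lam) * pp v := mul_nonneg (by linarith) hp.le
    rw [pp_msg]
    simp only [msg]
    nlinarith
  cls := fun {ι} _ v hv => by
    unfold XX
    rw [Finset.mul_sum]
    exact Finset.sum_le_sum fun i _ => hc _ (hv.pos i) (hv.nn i)

/-- FRAMEWORK: all `d ≥ 2`, `lam ≥ 0` -/
theorem partAll (h1 : PWm (5/7) (1/10) 1 (3/2)) (h2 : PWq (5/7)) (h3 : PWj) (h4 : PWt)
    (d : ℕ) (hd : 2 ≤ d) (lam : ℝ) (h0 : 0 ≤ lam) (hl : d * lam ^ 2 ≤ 1) :
    Tendsto (fun n => aSeq 3 d lam n) atTop (nhds 0) := by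
  have hd' : (2 : ℝ) ≤ d := by exact_mod_cast hd
  have h5 : 2 * lam ^ 2 ≤ 1 := by
    have := mul_le_mul_of_nonneg_right hd' (sq_nonneg lam)
    linarith
  have h6 : lam ≤ 5 / 7 := by nlinarith
  refine frame (kap := 0) (L := 5/7) (t := 1/10) (c := 1) (al := 3/2) (by norm_num) (by norm_num)
    le_rfl (by norm_num) h1 h2 h3 (chanOK_pos h4 le_rfl h0 h6 (by linarith)) (by linarith) d hd hl

end Vale.Agent.Potts.Frame
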