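import Vale.Agent.Potts.GWDefs

/-! P154: expectations over Galton-Watson trees and the scalar recursion. -/

namespace Vale.Agent.Potts

open Finset Filter Topology

lemma hasSum_prod_pow {α : Type*} {w : α → ℝ} {W : ℝ} (hw0 : ∀ a, 0 ≤ w a) (hw : HasSum w W)
    (k : ℕ) : HasSum (fun c : Fin k → α => ∏ i, w (c i)) (W ^ k) := by
  induction k with
  | zero =>
    have h := hasSum_unique (fun c : Fin 0 → α => ∏ i, w (c i))
    simp only [univ_eq_empty, prod_empty] at h
    simp only [univ_eq_empty, prod_empty, pow_zero]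
    exact h
  | succ k ih =>
    have hg0 : ∀ c : Fin k → α, 0 ≤ ∏ i, w (c i) := fun c => prod_nonneg fun i _ => hw0 (c i)
    obtain ⟨g, hg⟩ : ∃ g : (Fin k → α) → ℝ, g = fun c => ∏ i, w (c i) := ⟨_, rfl⟩
    have hg0' : ∀ c, 0 ≤ g c := fun c => by rw [hg]; exact hg0 c
    rw [← hg] at ih
    have hs : Summable fun x : α × (Fin k → α) => w x.1 * g x.2 :=
      Summable.mul_of_nonneg hw.summable ih.summable hw0 hg0'
    have h1 : HasSum (fun x : α × (Fin k → α) => w x.1 * g x.2) (W * W ^ k) :=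
      HasSum.mul hw ih hs
    rw [hg] at h1
    have h2 : (fun c : Fin (k + 1) → α => ∏ i, w (c i)) ∘
        (Fin.consEquiv (fun _ : Fin (k + 1) => α)) =
        fun x : α × (Fin k → α) => w x.1 * ∏ i, w (x.2 i) := by
      funext x
      simp only [Function.comp, Fin.prod_univ_succ]
      rfl
    rw [pow_succ']
    rw [← h2] at h1
    exact (Equiv.hasSum_iff (Fin.consEquiv (fun _ : Fin (k + 1) => α))).1 h1

/-- sums over the first generation -/
lemma hasSum_level {p : ℕ → ℝ} (hp0 : ∀ k, 0 ≤ p k) (hp1 : Summable p) {n : ℕ} {w : Tr n → ℝ}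
    {W : ℝ} (hw0 : ∀ a, 0 ≤ w a) (hw : HasSum w W) (hW1 : W ≤ 1) :
    HasSum (fun t : Tr (n + 1) => p t.1 * ∏ i, w (t.2 i)) (∑' k, p k * W ^ k) := by
  have hW0 : 0 ≤ W := hw.nonneg hw0
  have hout : Summable fun k => p k * W ^ k := by
    refine Summable.of_nonneg_of_le (fun k => mul_nonneg (hp0 k) (pow_nonneg hW0 k)) (fun k => ?_)
      hp1
    exact mul_le_of_le_one_right (hp0 k) (pow_le_one₀ hW0 hW1)
  have hin : ∀ k, HasSum (fun c : Fin k → Tr n => p k * ∏ i, w (c i)) (p k * W ^ k) :=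
    fun k => (hasSum_prod_pow hw0 hw k).mul_left (p k)
  refine HasSum.sigma_of_hasSum (f := fun t : (Σ k : ℕ, (Fin k → Tr n)) => p t.1 * ∏ i, w (t.2 i))
    hout.hasSum hin ?_
  rw [summable_sigma_of_nonneg (fun t => mul_nonneg (hp0 _) (prod_nonneg fun i _ => hw0 _))]
  refine ⟨fun k => (hin k).summable, ?_⟩
  have : (fun k => ∑' c : Fin k → Tr n, p k * ∏ i, w (c i)) = fun k => p k * W ^ k :=
    funext fun k => (hin k).tsum_eq
  exact this ▸ hout

lemma treeProb_succ (p : ℕ → ℝ) (n : ℕ) (t : Tr (n + 1)) :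
    treeProb p (n + 1) t = p t.1 * ∏ i, treeProb p n (t.2 i) := by
  obtain ⟨k, ch⟩ := t
  rfl

lemma treeProb_nonneg {p : ℕ → ℝ} (hp0 : ∀ k, 0 ≤ p k) : ∀ (n : ℕ) (t : Tr n), 0 ≤ treeProb p n t
  | 0, _ => zero_le_one
  | n + 1, t => by
    rw [treeProb_succ]
    exact mul_nonneg (hp0 _) (prod_nonneg fun i _ => treeProb_nonneg hp0 n _)

/-- the total mass is one -/
lemma treeProb_hasSum {p : ℕ → ℝ} (hp0 : ∀ k, 0 ≤ p k) (hp1 : HasSum p 1) :
    ∀ n : ℕ, HasSum (treeProb p n) 1
  | 0 => by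
    have h := hasSum_unique (β := Unit) (fun t : Tr 0 => treeProb p 0 t)
    exact h
  | n + 1 => by
    have h := hasSum_level hp0 hp1.summable (treeProb_nonneg hp0 n) (treeProb_hasSum hp0 hp1 n)
      le_rfl
    have e : (fun t : Tr (n + 1) => p t.1 * ∏ i, treeProb p n (t.2 i)) = treeProb p (n + 1) :=
      funext fun t => (treeProb_succ p n t).symm
    rw [e] at h
    simpa [hp1.tsum_eq] using h

/-- summability against a bounded function -/
lemma treeProb_summable {p : ℕ → ℝ} (hp0 : ∀ k, 0 ≤ p k) (hp1 : HasSum p 1) {n : ℕ}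
    {f : Tr n → ℝ} {B : ℝ} (hf : ∀ t, |f t| ≤ B) : Summable fun t => treeProb p n t * f t := by
  refine Summable.of_norm_bounded (g := fun t => treeProb p n t * B)
    ((treeProb_hasSum hp0 hp1 n).summable.mul_right B) fun t => ?_
  rw [Real.norm_eq_abs, abs_mul, abs_of_nonneg (treeProb_nonneg hp0 n t)]
  exact mul_le_mul_of_nonneg_left (hf t) (treeProb_nonneg hp0 n t)

/-- `(1 - u) ^ k ≥ 1 - k u + u ^ 2` for `k ≥ 2` -/
lemma one_sub_pow_ge {u : ℝ} (_h0 : 0 ≤ u) (h1 : u ≤ 1) (k : ℕ) :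
    1 - k * u + (if 2 ≤ k then 1 else 0) * u ^ 2 ≤ (1 - u) ^ k := by
  induction k with
  | zero => simp
  | succ k ih =>
    rw [pow_succ]
    have h2 := mul_le_mul_of_nonneg_right ih (by linarith : 0 ≤ 1 - u)
    refine le_trans ?_ h2
    rcases Nat.lt_or_ge k 1 with hk | hk
    · have : k = 0 := by omega
      subst this
      simp
    rcases Nat.lt_or_ge k 2 with hk2 | hk2
    · have : k = 1 := by omega
      subst this
      norm_num
      nlinarith
    · rw [if_pos (by omega : 2 ≤ k + 1), if_pos hk2]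
      push_cast
      have hk' : (2 : ℝ) ≤ k := by exact_mod_cast hk2
      have hu2 : 0 ≤ u ^ 2 := sq_nonneg u
      nlinarith [mul_nonneg (by linarith : (0:ℝ) ≤ k - u) hu2]

/-- the scalar recursion -/
lemma gw_tendsto_of_rec {y : ℕ → ℝ} {A B : ℝ} (hy0 : ∀ n, 0 ≤ y n) (hA : A ≤ 1) (hB : 0 ≤ B)
    (hAB : A < 1 ∨ 0 < B) (hrec : ∀ n, y (n + 1) ≤ A * y n - B * y n ^ 2) :
    Tendsto y atTop (𝓝 0) := by
  have hanti : Antitone y := antitone_nat_of_succ_le fun n => by
    have h1 := hrec n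
    have h2 : 0 ≤ B * y n ^ 2 := by positivity
    have h3 : A * y n ≤ 1 * y n := mul_le_mul_of_nonneg_right hA (hy0 n)
    linarith
  have hbdd : BddBelow (Set.range y) := ⟨0, by rintro x ⟨n, rfl⟩; exact hy0 n⟩
  have ht := tendsto_atTop_ciInf hanti hbdd
  set L := ⨅ n, y n
  have hL0 : 0 ≤ L := ge_of_tendsto' ht hy0
  have ht1 : Tendsto (fun n => y (n + 1)) atTop (𝓝 L) := ht.comp (tendsto_add_atTop_nat 1)
  have ht2 : Tendsto (fun n => A * y n - B * y n ^ 2) atTop (𝓝 (A * L - B * L ^ 2)) :=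
    (ht.const_mul A).sub ((ht.pow 2).const_mul B)
  have hle : L ≤ A * L - B * L ^ 2 := le_of_tendsto_of_tendsto' ht1 ht2 hrec
  have hL : L = 0 := by
    rcases hAB with h | h
    · have h2 : 0 ≤ B * L ^ 2 := by positivity
      nlinarith
    · have h2 : (A - 1) * L ≤ 0 := mul_nonpos_of_nonpos_of_nonneg (by linarith) hL0
      have h3 : B * L ^ 2 ≤ 0 := by nlinarith
      have h4 : L ^ 2 ≤ 0 := by
        by_contra hc
        push Not at hc
        have := mul_pos h hc
        linarith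
      nlinarith [sq_nonneg L]
  rw [hL] at ht
  exact ht

/-- **Galton-Watson trees**: the expectation of a subadditive functional tends to zero. -/
theorem gw_tendsto {p : ℕ → ℝ} (hp0 : ∀ k, 0 ≤ p k) (hp1 : HasSum p 1) {m : ℝ}
    (hm : HasSum (fun k : ℕ => (k : ℝ) * p k) m) (hp : p 1 < 1) {l τ : ℝ} (hl0 : 0 ≤ l) (hl1 : l ≤ 1)
    (hml : m * l ≤ 1) (hτ0 : 0 < τ) (hτ1 : τ ≤ 1) (X : ∀ n, Tr n → ℝ) (h0 : ∀ n t, 0 ≤ X n t)
    (h1 : ∀ n t, X n t ≤ 1)
    (hrec : ∀ (n k : ℕ) (ch : Fin k → Tr n),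
      ∏ i, (1 - τ * (l * X n (ch i))) ≤ 1 - τ * X (n + 1) ⟨k, ch⟩) :
    Tendsto (fun n => ∑' t, treeProb p n t * X n t) atTop (𝓝 0) := by
  have habs : ∀ n t, |X n t| ≤ 1 := fun n t => by
    rw [abs_of_nonneg (h0 n t)]; exact h1 n t
  set x : ℕ → ℝ := fun n => ∑' t, treeProb p n t * X n t with hx
  have hxs : ∀ n, HasSum (fun t => treeProb p n t * X n t) (x n) := fun n =>
    (treeProb_summable hp0 hp1 (habs n)).hasSum
  have hx0 : ∀ n, 0 ≤ x n := fun n =>
    (hxs n).nonneg fun t => mul_nonneg (treeProb_nonneg hp0 n t) (h0 n t)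
  have hx1 : ∀ n, x n ≤ 1 := fun n =>
    hasSum_le (fun t => mul_le_of_le_one_right (treeProb_nonneg hp0 n t) (h1 n t)) (hxs n)
      (treeProb_hasSum hp0 hp1 n)
  -- the mass at `k ≥ 2`
  have hqs : Summable fun k => p k * (if 2 ≤ k then (1 : ℝ) else 0) := by
    refine Summable.of_nonneg_of_le (fun k => ?_) (fun k => ?_) hp1.summable
    · split_ifs <;> simp [hp0 k]
    · split_ifs <;> simp [hp0 k]
  set q := ∑' k, p k * (if 2 ≤ k then (1 : ℝ) else 0) with hq
  have hq0 : 0 ≤ q := tsum_nonneg fun k => by split_ifs <;> simp [hp0 k]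
  have hm0 : 0 ≤ m := hm.nonneg fun k => mul_nonneg (Nat.cast_nonneg k) (hp0 k)
  -- one step
  have hstep : ∀ n, τ * x (n + 1) ≤ (m * l) * (τ * x n) - (q * l ^ 2) * (τ * x n) ^ 2 := by
    intro n
    set g : Tr n → ℝ := fun t => 1 - τ * (l * X n t) with hg
    have hg0 : ∀ t, 0 ≤ g t := fun t => by
      have h2 : l * X n t ≤ 1 := mul_le_one₀ hl1 (h0 n t) (h1 n t)
      have h3 : 0 ≤ l * X n t := mul_nonneg hl0 (h0 n t)
      have h4 : τ * (l * X n t) ≤ 1 := mul_le_one₀ hτ1 h3 h2
      simp only [hg]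
      linarith
    set u := τ * (l * x n) with hu
    have hu0 : 0 ≤ u := by have := hx0 n; positivity
    have hu1 : u ≤ 1 := by
      have h2 : l * x n ≤ 1 := mul_le_one₀ hl1 (hx0 n) (hx1 n)
      exact mul_le_one₀ hτ1 (mul_nonneg hl0 (hx0 n)) h2
    have hw : HasSum (fun t => treeProb p n t * g t) (1 - u) := by
      have h2 := (treeProb_hasSum hp0 hp1 n).sub ((hxs n).mul_left (τ * l))
      have e1 : (fun t => treeProb p n t * g t) =
          fun t => treeProb p n t - τ * l * (treeProb p n t * X n t) := by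
        funext t
        simp only [hg]
        ring
      have e2 : 1 - u = 1 - τ * l * x n := by rw [hu]; ring
      rw [e1, e2]
      exact h2
    have hw0 : ∀ t, 0 ≤ treeProb p n t * g t := fun t =>
      mul_nonneg (treeProb_nonneg hp0 n t) (hg0 t)
    have hlev := hasSum_level hp0 hp1.summable hw0 hw (by linarith)
    have hupper : HasSum (fun t : Tr (n + 1) => treeProb p (n + 1) t * (1 - τ * X (n + 1) t))
        (1 - τ * x (n + 1)) := by
      have h2 := (treeProb_hasSum hp0 hp1 (n + 1)).sub ((hxs (n + 1)).mul_left τ)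
      have e1 : (fun t => treeProb p (n + 1) t * (1 - τ * X (n + 1) t)) =
          fun t => treeProb p (n + 1) t - τ * (treeProb p (n + 1) t * X (n + 1) t) := by
        funext t
        ring
      rw [e1]
      exact h2
    have hcmp : ∑' k, p k * (1 - u) ^ k ≤ 1 - τ * x (n + 1) := by
      refine hasSum_le (fun t => ?_) hlev hupper
      obtain ⟨k, ch⟩ := t
      have e1 : p k * ∏ i, (treeProb p n (ch i) * g (ch i)) =
          (p k * ∏ i, treeProb p n (ch i)) * ∏ i, g (ch i) := by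
        rw [prod_mul_distrib, mul_assoc]
      have e2 : 0 ≤ p k * ∏ i, treeProb p n (ch i) :=
        mul_nonneg (hp0 k) (prod_nonneg fun i _ => treeProb_nonneg hp0 n (ch i))
      exact e1.le.trans (mul_le_mul_of_nonneg_left (hrec n k ch) e2)
    have hlow : 1 - m * u + q * u ^ 2 ≤ ∑' k, p k * (1 - u) ^ k := by
      have h2 : HasSum (fun k => p k - k * p k * u + p k * (if 2 ≤ k then (1 : ℝ) else 0) * u ^ 2)
          (1 - m * u + q * u ^ 2) :=
        (hp1.sub (hm.mul_right u)).add (hqs.hasSum.mul_right (u ^ 2))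
      have hs : Summable fun k => p k * (1 - u) ^ k := by
        refine Summable.of_nonneg_of_le
          (fun k => mul_nonneg (hp0 k) (pow_nonneg (by linarith) k)) (fun k => ?_) hp1.summable
        exact mul_le_of_le_one_right (hp0 k) (pow_le_one₀ (by linarith) (by linarith))
      refine hasSum_le (fun k => ?_) h2 hs.hasSum
      have h3 := mul_le_mul_of_nonneg_left (one_sub_pow_ge hu0 hu1 k) (hp0 k)
      refine le_trans (le_of_eq ?_) h3
      ring
    have h5 : τ * x (n + 1) ≤ m * u - q * u ^ 2 := by linarith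
    refine h5.trans (le_of_eq ?_)
    rw [hu]
    ring
  have hlim : Tendsto (fun n => τ * x n) atTop (𝓝 0) := by
    refine gw_tendsto_of_rec (A := m * l) (B := q * l ^ 2) (fun n => mul_nonneg hτ0.le (hx0 n)) hml
      (by positivity) ?_ hstep
    by_cases hl : l = 0
    · left; rw [hl]; norm_num
    have hlpos : 0 < l := lt_of_le_of_ne hl0 (Ne.symm hl)
    by_cases hqz : q = 0
    · left
      -- only `0` or `1` child
      have hpk : ∀ k, 2 ≤ k → p k = 0 := by
        intro k hk
        have h2 : p k * (if 2 ≤ k then (1 : ℝ) else 0) ≤ q :=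
          hqs.le_tsum k fun j _ => by split_ifs <;> simp [hp0 j]
        rw [if_pos hk, mul_one, hqz] at h2
        exact le_antisymm h2 (hp0 k)
      have hm1 : m = p 1 := by
        have h2 : HasSum (fun k : ℕ => (k : ℝ) * p k) (((1 : ℕ) : ℝ) * p 1) := by
          refine hasSum_single 1 fun k hk => ?_
          rcases Nat.lt_or_ge k 2 with h3 | h3
          · have : k = 0 := by omega
            subst this
            simp
          · rw [hpk k h3, mul_zero]
        have := hm.unique h2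
        rw [this]
        simp
      rw [hm1]
      have h3 : p 1 * l ≤ p 1 * 1 := mul_le_mul_of_nonneg_left hl1 (hp0 1)
      linarith
    · right
      have : 0 < q := lt_of_le_of_ne hq0 (Ne.symm hqz)
      positivity
  have h6 := hlim.const_mul τ⁻¹
  simp only [mul_zero] at h6
  refine h6.congr fun n => ?_
  rw [← mul_assoc, inv_mul_cancel₀ hτ0.ne', one_mul]

/-- The Poisson offspring law. -/
noncomputable def poisson (D : ℝ) (k : ℕ) : ℝ := Real.exp (-D) * D ^ k / k.factorial

lemma poisson_nonneg {D : ℝ} (hD : 0 ≤ D) (k : ℕ) : 0 ≤ poisson D k := by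
  unfold poisson
  positivity

lemma poisson_hasSum (D : ℝ) : HasSum (poisson D) 1 := by
  have h := (NormedSpace.expSeries_div_hasSum_exp (D : ℝ)).mul_left (Real.exp (-D))
  rw [← Real.exp_eq_exp_ℝ, ← Real.exp_add, neg_add_cancel, Real.exp_zero] at h
  have e : (fun k : ℕ => Real.exp (-D) * (D ^ k / (k.factorial : ℝ))) = poisson D := by
    funext k
    unfold poisson
    ring
  rw [e] at h
  exact h

lemma poisson_mean (D : ℝ) : HasSum (fun k : ℕ => (k : ℝ) * poisson D k) D := by
  rw [← hasSum_nat_add_iff' 1]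
  simp only [sum_range_one, Nat.cast_zero, zero_mul, sub_zero]
  have h := (poisson_hasSum D).mul_left D
  rw [mul_one] at h
  have e : (fun k : ℕ => ((k + 1 : ℕ) : ℝ) * poisson D (k + 1)) = fun k => D * poisson D k := by
    funext k
    unfold poisson
    rw [Nat.factorial_succ]
    push_cast
    have h1 : ((k : ℝ) + 1) ≠ 0 := by positivity
    have h2 : (k.factorial : ℝ) ≠ 0 := by positivity
    field_simp
    ring
  rw [e]
  exact h

lemma poisson_one_lt {D : ℝ} (hD : 0 ≤ D) : poisson D 1 < 1 := by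
  unfold poisson
  rw [pow_one, Nat.factorial_one, Nat.cast_one, div_one, Real.exp_neg, inv_mul_lt_iff₀ (Real.exp_pos D), mul_one]
  rcases eq_or_lt_of_le hD with h | h
  · rw [← h]; exact Real.exp_pos 0
  · have := Real.add_one_lt_exp h.ne'
    linarith

end Vale.Agent.Potts
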