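import Mathlib
import Vale.Agent.Potts.GWScalar
import Vale.Agent.Potts.GWTree

/-! P154: Galton-Watson trees with mean at most one (extinction). -/

namespace Vale.Agent.Potts

open Finset Filter

/-- the tree has no vertex at distance `n` from the root -/
def dead : (n : ℕ) → Tr n → Prop
  | 0, _ => False
  | n + 1, ⟨_, ch⟩ => ∀ m, dead n (ch m)

open Classical in
/-- indicator of survival -/
noncomputable def alive (n : ℕ) (t : Tr n) : ℝ := if dead n t then 0 else 1

theorem alive_nonneg (n : ℕ) (t : Tr n) : 0 ≤ alive n t := by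
  unfold alive; split_ifs <;> norm_num

theorem alive_le_one (n : ℕ) (t : Tr n) : alive n t ≤ 1 := by
  unfold alive; split_ifs <;> norm_num

theorem dead_succ {n k : ℕ} (ch : Fin k → Tr n) :
    dead (n + 1) (⟨k, ch⟩ : Σ k : ℕ, (Fin k → Tr n)) ↔ ∀ m, dead n (ch m) := Iff.rfl

theorem alive_rec (n k : ℕ) (ch : Fin k → Tr n) :
    ∏ i, (1 - 1 * (1 * alive n (ch i))) ≤
      1 - 1 * alive (n + 1) (⟨k, ch⟩ : Σ k : ℕ, (Fin k → Tr n)) := by
  simp only [one_mul]
  by_cases h : ∀ m, dead n (ch m)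
  · have h1 : alive (n + 1) (⟨k, ch⟩ : Σ k : ℕ, (Fin k → Tr n)) = 0 := if_pos h
    have h2 : ∀ m, alive n (ch m) = 0 := fun m => if_pos (h m)
    rw [h1]
    simp [h2]
  · have h1 : alive (n + 1) (⟨k, ch⟩ : Σ k : ℕ, (Fin k → Tr n)) = 1 := if_neg h
    obtain ⟨m, hm⟩ := not_forall.1 h
    have h2 : alive n (ch m) = 1 := if_neg hm
    rw [h1, Finset.prod_eq_zero (mem_univ m) (by rw [h2]; ring)]
    simp

theorem channel_row (lam : ℝ) (i : Fin 3) : ∑ j, channel 3 lam i j = 1 := by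
  simp only [channel, Finset.sum_add_distrib, Finset.sum_ite_eq, mem_univ, if_true]
  simp
  ring

theorem channel_nonneg {lam : ℝ} (h0 : -(1 / 2) ≤ lam) (h1 : lam ≤ 1) (i j : Fin 3) :
    0 ≤ channel 3 lam i j := by
  unfold channel
  push_cast
  split_ifs <;> linarith

theorem tLaw_dead (lam : ℝ) : ∀ (n : ℕ) (t : Tr n), dead n t →
    ∀ (i : Fin 3) (c : TConf 3 n t), tLaw 3 lam n t i c = 1
  | 0, _, h => h.elim
  | n + 1, ⟨k, ch⟩, h => by
    intro i c
    change ∏ m : Fin k, ∑ j : Fin 3, channel 3 lam i j * tLaw 3 lam n (ch m) j (c m) = 1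
    refine Finset.prod_eq_one fun m _ => ?_
    have : ∀ j, tLaw 3 lam n (ch m) j (c m) = 1 := fun j => tLaw_dead lam n (ch m) (h m) j (c m)
    simp only [this, mul_one]
    exact channel_row lam i

theorem tLaw_nonneg {lam : ℝ} (h0 : -(1 / 2) ≤ lam) (h1 : lam ≤ 1) : ∀ (n : ℕ) (t : Tr n)
    (i : Fin 3) (c : TConf 3 n t), 0 ≤ tLaw 3 lam n t i c
  | 0, _, i, c => by
    change (0 : ℝ) ≤ if (show Fin 3 from c) = i then 1 else 0
    split_ifs <;> norm_num
  | n + 1, ⟨k, ch⟩, i, c => by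
    change 0 ≤ ∏ m : Fin k, ∑ j : Fin 3, channel 3 lam i j * tLaw 3 lam n (ch m) j (c m)
    exact Finset.prod_nonneg fun m _ => Finset.sum_nonneg fun j _ =>
      mul_nonneg (channel_nonneg h0 h1 i j) (tLaw_nonneg h0 h1 n (ch m) j (c m))

theorem tLaw_sum (lam : ℝ) : ∀ (n : ℕ) (t : Tr n) (i : Fin 3), ∑ c, tLaw 3 lam n t i c = 1
  | 0, _, i => by
    change ∑ c : Fin 3, (if c = i then (1 : ℝ) else 0) = 1
    simp
  | n + 1, ⟨k, ch⟩, i => by
    classical
    have e : ∑ c : TConf 3 (n + 1) (node ch), tLaw 3 lam (n + 1) (node ch) i c =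
        ∑ c : (m : Fin k) → TConf 3 n (ch m),
          ∏ m : Fin k, ∑ j : Fin 3, channel 3 lam i j * tLaw 3 lam n (ch m) j (c m) :=
      Fintype.sum_equiv (Equiv.refl _) _ _ fun c => rfl
    refine e.trans ?_
    have h := Finset.prod_univ_sum (fun m : Fin k => (univ : Finset (TConf 3 n (ch m))))
      (fun m c => ∑ j : Fin 3, channel 3 lam i j * tLaw 3 lam n (ch m) j c)
    rw [Fintype.piFinset_univ] at h
    rw [← h]
    refine Finset.prod_eq_one fun m _ => ?_
    rw [Finset.sum_comm]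
    simp only [← Finset.mul_sum, tLaw_sum lam n (ch m), mul_one]
    exact channel_row lam i

theorem aTree_le_alive {lam : ℝ} (h0 : -(1 / 2) ≤ lam) (h1 : lam ≤ 1) (n : ℕ) (t : Tr n) :
    aTree 3 lam n t ≤ alive n t := by
  by_cases hd : dead n t
  · have e1 : alive n t = 0 := if_pos hd
    rw [e1]
    unfold aTree
    refine le_of_eq (Finset.sum_eq_zero fun c _ => ?_)
    have e2 : ∀ i, tPost 3 lam n t i c - 1 / ((3 : ℕ) : ℝ) = 0 := by
      intro i
      unfold tPost tProb
      simp only [tLaw_dead lam n t hd, mul_one, Finset.sum_const, card_univ, Fintype.card_fin]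
      norm_num
    simp only [e2, abs_zero, Finset.sum_const_zero, mul_zero]
  · have e1 : alive n t = 1 := if_neg hd
    rw [e1]
    have hP : ∑ c, tProb 3 lam n t c = 1 := by
      unfold tProb
      rw [Finset.sum_comm]
      simp only [← Finset.mul_sum, tLaw_sum lam n t, mul_one]
      simp
    rw [← hP]
    unfold aTree
    refine Finset.sum_le_sum fun c _ => ?_
    have hp0 : 0 ≤ tProb 3 lam n t c := Finset.sum_nonneg fun i _ =>
      mul_nonneg (by positivity) (tLaw_nonneg h0 h1 n t i c)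
    have h2 : ∀ i, |tPost 3 lam n t i c - 1 / ((3 : ℕ) : ℝ)| ≤
        tPost 3 lam n t i c + 1 / ((3 : ℕ) : ℝ) := by
      intro i
      have h3 : 0 ≤ tPost 3 lam n t i c :=
        div_nonneg (mul_nonneg (by positivity) (tLaw_nonneg h0 h1 n t i c)) hp0
      have h4 : (0 : ℝ) ≤ 1 / ((3 : ℕ) : ℝ) := by positivity
      rw [abs_le]
      constructor <;> linarith
    have h3 : ∑ i : Fin 3, tPost 3 lam n t i c ≤ 1 := by
      unfold tPost
      rw [← Finset.sum_div]
      exact div_self_le_one _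
    have h4 : ∑ i : Fin 3, |tPost 3 lam n t i c - 1 / ((3 : ℕ) : ℝ)| ≤ 2 := by
      refine (Finset.sum_le_sum fun i _ => h2 i).trans ?_
      rw [Finset.sum_add_distrib, Finset.sum_const, card_univ, Fintype.card_fin]
      norm_num
      linarith
    calc tProb 3 lam n t c * (1 / 2 * ∑ i : Fin 3, |tPost 3 lam n t i c - 1 / ((3 : ℕ) : ℝ)|)
        ≤ tProb 3 lam n t c * 1 := mul_le_mul_of_nonneg_left (by linarith) hp0
      _ = tProb 3 lam n t c := mul_one _

theorem aTree_nonneg' {lam : ℝ} (h0 : -(1 / 2) ≤ lam) (h1 : lam ≤ 1) (n : ℕ) (t : Tr n) :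
    0 ≤ aTree 3 lam n t := by
  unfold aTree
  refine Finset.sum_nonneg fun c _ => mul_nonneg ?_
    (mul_nonneg (by norm_num) (Finset.sum_nonneg fun i _ => abs_nonneg _))
  exact Finset.sum_nonneg fun i _ => mul_nonneg (by positivity) (tLaw_nonneg h0 h1 n t i c)

/-- offspring mean at most one -/
theorem aGW_subcritical {p : ℕ → ℝ} (hp0 : ∀ k, 0 ≤ p k) (hp1 : HasSum p 1) {m : ℝ}
    (hm : HasSum (fun k : ℕ => (k : ℝ) * p k) m) (hp : p 1 < 1) (hm1 : m ≤ 1) {lam : ℝ}
    (h0 : -(1 / 2) ≤ lam) (h1 : lam ≤ 1) :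
    Tendsto (fun n => aGW 3 p lam n) atTop (nhds 0) := by
  have hlim := gw_tendsto hp0 hp1 hm hp (l := 1) (τ := 1) zero_le_one le_rfl (by linarith)
    one_pos le_rfl alive alive_nonneg alive_le_one alive_rec
  refine squeeze_zero (fun n => ?_) (fun n => ?_) hlim
  · exact tsum_nonneg fun t => mul_nonneg (treeProb_nonneg hp0 n t) (aTree_nonneg' h0 h1 n t)
  · unfold aGW
    refine Summable.tsum_le_tsum (fun t => ?_) ?_ ?_
    · exact mul_le_mul_of_nonneg_left (aTree_le_alive h0 h1 n t) (treeProb_nonneg hp0 n t)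
    · refine treeProb_summable hp0 hp1 (B := 1) fun t => ?_
      rw [abs_of_nonneg (aTree_nonneg' h0 h1 n t)]
      exact (aTree_le_alive h0 h1 n t).trans (alive_le_one n t)
    · refine treeProb_summable hp0 hp1 (B := 1) fun t => ?_
      rw [abs_of_nonneg (alive_nonneg n t)]
      exact alive_le_one n t

end Vale.Agent.Potts
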