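import Mathlib
import Vale.Agent.Potts.GWScalar
import Vale.Agent.Potts.GWTree
import Vale.Agent.Potts.GWSub

/-! P154: nonreconstruction on Galton-Watson trees from the pointwise inequalities. -/

namespace Vale.Agent.Potts

open Finset Filter

theorem aGW_tendsto {p : ℕ → ℝ} (hp0 : ∀ k, 0 ≤ p k) (hp1 : HasSum p 1) {m : ℝ}
    (hm : HasSum (fun k : ℕ => (k : ℝ) * p k) m) (hp : p 1 < 1) {L t c al kap τ lam : ℝ}
    (hal : 0 ≤ al) (hc : 0 ≤ c) (hk : 0 ≤ kap) (hτ0 : 0 < τ) (hτ1 : τ ≤ 1)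
    (hτ : τ ≤ t - c * kap - al * kap * (1 + kap)) (h1 : PWm L t c al) (h3 : PWj)
    (hmsg : MsgOK lam L kap) (hl1 : lam ^ 2 ≤ 1) (hl : m * lam ^ 2 ≤ 1) :
    Tendsto (fun n => aGW 3 p lam n) atTop (nhds 0) := by
  have hg := good_tree hal hc hk hτ0.le hτ1 hτ h1 h3 hmsg
  have hX0 : ∀ n (T : Tr n), 0 ≤ XX (likT lam n T) := fun n T => (hg n T).1.X_nonneg
  have hX1 : ∀ n (T : Tr n), XX (likT lam n T) ≤ 1 := fun n T => (hg n T).1.X_le_one
  have hlim := gw_tendsto hp0 hp1 hm hp (sq_nonneg lam) hl1 hl hτ0 hτ1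
    (fun n T => XX (likT lam n T)) hX0 hX1
    (fun n k ch => rec_tree hal hc hk hτ0.le hτ1 hτ h1 h3 hmsg n k ch)
  have hsX : ∀ n, Summable fun T : Tr n => treeProb p n T * XX (likT lam n T) := fun n =>
    treeProb_summable hp0 hp1 (B := 1) fun T => by
      rw [abs_of_nonneg (hX0 n T)]; exact hX1 n T
  have hsa : ∀ n, Summable fun T : Tr n => treeProb p n T * aTree 3 lam n T := fun n =>
    treeProb_summable hp0 hp1 (B := 1) fun T => by
      rw [abs_of_nonneg (aTree_nonneg (hg n T).1)]; exact aTree_le_one (hg n T).1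
  have hbound : ∀ n (η : ℝ), 0 < η → aGW 3 p lam n ≤
      η / 2 + (∑' T, treeProb p n T * XX (likT lam n T)) / (4 * η) := by
    intro n η hη
    have hs1 := (treeProb_hasSum hp0 hp1 n).mul_right (η / 2)
    have hs2 := (hsX n).hasSum.div_const (4 * η)
    have hs3 := hs1.add hs2
    rw [one_mul] at hs3
    rw [← hs3.tsum_eq]
    unfold aGW
    refine Summable.tsum_le_tsum (fun T => ?_) (hsa n) hs3.summable
    have h5 := mul_le_mul_of_nonneg_left (aTree_le (hg n T).1 hη) (treeProb_nonneg hp0 n T)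
    refine h5.trans (le_of_eq ?_)
    ring
  have h0 : ∀ n, 0 ≤ aGW 3 p lam n := fun n =>
    tsum_nonneg fun T => mul_nonneg (treeProb_nonneg hp0 n T) (aTree_nonneg (hg n T).1)
  rw [Metric.tendsto_atTop]
  intro ε hε
  have h6 : ∀ᶠ n in atTop, (∑' T, treeProb p n T * XX (likT lam n T)) < ε ^ 2 := by
    have : (0 : ℝ) < ε ^ 2 := by positivity
    exact hlim.eventually (gt_mem_nhds this)
  obtain ⟨N, hN⟩ := eventually_atTop.1 h6
  refine ⟨N, fun n hn => ?_⟩
  have h2 := hN n hn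
  have h3' := hbound n ε hε
  have h4 : (∑' T, treeProb p n T * XX (likT lam n T)) / (4 * ε) < ε / 4 * 1 := by
    rw [div_lt_iff₀ (by positivity)]
    nlinarith
  rw [Real.dist_eq, sub_zero, abs_of_nonneg (h0 n)]
  linarith

end Vale.Agent.Potts
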