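import Vale.Agent.Potts.Alg
import Vale.Agent.Potts.Defs
import Vale.Agent.Potts.Sym
import Vale.Agent.Potts.Corner

namespace Vale.Agent.Potts

/-- domain facts in normalised coordinates -/
theorem dom {L a0 a1 : ℝ} (hL : 0 < L) (h0 : 1 - L ≤ a0) (h1 : 1 - L ≤ a1)
    (h2 : 1 - L ≤ 3 - a0 - a1) :
    0 ≤ xx a0 a1 ∧ xx a0 a1 ≤ L ^ 2 ∧ rr a0 a1 ^ 2 ≤ xx a0 a1 ^ 3 ∧
    0 ≤ L ^ 3 - 3 * L * xx a0 a1 + 2 * rr a0 a1 ∧
    ∃ p : ℝ, rr a0 a1 = xx a0 a1 * p ∧ -L / 2 ≤ p ∧ p ≤ L ∧ p ^ 2 ≤ xx a0 a1 ∧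
      xx a0 a1 ≤ XL L p := by
  have u0 : 0 ≤ a0 - (1 - L) := by linarith
  have u1 : 0 ≤ a1 - (1 - L) := by linarith
  have u2 : 0 ≤ 3 - a0 - a1 - (1 - L) := by linarith
  have hx0 : 0 ≤ xx a0 a1 := by
    have : xx a0 a1 = ((a0 - a1) ^ 2 + (a1 - (3 - a0 - a1)) ^ 2 + (a0 - (3 - a0 - a1)) ^ 2) / 18 := by
      simp only [xx]; ring
    rw [this]; positivity
  have hxL : xx a0 a1 ≤ L ^ 2 := by
    have : xx a0 a1 = L ^ 2 - ((a0 - (1 - L)) * (a1 - (1 - L)) + (a1 - (1 - L)) * (3 - a0 - a1 - (1 - L))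
        + (a0 - (1 - L)) * (3 - a0 - a1 - (1 - L))) / 3 := by
      simp only [xx]; ring
    rw [this]
    have := mul_nonneg u0 u1
    have := mul_nonneg u1 u2
    have := mul_nonneg u0 u2
    linarith
  have hR : rr a0 a1 ^ 2 ≤ xx a0 a1 ^ 3 := by
    have := idV a0 a1
    nlinarith [sq_nonneg ((a0 - a1) * (a1 - (3-a0-a1)) * ((3-a0-a1) - a0))]
  have hD : 0 ≤ L ^ 3 - 3 * L * xx a0 a1 + 2 * rr a0 a1 := by
    have : L ^ 3 - 3 * L * xx a0 a1 + 2 * rr a0 a1 =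
        (a0 - (1 - L)) * (a1 - (1 - L)) * (3 - a0 - a1 - (1 - L)) := by
      simp only [xx, rr]; ring
    rw [this]; positivity
  refine ⟨hx0, hxL, hR, hD, rr a0 a1 / xx a0 a1, ?_⟩
  set x := xx a0 a1 with hx
  set R := rr a0 a1 with hRR
  rcases hx0.eq_or_lt with h | h
  · have hR0 : R = 0 := by
      have : R ^ 2 ≤ 0 := by rw [← h] at hR; simpa using hR
      nlinarith
    rw [← h, hR0]
    simp only [div_zero, mul_zero, true_and, XL]
    exact ⟨by linarith, hL.le, by norm_num, div_nonneg (by positivity) (by linarith)⟩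
  · have hRp : R = x * (R / x) := by field_simp
    set p := R / x with hp
    have hp2 : p ^ 2 ≤ x := by
      rw [hRp] at hR
      have : (x ^ 2) * p ^ 2 ≤ x ^ 2 * x := by nlinarith
      exact le_of_mul_le_mul_left this (by positivity)
    have hpL : p ≤ L := by
      by_contra hc
      push Not at hc
      nlinarith
    have h3 : 0 < 3 * L - 2 * p := by linarith
    have hxu : x * (3 * L - 2 * p) ≤ L ^ 3 := by
      rw [hRp] at hD
      nlinarith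
    have hlow : -L / 2 ≤ p := by
      by_contra hc
      push Not at hc
      have e1 : p ^ 2 * (3 * L - 2 * p) ≤ L ^ 3 := by
        have := mul_le_mul_of_nonneg_right hp2 h3.le
        linarith
      have e2 : 0 < (-L / 2 - p) := by linarith
      nlinarith [mul_pos e2 e2, mul_pos hL e2, mul_pos (mul_pos hL hL) e2,
        mul_pos (mul_pos e2 e2) hL, mul_pos (mul_pos e2 e2) e2]
    refine ⟨hRp, hlow, hpL, hp2, ?_⟩
    rw [XL, le_div_iff₀ h3]
    exact hxu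

/-- normalisation of a likelihood vector -/
theorem norm_V3 {L : ℝ} {v : V3} (h : InT L v) :
    ∃ a0 a1 : ℝ, 1 - L ≤ a0 ∧ 1 - L ≤ a1 ∧ 1 - L ≤ 3 - a0 - a1 ∧
      v 0 = pp v * a0 ∧ v 1 = pp v * a1 ∧ v 2 = pp v * (3 - a0 - a1) ∧
      Ff v = pp v * xx a0 a1 ∧ Rr v = pp v * rr a0 a1 := by
  obtain ⟨hp, hv⟩ := h
  have hp' : pp v ≠ 0 := hp.ne'
  have e : v 0 + v 1 + v 2 = 3 * pp v := by simp only [pp]; ring
  have e0 : v 0 = pp v * (v 0 / pp v) := by field_simp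
  have e1 : v 1 = pp v * (v 1 / pp v) := by field_simp
  have e2 : v 2 = pp v * (3 - v 0 / pp v - v 1 / pp v) := by
    have : pp v * (3 - v 0 / pp v - v 1 / pp v) = 3 * pp v - v 0 - v 1 := by field_simp
    rw [this]; linarith
  refine ⟨v 0 / pp v, v 1 / pp v, ?_, ?_, ?_, e0, e1, e2, ?_, ?_⟩
  · rw [le_div_iff₀ hp]; exact hv 0
  · rw [le_div_iff₀ hp]; exact hv 1
  · have := hv 2
    rw [e2] at this
    have h3 : pp v * (1 - L) ≤ pp v * (3 - v 0 / pp v - v 1 / pp v) := by linarith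
    exact le_of_mul_le_mul_left h3 hp
  · set a0 := v 0 / pp v
    set a1 := v 1 / pp v
    simp only [Ff, xx]
    rw [e0, e1, e2]
    field_simp
  · set a0 := v 0 / pp v
    set a1 := v 1 / pp v
    simp only [Rr, Ff, xx, rr]
    rw [e0, e1, e2]
    field_simp

end Vale.Agent.Potts
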