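import Mathlib
import Vale.Agent.Potts.All
import Vale.Agent.Potts.Sym
import Vale.Agent.Potts.Norm

/-! P154, all `d`: supermultiplicativity of `mm` and the channel step for `fm`. -/

namespace Vale.Agent.Potts

theorem inv_tangent {u m : ℝ} (hu : 0 < u) (hm : 0 < m) : 2 / m - u / m ^ 2 ≤ 1 / u := by
  have h : 1 / u - (2 / m - u / m ^ 2) = (u - m) ^ 2 / (u * m ^ 2) := by
    field_simp; ring
  have : 0 ≤ (u - m) ^ 2 / (u * m ^ 2) := by positivity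
  linarith

theorem pwj : PWj := by
  intro a b ha hb
  have a0 := ha 0
  have a1 := ha 1
  have a2 := ha 2
  have b0 := hb 0
  have b1 := hb 1
  have b2 := hb 2
  rw [sum_mul3 mm a b]
  simp only [mm, Matrix.cons_val_zero, Matrix.cons_val_one, Matrix.cons_val]
  generalize a 0 = x0 at *
  generalize a 1 = x1 at *
  generalize a 2 = x2 at *
  generalize b 0 = y0 at *
  generalize b 1 = y1 at *
  generalize b 2 = y2 at *
  set m : ℝ := (x0 * x1 + x1 * x2 + x0 * x2) * (y0 * y1 + y1 * y2 + y0 * y2) / 3 with hm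
  have hm0 : 0 < m := by rw [hm]; positivity
  have key : ∀ n u : ℝ, n = x0 * x1 * x2 * (y0 * y1 * y2) → 0 < u →
      3 * (x0 * x1 * x2 * (y0 * y1 * y2)) * (2 / m - u / m ^ 2) ≤ 3 * n / u := by
    intro n u hn hu
    have h := inv_tangent hu hm0
    have h2 : 0 ≤ 3 * (x0 * x1 * x2 * (y0 * y1 * y2)) := by positivity
    have h3 := mul_le_mul_of_nonneg_left h h2
    rw [hn]
    calc _ ≤ 3 * (x0 * x1 * x2 * (y0 * y1 * y2)) * (1 / u) := h3
      _ = _ := by ring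
  have k1 := key (x0 * y0 * (x1 * y1) * (x2 * y2)) (x0 * y0 * (x1 * y1) + x1 * y1 * (x2 * y2) + x0 * y0 * (x2 * y2)) (by ring) (by positivity)
  have k2 := key (x0 * y1 * (x1 * y2) * (x2 * y0)) (x0 * y1 * (x1 * y2) + x1 * y2 * (x2 * y0) + x0 * y1 * (x2 * y0)) (by ring) (by positivity)
  have k3 := key (x0 * y2 * (x1 * y0) * (x2 * y1)) (x0 * y2 * (x1 * y0) + x1 * y0 * (x2 * y1) + x0 * y2 * (x2 * y1)) (by ring) (by positivity)
  have k4 := key (x0 * y1 * (x1 * y0) * (x2 * y2)) (x0 * y1 * (x1 * y0) + x1 * y0 * (x2 * y2) + x0 * y1 * (x2 * y2)) (by ring) (by positivity)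
  have k5 := key (x0 * y2 * (x1 * y1) * (x2 * y0)) (x0 * y2 * (x1 * y1) + x1 * y1 * (x2 * y0) + x0 * y2 * (x2 * y0)) (by ring) (by positivity)
  have k6 := key (x0 * y0 * (x1 * y2) * (x2 * y1)) (x0 * y0 * (x1 * y2) + x1 * y2 * (x2 * y1) + x0 * y0 * (x2 * y1)) (by ring) (by positivity)
  have e1 : 3 * (x0 * x1 * x2) / (x0 * x1 + x1 * x2 + x0 * x2) *
      (3 * (y0 * y1 * y2) / (y0 * y1 + y1 * y2 + y0 * y2)) =
      3 * (x0 * x1 * x2 * (y0 * y1 * y2)) / m := by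
    rw [hm]; field_simp
  have e2 : 3 * (x0 * x1 * x2 * (y0 * y1 * y2)) / m =
    (3 * (x0 * x1 * x2 * (y0 * y1 * y2)) * (2 / m - (x0 * y0 * (x1 * y1) + x1 * y1 * (x2 * y2) + x0 * y0 * (x2 * y2)) / m ^ 2) +
    3 * (x0 * x1 * x2 * (y0 * y1 * y2)) * (2 / m - (x0 * y1 * (x1 * y2) + x1 * y2 * (x2 * y0) + x0 * y1 * (x2 * y0)) / m ^ 2) +
    3 * (x0 * x1 * x2 * (y0 * y1 * y2)) * (2 / m - (x0 * y2 * (x1 * y0) + x1 * y0 * (x2 * y1) + x0 * y2 * (x2 * y1)) / m ^ 2) +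
    3 * (x0 * x1 * x2 * (y0 * y1 * y2)) * (2 / m - (x0 * y1 * (x1 * y0) + x1 * y0 * (x2 * y2) + x0 * y1 * (x2 * y2)) / m ^ 2) +
    3 * (x0 * x1 * x2 * (y0 * y1 * y2)) * (2 / m - (x0 * y2 * (x1 * y1) + x1 * y1 * (x2 * y0) + x0 * y2 * (x2 * y0)) / m ^ 2) +
    3 * (x0 * x1 * x2 * (y0 * y1 * y2)) * (2 / m - (x0 * y0 * (x1 * y2) + x1 * y2 * (x2 * y1) + x0 * y0 * (x2 * y1)) / m ^ 2)) / 6 := by
    have hs : (x0 * y0 * (x1 * y1) + x1 * y1 * (x2 * y2) + x0 * y0 * (x2 * y2)) +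
      (x0 * y1 * (x1 * y2) + x1 * y2 * (x2 * y0) + x0 * y1 * (x2 * y0)) +
      (x0 * y2 * (x1 * y0) + x1 * y0 * (x2 * y1) + x0 * y2 * (x2 * y1)) +
      (x0 * y1 * (x1 * y0) + x1 * y0 * (x2 * y2) + x0 * y1 * (x2 * y2)) +
      (x0 * y2 * (x1 * y1) + x1 * y1 * (x2 * y0) + x0 * y2 * (x2 * y0)) +
      (x0 * y0 * (x1 * y2) + x1 * y2 * (x2 * y1) + x0 * y0 * (x2 * y1)) = 6 * m := by
      rw [hm]; ring
    have hm' : m ≠ 0 := hm0.ne'
    clear_value m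
    field_simp
    linear_combination hs
  rw [e1, e2]
  linarith

/-- the normalised form of `fm` -/
theorem fm_eq {v : V3} {a0 a1 : ℝ} (hp : 0 < pp v)
    (h0 : v 0 = pp v * a0) (h1 : v 1 = pp v * a1) (h2 : v 2 = pp v * (3 - a0 - a1))
    (hF : Ff v = pp v * xx a0 a1) :
    2 * fm v = pp v * ((1 - 3 * xx a0 a1 + 2 * rr a0 a1) / (1 - xx a0 a1) - 1 + 2 * xx a0 a1) := by
  have hmm : mm v = pp v * ((1 - 3 * xx a0 a1 + 2 * rr a0 a1) / (1 - xx a0 a1)) := by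
    simp only [mm]
    rw [h0, h1, h2]
    have e3 : pp v * a0 * (pp v * a1) * (pp v * (3 - a0 - a1)) =
        pp v ^ 3 * (1 - 3 * xx a0 a1 + 2 * rr a0 a1) := by
      simp only [rr]; ring
    have e2 : pp v * a0 * (pp v * a1) + pp v * a1 * (pp v * (3 - a0 - a1)) +
        pp v * a0 * (pp v * (3 - a0 - a1)) = 3 * pp v ^ 2 * (1 - xx a0 a1) := by
      simp only [xx]; ring
    rw [e3, e2]
    have hp' : pp v ≠ 0 := hp.ne'
    rcases eq_or_ne (1 - xx a0 a1) 0 with hz | hz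
    · rw [hz]; simp
    · field_simp
  simp only [fm]
  rw [hmm, hF]
  ring

theorem pwt_key {lam x R : ℝ} (hl0 : 0 ≤ lam) (hl1 : lam < 1) (hx0 : 0 ≤ x) (hx1 : x ≤ 1)
    (hR : R ^ 2 ≤ x ^ 3) : (1 + lam) * R ≤ x + lam * x ^ 2 := by
  have hr : 0 ≤ x + lam * x ^ 2 := by positivity
  have hlx : 0 ≤ 1 - lam ^ 2 * x := by
    have : lam ^ 2 * x ≤ 1 * 1 := mul_le_mul (by nlinarith) hx1 hx0 (by norm_num)
    linarith
  have i1 : (x + lam * x ^ 2) ^ 2 - (1 + lam) ^ 2 * x ^ 3 =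
      x ^ 2 * ((1 - x) * (1 - lam ^ 2 * x)) := by ring
  have i2 : 0 ≤ x ^ 2 * ((1 - x) * (1 - lam ^ 2 * x)) :=
    mul_nonneg (sq_nonneg _) (mul_nonneg (by linarith) hlx)
  have i3 : (1 + lam) ^ 2 * R ^ 2 ≤ (1 + lam) ^ 2 * x ^ 3 :=
    mul_le_mul_of_nonneg_left hR (sq_nonneg _)
  have i4 : ((1 + lam) * R) ^ 2 ≤ (x + lam * x ^ 2) ^ 2 := by
    rw [mul_pow]; linarith
  exact le_of_abs_le (abs_le_of_sq_le_sq i4 hr)

theorem pwt_goal {lam x R : ℝ} (hl0 : 0 ≤ lam) (hl1 : lam < 1) (hx0 : 0 ≤ x) (hx1 : x ≤ 1)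
    (hR : R ^ 2 ≤ x ^ 3) (hD : 0 ≤ 1 - 3 * x + 2 * R) :
    lam ^ 3 * ((1 - 3 * x + 2 * R) / (1 - x) - 1 + 2 * x) ≤
      (1 - 3 * (lam ^ 2 * x) + 2 * (lam ^ 3 * R)) / (1 - lam ^ 2 * x) - 1 + 2 * (lam ^ 2 * x) := by
  have hkey := pwt_key hl0 hl1 hx0 hx1 hR
  have hl2 : lam ^ 2 < 1 := by nlinarith
  have hlx : 0 < 1 - lam ^ 2 * x := by
    have : lam ^ 2 * x ≤ lam ^ 2 * 1 := mul_le_mul_of_nonneg_left hx1 (sq_nonneg _)
    linarith
  have hl3 : 0 ≤ lam ^ 3 := by positivity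
  have r1 : (1 - 3 * (lam ^ 2 * x) + 2 * (lam ^ 3 * R)) / (1 - lam ^ 2 * x) - 1 + 2 * (lam ^ 2 * x) =
      lam ^ 3 * (2 * (R - lam * x ^ 2) / (1 - lam ^ 2 * x)) := by
    have := hlx.ne'
    field_simp; ring
  rw [r1]
  apply mul_le_mul_of_nonneg_left _ hl3
  rcases hx1.eq_or_lt with hz | hz
  · -- x = 1
    have hR1 : R = 1 := by
      rw [hz] at hR hD
      have g1 : 1 ≤ R := by linarith
      have g2 : R ≤ 1 := by
        by_contra hc
        push Not at hc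
        nlinarith
      linarith
    rw [hz, hR1]
    have h3 : 0 < 1 + lam := by linarith
    have h4 : 2 * (1 - lam * 1 ^ 2) / (1 - lam ^ 2 * 1) = 2 / (1 + lam) := by
      have h5 : (1:ℝ) - lam ^ 2 * 1 = (1 - lam) * (1 + lam) := by ring
      have h6 : (1 - lam) ≠ 0 := by linarith
      rw [h5]
      field_simp
    rw [h4]
    norm_num
    rw [le_div_iff₀ h3]
    linarith
  · have h1x : 0 < 1 - x := by linarith
    have r2 : (1 - 3 * x + 2 * R) / (1 - x) - 1 + 2 * x = 2 * (R - x ^ 2) / (1 - x) := by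
      have := h1x.ne'
      field_simp; ring
    rw [r2, div_le_div_iff₀ h1x hlx]
    have i4 : 2 * (R - lam * x ^ 2) * (1 - x) - 2 * (R - x ^ 2) * (1 - lam ^ 2 * x) =
        2 * (x * ((1 - lam) * (x + lam * x ^ 2 - (1 + lam) * R))) := by ring
    have i5 : 0 ≤ 2 * (x * ((1 - lam) * (x + lam * x ^ 2 - (1 + lam) * R))) := by
      have h7 : 0 ≤ x + lam * x ^ 2 - (1 + lam) * R := by linarith
      have h8 : 0 ≤ 1 - lam := by linarith
      positivity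
    linarith

theorem pwt : PWt := by
  intro lam v hl0 hl1 hp hv
  have hT : InT 1 v := ⟨hp, fun i => by simpa using hv i⟩
  obtain ⟨a0, a1, h0, h1, h2, e0, e1, e2, eF, -⟩ := norm_V3 hT
  obtain ⟨hx0, hx1, hR, hD, -⟩ := dom (by norm_num : (0:ℝ) < 1) h0 h1 h2
  have hfm := fm_eq hp e0 e1 e2 eF
  -- the message
  have hpm : pp (msg lam v) = pp v := by
    simp only [pp, msg]; ring
  have m0 : msg lam v 0 = pp (msg lam v) * (lam * a0 + (1 - lam)) := by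
    rw [hpm]; simp only [msg]; rw [e0]; ring
  have m1 : msg lam v 1 = pp (msg lam v) * (lam * a1 + (1 - lam)) := by
    rw [hpm]; simp only [msg]; rw [e1]; ring
  have m2 : msg lam v 2 = pp (msg lam v) * (3 - (lam * a0 + (1 - lam)) - (lam * a1 + (1 - lam))) := by
    rw [hpm]; simp only [msg]; rw [e2]; ring
  have hxm : xx (lam * a0 + (1 - lam)) (lam * a1 + (1 - lam)) = lam ^ 2 * xx a0 a1 := by
    simp only [xx]; ring
  have hrm : rr (lam * a0 + (1 - lam)) (lam * a1 + (1 - lam)) = lam ^ 3 * rr a0 a1 := by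
    simp only [rr, xx]; ring
  have mF : Ff (msg lam v) = pp (msg lam v) * xx (lam * a0 + (1 - lam)) (lam * a1 + (1 - lam)) := by
    have hp' : pp v ≠ 0 := hp.ne'
    simp only [Ff]
    rw [m0, m1, m2, hpm]
    simp only [xx]
    field_simp
  have hfm' := fm_eq (hpm ▸ hp) m0 m1 m2 mF
  rw [hxm, hrm, hpm] at hfm'
  have hg := pwt_goal hl0 hl1 hx0 (by simpa using hx1) hR (by linarith)
  have h9 := mul_le_mul_of_nonneg_left hg hp.le
  have h10 : 2 * (lam ^ 3 * fm v) = pp v * (lam ^ 3 * ((1 - 3 * xx a0 a1 + 2 * rr a0 a1) /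
      (1 - xx a0 a1) - 1 + 2 * xx a0 a1)) := by
    calc 2 * (lam ^ 3 * fm v) = lam ^ 3 * (2 * fm v) := by ring
      _ = _ := by rw [hfm]; ring
  rw [← h10, ← hfm'] at h9
  linarith

end Vale.Agent.Potts
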