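import Mathlib
import Vale.Agent.Potts.Frame
import Vale.Agent.Potts.PwqAll
import Vale.Agent.Potts.PwJT
import Vale.Agent.Potts.Anti
import Vale.Agent.Potts.GWMerge

/-! P154: the antiferromagnetic range `-1/2 < lam ≤ 0` away from criticality
(`d lam^2 ≤ 3/4`, every `d ≥ 2`). -/

namespace Vale.Agent.Potts

/-- main inequality for a first factor in the inverted triangle of size `1/2` -/
def PWinv (t c : ℝ) : Prop := ∀ a b : V3, Pos a → (∀ i, a i ≤ 3 / 2 * pp a) → Pos b →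
  (∑ π : Equiv.Perm (Fin 3), Ff (mul a b π)) / 6 ≤
    Ff a * pp b + pp a * Ff b + t * (Ff a * Ff b) - c * (Ff a * fm b)

end Vale.Agent.Potts

namespace Vale.Agent.Potts.Sub

open Finset Filter Vale.Agent.Potts.Frame

theorem pp_pos' {v : V3} (h : Pos v) : 0 < pp v := by
  have h0 := h 0
  have h1 := h 1
  have h2 := h 2
  unfold pp; positivity

theorem PWinv.mono {t s c : ℝ} (h : PWinv t c) (hts : t ≤ s) : PWinv s c := by
  intro a b ha ha' hb
  have h1 := h a b ha ha' hb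
  have h2 := mul_nonneg (Ff_nonneg a (pp_pos' ha)) (Ff_nonneg b (pp_pos' hb))
  have h3 := mul_le_mul_of_nonneg_right hts h2
  linarith

/-- nonnegative, mass one, `S_3`-invariant families -/
structure Fam {ι : Type} [Fintype ι] (v : ι → V3) : Prop where
  nn : ∀ i j, 0 ≤ v i j
  pos : ∀ i, 0 < pp (v i)
  tot : ∑ i, pp (v i) = 1
  eqv : ∀ π : Equiv.Perm (Fin 3), ∃ σ : ι ≃ ι, ∀ i, v (σ i) = fun j => v i (π j)

variable {ι κ : Type} [Fintype ι] [Fintype κ]

theorem Fam.X_nonneg {v : ι → V3} (h : Fam v) : 0 ≤ XX v :=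
  Finset.sum_nonneg fun i _ => Ff_nonneg _ (h.pos i)

theorem Fam.X_le_one {v : ι → V3} (h : Fam v) : XX v ≤ 1 := by
  rw [← h.tot]
  exact Finset.sum_le_sum fun i _ => Ff_le_pp _ (h.pos i) (h.nn i)

theorem mergeV {t : ℝ} (h1 : PWinv t 2) (h3 : PWj) {a : ι → V3} {b : κ → V3}
    (ha : Fam a) (hb : Fam b) (pa : ∀ i, Pos (a i)) (ia : ∀ i j, a i j ≤ 3 / 2 * pp (a i))
    (pb : ∀ k, Pos (b k)) :
    Fam (prodFam a b) ∧
      (∑ i, mm (a i)) * (∑ k, mm (b k)) ≤ ∑ x, mm (prodFam a b x) ∧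
      XX (prodFam a b) ≤ XX a + XX b + t * (XX a * XX b) - 2 * (XX a * ∑ k, fm (b k)) := by
  have hpos : ∀ x j, 0 < prodFam a b x j := fun x j => mul_pos (pa x.1 j) (pb x.2 j)
  have htot : ∑ x, pp (prodFam a b x) = 1 := by
    rw [sum_prodFam' a b hb.eqv]
    simp only [avg_pp]
    rw [sum_mul_sum', ha.tot, hb.tot, one_mul]
  refine ⟨⟨fun x j => (hpos x j).le, fun x => pp_pos' (hpos x), htot, fun π => ?_⟩, ?_, ?_⟩
  · obtain ⟨σ, hσ⟩ := ha.eqv π
    obtain ⟨τ, hτ⟩ := hb.eqv π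
    refine ⟨Equiv.prodCongr σ τ, fun x => ?_⟩
    funext j
    simp only [prodFam, Equiv.prodCongr_apply, Prod.map_apply', hσ, hτ]
  · rw [sum_prodFam' a b hb.eqv, ← sum_mul_sum']
    exact Finset.sum_le_sum fun i _ => Finset.sum_le_sum fun k _ => h3 _ _ (pa i) (pb k)
  · have h5 : XX (prodFam a b) ≤ ∑ i, ∑ k, (Ff (a i) * pp (b k) + pp (a i) * Ff (b k) +
        t * (Ff (a i) * Ff (b k)) - 2 * (Ff (a i) * fm (b k))) := by
      unfold XX
      rw [sum_prodFam' a b hb.eqv]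
      exact Finset.sum_le_sum fun i _ => Finset.sum_le_sum fun k _ => h1 _ _ (pa i) (ia i) (pb k)
    refine h5.trans (le_of_eq ?_)
    simp only [Finset.sum_sub_distrib, Finset.sum_add_distrib, ← Finset.mul_sum]
    simp only [← Finset.sum_mul]
    rw [ha.tot, hb.tot]
    unfold XX
    ring

theorem Fam.transfer {v : ι → V3} {w : κ → V3} (e : κ ≃ ι)
    (h : Fam v) (hw : ∀ k, w k = v (e k)) : Fam w ∧ XX w = XX v := by
  have hX : XX w = XX v := Fintype.sum_equiv e _ _ fun k => by rw [hw]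
  refine ⟨⟨fun i j => by rw [hw]; exact h.nn _ _, fun i => by rw [hw]; exact h.pos _, ?_, fun π => ?_⟩, hX⟩
  · rw [← h.tot]
    exact Fintype.sum_equiv e _ _ fun k => by rw [hw]
  · obtain ⟨σ, hσ⟩ := h.eqv π
    refine ⟨(e.trans σ).trans e.symm, fun i => ?_⟩
    rw [hw, hw]
    simp only [Equiv.trans_apply, Equiv.apply_symm_apply]
    exact hσ (e i)

/-- the comparison sequence -/
noncomputable def u (t x : ℝ) : ℕ → ℝ
  | 0 => 0
  | k + 1 => (1 - (2 - t) * x) * u t x k + 2 * x - x * (1 - 4 * x) ^ k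

theorem powFam_bound {t : ℝ} (ht0 : 0 ≤ t) (h1 : PWinv t 2) (h3 : PWj) {a : ι → V3}
    (ha : Fam a) (pa : ∀ i, Pos (a i)) (ia : ∀ i j, a i j ≤ 3 / 2 * pp (a i))
    (hx : XX a ≤ 1 / 4) (hf : -(XX a) ≤ ∑ i, fm (a i)) (k : ℕ) :
    Fam (powFam a k) ∧ (1 - 4 * XX a) ^ k ≤ ∑ c, mm (powFam a k c) ∧
      XX (powFam a k) ≤ u t (XX a) k := by
  have hpw : ∀ (k : ℕ) (x : Fin k → ι), Pos (powFam a k x) := fun k x j =>
    Finset.prod_pos fun l _ => pa (x l) j
  have hX := ha.X_nonneg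
  have hMa : 1 - 4 * XX a ≤ ∑ i, mm (a i) := by
    rw [Vale.Agent.Potts.Frame.sum_mm ha.tot]; linarith
  induction k with
  | zero =>
    have h1' : ∀ c : Fin 0 → ι, powFam a 0 c = fun _ => 1 := fun c => by
      funext j; simp [powFam]
    have hpp : pp (fun _ => (1 : ℝ)) = 1 := by simp only [pp]; norm_num
    have hF : Ff (fun _ => (1 : ℝ)) = 0 := by simp only [Ff, pp]; norm_num
    have hm : mm (fun _ => (1 : ℝ)) = 1 := by simp only [mm]; norm_num
    have hX0 : XX (powFam a 0) = 0 := by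
      unfold XX
      simp only [h1', hF, Finset.sum_const_zero]
    refine ⟨⟨fun c j => by rw [h1']; norm_num, fun c => by rw [h1', hpp]; norm_num, ?_,
      fun π => ?_⟩, ?_, ?_⟩
    · simp only [h1', hpp]
      simp
    · refine ⟨Equiv.refl _, fun c => ?_⟩
      rw [h1', h1']
    · simp only [h1', hm]
      simp
    · rw [hX0, u]
  | succ k ih =>
    obtain ⟨g0, g1, g2⟩ := ih
    obtain ⟨m0, m1, m2⟩ := mergeV h1 h3 ha g0 pa ia (hpw k)
    obtain ⟨g4, g5⟩ := m0.transfer (splitFin ι k) (powFam_succ a k)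
    have hM : ∑ c, mm (powFam a (k + 1) c) = ∑ x, mm (prodFam a (powFam a k) x) :=
      Fintype.sum_equiv (splitFin ι k) _ _ fun c => by rw [powFam_succ]
    have hsm := Vale.Agent.Potts.Frame.sum_mm g0.tot
    refine ⟨g4, ?_, ?_⟩
    · rw [hM, pow_succ, mul_comm]
      refine le_trans ?_ m1
      have h0 : 0 ≤ (1 - 4 * XX a) ^ k := pow_nonneg (by linarith) k
      exact mul_le_mul hMa g1 h0 (le_trans (by linarith) hMa)
    · rw [g5, u]
      set P := XX (powFam a k)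
      set x := XX a
      set Mk := ∑ c, mm (powFam a k c)
      set fk := ∑ c, fm (powFam a k c)
      have hfk : 2 * fk = Mk - 1 + 2 * P := by linarith
      have e1 : x + P + t * (x * P) - 2 * (x * fk) =
          (1 - (2 - t) * x) * P + 2 * x - x * Mk := by
        have : 2 * (x * fk) = x * (2 * fk) := by ring
        rw [this, hfk]; ring
      rw [e1] at m2
      have h5 : (1 - (2 - t) * x) * P ≤ (1 - (2 - t) * x) * u t x k := by
        refine mul_le_mul_of_nonneg_left g2 ?_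
        nlinarith
      have h6 : x * (1 - 4 * x) ^ k ≤ x * Mk := mul_le_mul_of_nonneg_left g1 hX
      linarith

/-! ### real analysis -/

theorem pow_lower {w : ℝ} (h0 : 0 ≤ w) (h1 : w ≤ 1) {k : ℕ} (hk : 2 ≤ k) :
    67 / 100 - 931 / 2000 * (k * w) ≤ (1 - w) ^ k := by
  rcases le_total ((k : ℝ) * w) 2 with h | h
  · have hk' : (1 : ℝ) ≤ (k : ℝ) / 2 := by
      have : (2 : ℝ) ≤ k := by exact_mod_cast hk
      linarith
    have h2 := one_add_mul_self_le_rpow_one_add (s := -w) (by linarith) hk'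
    have e : (1 : ℝ) + -w = 1 - w := by ring
    rw [e] at h2
    have h3 : 0 ≤ 1 + (k : ℝ) / 2 * -w := by linarith
    have h4 : (1 + (k : ℝ) / 2 * -w) ^ 2 ≤ ((1 - w) ^ ((k : ℝ) / 2)) ^ 2 :=
      pow_le_pow_left₀ h3 h2 2
    have h5 : ((1 - w) ^ ((k : ℝ) / 2)) ^ 2 = (1 - w) ^ k := by
      rw [← Real.rpow_natCast ((1 - w) ^ ((k : ℝ) / 2)) 2, ← Real.rpow_mul (by linarith),
        ← Real.rpow_natCast (1 - w) k]
      congr 1
      push_cast
      ring
    rw [h5] at h4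
    refine le_trans ?_ h4
    set y := (k : ℝ) * w with hy
    have e2 : (1 + (k : ℝ) / 2 * -w) = 1 - y / 2 := by rw [hy]; ring
    rw [e2]
    nlinarith [sq_nonneg (y - 1069 / 1000)]
  · have h2 : 0 ≤ (1 - w) ^ k := pow_nonneg (by linarith) k
    linarith

theorem u_bound {x : ℝ} (h0 : 0 ≤ x) (hx : x ≤ 3 / 20) (k : ℕ) :
    u (3 / 5) x k ≤ 133 / 100 * (k * x) := by
  induction k with
  | zero => simp [u]
  | succ k ih =>
    have h1 : (1 - (2 - 3 / 5) * x) * u (3 / 5) x k ≤ (1 - (2 - 3 / 5) * x) * (133 / 100 * (k * x)) :=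
      mul_le_mul_of_nonneg_left ih (by linarith)
    rw [u]
    have h2 : 67 / 100 - 931 / 2000 * (k * (4 * x)) ≤ (1 - 4 * x) ^ k := by
      rcases Nat.lt_or_ge k 2 with hk | hk
      · interval_cases k
        · norm_num
        · norm_num
          linarith
      · exact pow_lower (by linarith) (by linarith) hk
    have h3 := mul_le_mul_of_nonneg_left h2 h0
    push_cast
    nlinarith

theorem u_two {x : ℝ} : u (3 / 5) x 2 = 2 * x + 13 / 5 * x ^ 2 := by
  simp only [u]; ring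

theorem u_three {x : ℝ} : u (3 / 5) x 3 = 3 * x + 39 / 5 * x ^ 2 - 491 / 25 * x ^ 3 := by
  simp only [u]; ring

theorem u_four {x : ℝ} : u (3 / 5) x 4 =
    4 * x + 78 / 5 * x ^ 2 - 1964 / 25 * x ^ 3 + 11437 / 125 * x ^ 4 := by
  simp only [u]; ring

theorem u_final {d : ℕ} (hd : 2 ≤ d) {l X : ℝ} (hX0 : 0 ≤ X) (hX1 : X ≤ 1) (hl0 : 0 ≤ l)
    (hl : l ≤ 1 / 4) (hdl : d * l ≤ 3 / 4) : u (3 / 5) (l * X) d ≤ 399 / 400 * X := by
  have hx0 : 0 ≤ l * X := mul_nonneg hl0 hX0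
  have hxl : l * X ≤ l := by nlinarith
  have hx4 : l * X ≤ X / 4 := by nlinarith
  rcases Nat.lt_or_ge d 5 with h | h
  · interval_cases d
    · rw [u_two]
      nlinarith
    · rw [u_three]
      set x := l * X
      have hx : x ≤ 1 / 4 := by linarith
      have : 3 * x + 39 / 5 * x ^ 2 - 491 / 25 * x ^ 3 ≤ 399 / 100 * x := by
        have e : 399 / 100 * x - (3 * x + 39 / 5 * x ^ 2 - 491 / 25 * x ^ 3) =
          x * (99 / 100 - 39 / 5 * x + 491 / 25 * x ^ 2) := by ring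
        have e2 : 0 ≤ 99 / 100 - 39 / 5 * x + 491 / 25 * x ^ 2 := by
          nlinarith [sq_nonneg (x - 195 / 982)]
        have := mul_nonneg hx0 e2
        linarith
      linarith
    · rw [u_four]
      have h3 : l ≤ 3 / 16 := by push_cast at hdl; linarith
      have hx16 : l * X ≤ 3 / 16 * X := mul_le_mul_of_nonneg_right h3 hX0
      set x := l * X
      have hx : x ≤ 3 / 16 := by linarith
      have : 4 * x + 78 / 5 * x ^ 2 - 1964 / 25 * x ^ 3 + 11437 / 125 * x ^ 4 ≤ 5 * x := by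
        have e : 5 * x - (4 * x + 78 / 5 * x ^ 2 - 1964 / 25 * x ^ 3 + 11437 / 125 * x ^ 4) =
          x * (1 - 78 / 5 * x + 1964 / 25 * x ^ 2 - 11437 / 125 * x ^ 3) := by ring
        have e2 : 0 ≤ 1 - 78 / 5 * x + 1964 / 25 * x ^ 2 - 11437 / 125 * x ^ 3 := by
          nlinarith [sq_nonneg (x - 1279 / 10000), mul_nonneg hx0 (sq_nonneg (x - 1279 / 10000)),
            mul_nonneg (sub_nonneg.2 hx) (sq_nonneg (x - 1279 / 10000))]
        have := mul_nonneg hx0 e2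
        linarith
      linarith
  · have hd5 : (5 : ℝ) ≤ d := by exact_mod_cast h
    have hl5 : l ≤ 3 / 20 := by nlinarith
    have h1 := u_bound hx0 (by linarith : l * X ≤ 3 / 20) d
    refine h1.trans ?_
    have h2 : (d : ℝ) * (l * X) ≤ 3 / 4 * X := by
      have := mul_le_mul_of_nonneg_right hdl hX0
      linarith
    linarith

/-! ### the tree -/

theorem msg_facts {v : ι → V3} (h : Fam v) {lam : ℝ} (h0 : -(1 / 2) < lam) (h1 : lam ≤ 0) :
    Fam (fun i => msg lam (v i)) ∧ (∀ i, Pos (msg lam (v i))) ∧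
      (∀ i j, msg lam (v i) j ≤ 3 / 2 * pp (msg lam (v i))) ∧
      XX (fun i => msg lam (v i)) = lam ^ 2 * XX v ∧
      -(XX (fun i => msg lam (v i))) ≤ ∑ i, fm (msg lam (v i)) := by
  have hneg : ∀ i, Pos (msg lam (v i)) ∧
      -(-lam / (1 - -lam)) * Ff (msg lam (v i)) ≤ fm (msg lam (v i)) := fun i =>
    fm_msg_neg (L := -lam) (by linarith) h1 (by linarith) (v i) (h.pos i) (h.nn i)
  have hX : XX (fun i => msg lam (v i)) = lam ^ 2 * XX v := by
    unfold XX
    rw [Finset.mul_sum]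
    exact Finset.sum_congr rfl fun i _ => Ff_msg lam _ (h.pos i).ne'
  refine ⟨⟨fun i j => ((hneg i).1 j).le, fun i => by rw [pp_msg]; exact h.pos i, ?_, fun π => ?_⟩,
    fun i => (hneg i).1, fun i j => ?_, hX, ?_⟩
  · simp only [pp_msg]; exact h.tot
  · obtain ⟨σ, hσ⟩ := h.eqv π
    exact ⟨σ, fun i => by rw [hσ i, msg_comp]⟩
  · rw [pp_msg]
    have a1 := mul_nonneg (neg_nonneg.2 h1) (h.nn i j)
    have a2 : (1 - lam) * pp (v i) ≤ 3 / 2 * pp (v i) :=
      mul_le_mul_of_nonneg_right (by linarith) (h.pos i).le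
    simp only [msg]
    linarith
  · unfold XX
    rw [← Finset.sum_neg_distrib]
    refine Finset.sum_le_sum fun i _ => le_trans ?_ (hneg i).2
    have hF := Ff_nonneg _ (pp_pos' (hneg i).1)
    have hk : -lam / (1 - -lam) ≤ 1 := by
      rw [div_le_one (by linarith)]; linarith
    have := mul_le_mul_of_nonneg_right hk hF
    linarith

theorem fam_ind : Fam ind := ⟨good_ind.nn, good_ind.pos, good_ind.tot, good_ind.eqv⟩

theorem sub_step {d : ℕ} (hd : 2 ≤ d) (h1 : PWinv (3 / 5) 2) {lam : ℝ} (h0 : -(1 / 2) < lam)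
    (hl0 : lam ≤ 0) (hl : d * lam ^ 2 ≤ 3 / 4) {n : ℕ} (hg : Fam (lik d lam n)) :
    Fam (lik d lam (n + 1)) ∧ XX (lik d lam (n + 1)) ≤ 399 / 400 * XX (lik d lam n) := by
  obtain ⟨f1, f2, f3, f4, f5⟩ := msg_facts hg h0 hl0
  have hX0 := hg.X_nonneg
  have hX1 := hg.X_le_one
  have hl4 : lam ^ 2 ≤ 1 / 4 := by nlinarith
  have hx : XX (fun i => msg lam (lik d lam n i)) ≤ 1 / 4 := by
    rw [f4]; nlinarith [sq_nonneg lam]
  obtain ⟨g1, -, g3⟩ := powFam_bound (by norm_num) h1 pwj f1 f2 f3 hx f5 d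
  obtain ⟨g4, g5⟩ := g1.transfer (w := lik d lam (n + 1)) (Equiv.refl _) (fun c => by
    rw [lik_succ]
    rfl)
  refine ⟨g4, ?_⟩
  rw [g5]
  refine g3.trans ?_
  rw [f4]
  exact u_final hd hX0 hX1 (sq_nonneg lam) hl4 hl

/-- geometric decay with a rate that does not depend on `lam` -/
theorem sub_rec (hI : PWinv (3 / 5) 2) {d : ℕ} {lam : ℝ} (hd : 2 ≤ d)
    (h0 : -(1 / 2) < lam) (h1 : lam ≤ 0) (hl : d * lam ^ 2 ≤ 3 / 4) : ∀ n,
    GoodV (lik d lam n) ∧ XX (lik d lam (n + 1)) ≤ 399 / 400 * XX (lik d lam n) := by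
  have hg : ∀ n, Fam (lik d lam n) := fun n => by
    induction n with
    | zero => exact fam_ind
    | succ n ih => exact (sub_step hd hI h0 h1 hl ih).1
  exact fun n => ⟨⟨(hg n).nn, (hg n).pos, (hg n).tot, (hg n).eqv⟩, (sub_step hd hI h0 h1 hl (hg n)).2⟩

/-- nonreconstruction for `-1/2 < lam ≤ 0` and `d lam^2 ≤ 3/4`, every `d ≥ 2` -/
theorem sub_tendsto (h1 : PWinv (3 / 5) 2) {d : ℕ} (hd : 2 ≤ d) {lam : ℝ} (h0 : -(1 / 2) < lam)
    (hl0 : lam ≤ 0) (hl : d * lam ^ 2 ≤ 3 / 4) :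
    Tendsto (fun n => aSeq 3 d lam n) atTop (nhds 0) := by
  have hg : ∀ n, Fam (lik d lam n) := fun n => by
    induction n with
    | zero => exact fam_ind
    | succ n ih => exact (sub_step hd h1 h0 hl0 hl ih).1
  have hb : ∀ n, XX (lik d lam n) ≤ (399 / 400) ^ n := fun n => by
    induction n with
    | zero => rw [pow_zero]; exact (hg 0).X_le_one
    | succ n ih =>
      have h2 := (sub_step hd h1 h0 hl0 hl (hg n)).2
      rw [pow_succ]
      linarith
  have hX : Tendsto (fun n => XX (lik d lam n)) atTop (nhds 0) :=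
    squeeze_zero (fun n => (hg n).X_nonneg) hb
      (tendsto_pow_atTop_nhds_zero_of_lt_one (by norm_num) (by norm_num))
  exact aSeq_tendstoK (fun n => (hg n).pos) (fun n => (hg n).tot) hX

end Vale.Agent.Potts.Sub
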