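import Mathlib
import Vale.Agent.Potts.GWFinal
import Vale.Agent.Potts.Sub

/-! P154: the subcritical antiferromagnetic range. -/

namespace Vale.Agent.Potts

open Finset Filter

/-- positive families -/
structure GoodP {ι : Type} [Fintype ι] (v : ι → V3) : Prop where
  ps : ∀ i, Pos (v i)
  tot : ∑ i, pp (v i) = 1
  eqv : ∀ π : Equiv.Perm (Fin 3), ∃ σ : ι ≃ ι, ∀ i, v (σ i) = fun j => v i (π j)

variable {ι κ : Type} [Fintype ι] [Fintype κ]

theorem GoodP.toV {v : ι → V3} (h : GoodP v) : GoodV v :=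
  ⟨fun i j => (h.ps i j).le, fun i => (Ff_lt_pp _ (h.ps i)).1, h.tot, h.eqv⟩

theorem GoodP.M_nonneg {v : ι → V3} (h : GoodP v) : 0 ≤ ∑ k, mm (v k) :=
  Finset.sum_nonneg fun k _ => by
    have g0 := h.ps k 0
    have g1 := h.ps k 1
    have g2 := h.ps k 2
    unfold mm
    positivity

theorem merge_inv {t : ℝ} (h1 : PWinv t 2) (h3 : PWj) {a : ι → V3} {b : κ → V3} (ha : GoodP a)
    (hb : GoodP b) (ia : ∀ i j, a i j ≤ 3 / 2 * pp (a i)) :
    GoodP (prodFam a b) ∧ (∑ i, mm (a i)) * (∑ k, mm (b k)) ≤ ∑ x, mm (prodFam a b x) ∧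
      XX (prodFam a b) ≤ XX b * (1 - (2 - t) * XX a) + XX a * (2 - ∑ k, mm (b k)) := by
  have hps : ∀ x, Pos (prodFam a b x) := fun x j => mul_pos (ha.ps x.1 j) (hb.ps x.2 j)
  have htot : ∑ x, pp (prodFam a b x) = 1 := by
    rw [sum_prodFam' a b hb.eqv]
    simp only [avg_pp]
    rw [sum_mul_sum', ha.tot, hb.tot, one_mul]
  have heqv : ∀ π : Equiv.Perm (Fin 3), ∃ σ : ι × κ ≃ ι × κ, ∀ i,
      prodFam a b (σ i) = fun j => prodFam a b i (π j) := by
    intro π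
    obtain ⟨σ, hσ⟩ := ha.eqv π
    obtain ⟨τ, hτ⟩ := hb.eqv π
    refine ⟨Equiv.prodCongr σ τ, fun x => ?_⟩
    funext j
    simp only [prodFam, Equiv.prodCongr_apply, Prod.map_apply', hσ, hτ]
  have hj : (∑ i, mm (a i)) * (∑ k, mm (b k)) ≤ ∑ x, mm (prodFam a b x) := by
    rw [sum_prodFam' a b hb.eqv, ← sum_mul_sum']
    exact Finset.sum_le_sum fun i _ => Finset.sum_le_sum fun k _ => h3 _ _ (ha.ps i) (hb.ps k)
  refine ⟨⟨hps, htot, heqv⟩, hj, ?_⟩
  have e2 := sum_mm b hb.tot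
  have h5 : XX (prodFam a b) ≤ ∑ i, ∑ k, (Ff (a i) * pp (b k) + pp (a i) * Ff (b k) +
      t * (Ff (a i) * Ff (b k)) - 2 * (Ff (a i) * fm (b k))) := by
    unfold XX
    rw [sum_prodFam' a b hb.eqv]
    exact Finset.sum_le_sum fun i _ => Finset.sum_le_sum fun k _ => h1 _ _ (ha.ps i) (ia i) (hb.ps k)
  have h6 : ∑ i, ∑ k, (Ff (a i) * pp (b k) + pp (a i) * Ff (b k) +
      t * (Ff (a i) * Ff (b k)) - 2 * (Ff (a i) * fm (b k))) =
      XX a * 1 + 1 * XX b + t * (XX a * XX b) - 2 * (XX a * ∑ k, fm (b k)) := by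
    simp only [Finset.sum_sub_distrib, Finset.sum_add_distrib, ← Finset.mul_sum]
    simp only [← Finset.mul_sum, ← Finset.sum_mul]
    rw [ha.tot, hb.tot]
    rfl
  rw [h6] at h5
  have e3 : XX b * (1 - (2 - t) * XX a) + XX a * (2 - ∑ k, mm (b k)) =
      XX a * 1 + 1 * XX b + t * (XX a * XX b) - 2 * (XX a * ∑ k, fm (b k)) := by
    rw [e2]; ring
  rw [e3]
  exact h5

/-- upper bound after merging `k` messages -/
noncomputable def PhiT (t : ℝ) : (k : ℕ) → (Fin k → ℝ) → ℝ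
  | 0, _ => 0
  | k + 1, x => PhiT t k (fun i => x i.succ) * (1 - (2 - t) * x 0) +
      x 0 * (2 - ∏ i : Fin k, (1 - 4 * x i.succ))

theorem GoodP.transfer {v : ι → V3} {w : κ → V3} (e : κ ≃ ι)
    (h : GoodP v) (hw : ∀ k, w k = v (e k)) :
    GoodP w ∧ XX w = XX v ∧ ∑ k, mm (w k) = ∑ k, mm (v k) := by
  have hX : XX w = XX v := Fintype.sum_equiv e _ _ fun k => by rw [hw]
  refine ⟨⟨fun i => by rw [hw]; exact h.ps _, ?_, fun π => ?_⟩, hX,
    Fintype.sum_equiv e _ _ fun k => by rw [hw]⟩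
  · rw [← h.tot]
    exact Fintype.sum_equiv e _ _ fun k => by rw [hw]
  · obtain ⟨σ, hσ⟩ := h.eqv π
    refine ⟨(e.trans σ).trans e.symm, fun i => ?_⟩
    rw [hw, hw]
    simp only [Equiv.trans_apply, Equiv.apply_symm_apply]
    exact hσ (e i)

theorem merge_all_inv {t : ℝ} (ht0 : 0 ≤ t) (h1 : PWinv t 2) (h3 : PWj) :
    ∀ (k : ℕ) (β : Fin k → Type) [∀ i, Fintype (β i)] (v : ∀ i, β i → V3),
      (∀ i, GoodP (v i)) → (∀ i j l, v i j l ≤ 3 / 2 * pp (v i j)) →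
      (∀ i, XX (v i) ≤ 1 / 4) → (∀ i, 1 - 4 * XX (v i) ≤ ∑ j, mm (v i j)) →
      GoodP (fun (c : ∀ i, β i) j => ∏ i, v i (c i) j) ∧
        ∏ i, (1 - 4 * XX (v i)) ≤ ∑ c, mm (fun j => ∏ i, v i ((c : ∀ i, β i) i) j) ∧
        XX (fun (c : ∀ i, β i) j => ∏ i, v i (c i) j) ≤ PhiT t k (fun i => XX (v i)) := by
  intro k
  induction k with
  | zero =>
    intro β _ v _ _ _ _
    have e1 : (fun (c : ∀ i, β i) (j : Fin 3) => ∏ i, v i (c i) j) = fun _ _ => (1 : ℝ) := by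
      funext c j
      simp
    have e4 : ∀ c : ∀ i, β i, (fun (j : Fin 3) => ∏ i, v i (c i) j) = fun _ => (1 : ℝ) := by
      intro c
      funext j
      simp
    rw [e1]
    simp only [e4]
    have e2 : XX (fun (_ : ∀ i, β i) (_ : Fin 3) => (1 : ℝ)) = 0 := by
      simp [XX, Ff, pp]
      norm_num
    refine ⟨⟨fun i j => one_pos, by simp [pp]; norm_num, fun π => ⟨Equiv.refl _, fun i => rfl⟩⟩,
      ?_, ?_⟩
    · simp [mm]
      norm_num
    · rw [e2]
      exact le_rfl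
  | succ k ih =>
    intro β _ v hv hI hX hM
    obtain ⟨g1, g2, g3⟩ := ih (fun i => β i.succ) (fun i => v i.succ) (fun i => hv i.succ)
      (fun i => hI i.succ) (fun i => hX i.succ) (fun i => hM i.succ)
    obtain ⟨g4, g5, g6⟩ := merge_inv h1 h3 (hv 0) g1 (hI 0)
    obtain ⟨g7, g8, g9⟩ := g4.transfer (w := fun (c : ∀ i, β i) j => ∏ i, v i (c i) j)
      (Fin.consEquiv β).symm (fun c => by
        funext j
        rw [Fin.prod_univ_succ]
        rfl)
    have hX0 := (hv 0).toV.X_nonneg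
    have hq : 0 ≤ ∏ i : Fin k, (1 - 4 * XX (v i.succ)) :=
      Finset.prod_nonneg fun i _ => by linarith [hX i.succ]
    refine ⟨g7, ?_, ?_⟩
    · rw [Fin.prod_univ_succ]
      refine le_trans ?_ (g5.trans (le_of_eq g9.symm))
      exact mul_le_mul (hM 0) g2 hq (hv 0).M_nonneg
    · rw [g8]
      refine g6.trans ?_
      unfold PhiT
      have k1 : 0 ≤ 1 - (2 - t) * XX (v 0) := by nlinarith [hX 0]
      have k2 := mul_le_mul_of_nonneg_right g3 k1
      have k3 := mul_le_mul_of_nonneg_left g2 hX0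
      linarith

/-- messages of a small antiferromagnetic channel -/
theorem msg_inv {lam : ℝ} (h0 : -(1 / 2) < lam) (h1 : lam < 0) {v : ι → V3} (hv : GoodV v) :
    GoodP (fun i => msg lam (v i)) ∧ (∀ i j, msg lam (v i) j ≤ 3 / 2 * pp (msg lam (v i))) ∧
      XX (fun i => msg lam (v i)) ≤ 1 / 4 ∧
      1 - 4 * XX (fun i => msg lam (v i)) ≤ ∑ i, mm (msg lam (v i)) := by
  have hm := fun i => fm_msg_neg (L := -lam) (by linarith) h1.le (by linarith) (v i)
    (hv.pos i) (hv.nn i)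
  have hP : GoodP (fun i => msg lam (v i)) := by
    refine ⟨fun i => (hm i).1, ?_, fun π => ?_⟩
    · simp only [pp_msg]; exact hv.tot
    · obtain ⟨σ, hσ⟩ := hv.eqv π
      exact ⟨σ, fun i => by rw [hσ i, msg_comp]⟩
  have hXm := XX_msg' hv lam
  have hX1 := hv.X_le_one
  have hX0 := hv.X_nonneg
  refine ⟨hP, fun i j => ?_, ?_, ?_⟩
  · rw [pp_msg]
    simp only [msg]
    have e1 := mul_nonpos_of_nonpos_of_nonneg h1.le (hv.nn i j)
    have e2 := mul_le_mul_of_nonneg_right (by linarith : 1 - lam ≤ 3 / 2) (hv.pos i).le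
    linarith
  · rw [hXm]
    have : lam ^ 2 ≤ 1 / 4 := by nlinarith
    nlinarith [sq_nonneg lam]
  · rw [sum_mm _ hP.tot]
    have h5 : ∑ i, -(1 : ℝ) * Ff (msg lam (v i)) ≤ ∑ i, fm (msg lam (v i)) := by
      refine Finset.sum_le_sum fun i _ => le_trans ?_ (hm i).2
      have h6 : -lam / (1 - -lam) ≤ 1 := by
        rw [div_le_one (by linarith)]; linarith
      have h7 : 0 ≤ Ff (msg lam (v i)) := Ff_nonneg _ (Ff_lt_pp _ (hm i).1).1
      nlinarith
    rw [← Finset.mul_sum] at h5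
    unfold XX
    linarith

theorem good_tree_inv {t : ℝ} (ht0 : 0 ≤ t) (h1 : PWinv t 2) (h3 : PWj) {lam : ℝ}
    (hl0 : -(1 / 2) < lam) (hl1 : lam < 0) : ∀ (n : ℕ) (T : Tr n), GoodV (likT lam n T) := by
  intro n
  induction n with
  | zero =>
    intro T
    have hg := good_ind
    have hV : GoodV ind := ⟨hg.nn, hg.pos, hg.tot, hg.eqv⟩
    exact hV
  | succ n ih =>
    rintro ⟨k, ch⟩
    have hm := fun i => msg_inv hl0 hl1 (ih (ch i))
    obtain ⟨g1, _, _⟩ := merge_all_inv ht0 h1 h3 k (fun i => TConf 3 n (ch i))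
      (fun i c => msg lam (likT lam n (ch i) c)) (fun i => (hm i).1) (fun i => (hm i).2.1)
      (fun i => (hm i).2.2.1) (fun i => (hm i).2.2.2)
    obtain ⟨g2, _, _⟩ := g1.transfer (w := likT lam (n + 1) (node ch)) (Equiv.refl _) (fun c => by
      rw [likT_succ]
      rfl)
    exact (g2.toV : GoodV (likT lam (n + 1) (node ch)))

theorem rec_tree_inv {t : ℝ} (ht0 : 0 ≤ t) (h1 : PWinv t 2) (h3 : PWj) {lam : ℝ}
    (hl0 : -(1 / 2) < lam) (hl1 : lam < 0) (n k : ℕ) (ch : Fin k → Tr n) :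
    XX (likT lam (n + 1) (node ch)) ≤ PhiT t k (fun i => lam ^ 2 * XX (likT lam n (ch i))) := by
  have ih := good_tree_inv ht0 h1 h3 hl0 hl1 n
  have hm := fun i => msg_inv hl0 hl1 (ih (ch i))
  obtain ⟨g1, _, g3⟩ := merge_all_inv ht0 h1 h3 k (fun i => TConf 3 n (ch i))
    (fun i c => msg lam (likT lam n (ch i) c)) (fun i => (hm i).1) (fun i => (hm i).2.1)
    (fun i => (hm i).2.2.1) (fun i => (hm i).2.2.2)
  obtain ⟨_, g2, _⟩ := g1.transfer (w := likT lam (n + 1) (node ch)) (Equiv.refl _) (fun c => by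
    rw [likT_succ]
    rfl)
  rw [g2]
  refine g3.trans (le_of_eq ?_)
  congr 1
  funext i
  exact XX_msg' (ih (ch i)) lam

end Vale.Agent.Potts
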