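import Mathlib
import Vale.Agent.Potts.GWInv

/-! P154: the subcritical antiferromagnetic range on Galton-Watson trees. -/

namespace Vale.Agent.Potts

open Finset Filter

theorem phi_eq_u (t x : ℝ) (k : ℕ) : PhiT t k (fun _ => x) = Sub.u t x k := by
  induction k with
  | zero => rfl
  | succ k ih =>
    rw [Sub.u, ← ih]
    simp only [PhiT, Finset.prod_const, card_univ, Fintype.card_fin]
    ring

theorem u_bound4 {x : ℝ} (h0 : 0 ≤ x) (hx : x ≤ 1 / 4) (k : ℕ) :
    Sub.u (3 / 5) x k ≤ 133 / 100 * (k * x) := by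
  rcases Nat.lt_or_ge k 2 with hk | hk
  · interval_cases k
    · simp [Sub.u]
    · simp [Sub.u]
      linarith
  · induction k, hk using Nat.le_induction with
    | base =>
      rw [Sub.u_two]
      push_cast
      nlinarith
    | succ k hk ih =>
      have h1 : (1 - (2 - 3 / 5) * x) * Sub.u (3 / 5) x k ≤
          (1 - (2 - 3 / 5) * x) * (133 / 100 * (k * x)) :=
        mul_le_mul_of_nonneg_left ih (by linarith)
      rw [Sub.u]
      have h2 : 67 / 100 - 931 / 2000 * (k * (4 * x)) ≤ (1 - 4 * x) ^ k :=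
        Sub.pow_lower (by linarith) (by linarith) hk
      have h3 := mul_le_mul_of_nonneg_left h2 h0
      push_cast
      nlinarith

theorem phi_hasSum {α : Type} {w f : α → ℝ} {F t : ℝ} (hw0 : ∀ a, 0 ≤ w a) (hw : HasSum w 1)
    (hf : HasSum (fun a => w a * f a) F) (hf1 : ∀ a, f a ≤ 1 / 4) (k : ℕ) :
    HasSum (fun c : Fin k → α => (∏ i, w (c i)) * PhiT t k (fun i => f (c i)))
      (PhiT t k (fun _ => F)) := by
  induction k with
  | zero =>
    simp only [PhiT, mul_zero]
    exact hasSum_zero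
  | succ k ih =>
    have h1 : HasSum (fun a => w a * (1 - (2 - t) * f a)) (1 - (2 - t) * F) := by
      have h := hw.sub (hf.mul_left (2 - t))
      have e : (fun a => w a * (1 - (2 - t) * f a)) =
          fun a => w a - (2 - t) * (w a * f a) := by
        funext a; ring
      rw [e]; exact h
    have h2 : HasSum (fun c : Fin k → α => ∏ i, (w (c i) * (1 - 4 * f (c i)))) ((1 - 4 * F) ^ k) := by
      have h : HasSum (fun a => w a * (1 - 4 * f a)) (1 - 4 * F) := by
        have h := hw.sub (hf.mul_left 4)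
        have e : (fun a => w a * (1 - 4 * f a)) = fun a => w a - 4 * (w a * f a) := by
          funext a; ring
        rw [e]; exact h
      exact hasSum_prod_pow (fun a => mul_nonneg (hw0 a) (by linarith [hf1 a])) h k
    have h3 : HasSum (fun c : Fin k → α => ∏ i, w (c i)) ((1 : ℝ) ^ k) := hasSum_prod_pow hw0 hw k
    have h4 : HasSum (fun c : Fin k → α => (∏ i, w (c i)) * (2 - ∏ i, (1 - 4 * f (c i))))
        (2 - (1 - 4 * F) ^ k) := by
      have h := (h3.mul_left 2).sub h2
      rw [one_pow, mul_one] at h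
      have e : (fun c : Fin k → α => (∏ i, w (c i)) * (2 - ∏ i, (1 - 4 * f (c i)))) =
          fun c => 2 * (∏ i, w (c i)) - ∏ i, (w (c i) * (1 - 4 * f (c i))) := by
        funext c
        rw [Finset.prod_mul_distrib]; ring
      rw [e]; exact h
    obtain ⟨G, hG⟩ : ∃ G : (Fin k → α) → ℝ,
        G = fun c => (∏ i, w (c i)) * PhiT t k (fun i => f (c i)) := ⟨_, rfl⟩
    obtain ⟨H, hH⟩ : ∃ H : (Fin k → α) → ℝ,
        H = fun c => (∏ i, w (c i)) * (2 - ∏ i, (1 - 4 * f (c i))) := ⟨_, rfl⟩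
    rw [← hG] at ih
    rw [← hH] at h4
    have key : ∀ (A : α → ℝ) (B : (Fin k → α) → ℝ) (a b : ℝ), HasSum A a → HasSum B b →
        HasSum (fun x : α × (Fin k → α) => A x.1 * B x.2) (a * b) := fun A B a b hA hB =>
      HasSum.mul hA hB (summable_mul_of_summable_norm hA.summable.norm hB.summable.norm)
    have h5 := key _ _ _ _ h1 ih
    have h6 := key _ _ _ _ hf h4
    have h7 := h5.add h6
    refine (Equiv.hasSum_iff (Fin.consEquiv (fun _ : Fin (k + 1) => α))).1 ?_
    have e1 : (fun c : Fin (k + 1) → α => (∏ i, w (c i)) * PhiT t (k + 1) (fun i => f (c i))) ∘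
        (Fin.consEquiv (fun _ : Fin (k + 1) => α)) =
        fun x : α × (Fin k → α) => (w x.1 * (1 - (2 - t) * f x.1)) * G x.2 +
          (w x.1 * f x.1) * H x.2 := by
      funext x
      simp only [Function.comp, Fin.prod_univ_succ, PhiT, hG, hH, Fin.consEquiv_apply,
        Fin.cons_zero, Fin.cons_succ]
      ring
    have e2 : PhiT t (k + 1) (fun _ => F) = (1 - (2 - t) * F) * PhiT t k (fun _ => F) +
        F * (2 - (1 - 4 * F) ^ k) := by
      simp only [PhiT, Finset.prod_const, card_univ, Fintype.card_fin]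
      ring
    rw [e1, e2]
    exact h7

/-- one step of the averaged recursion -/
theorem gw_step (h1 : PWinv (3 / 5) 2) {p : ℕ → ℝ} (hp0 : ∀ k, 0 ≤ p k) (hp1 : HasSum p 1) {m : ℝ}
    (hm : HasSum (fun k : ℕ => (k : ℝ) * p k) m) {lam : ℝ} (hl0 : -(1 / 2) < lam) (hl1 : lam < 0)
    (hl : m * lam ^ 2 ≤ 3 / 4) (n : ℕ) :
    ∑' T : Tr (n + 1), treeProb p (n + 1) T * XX (likT lam (n + 1) T) ≤
      399 / 400 * ∑' T : Tr n, treeProb p n T * XX (likT lam n T) := by
  have hg := good_tree_inv (t := 3 / 5) (by norm_num) h1 pwj hl0 hl1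
  have hX0 : ∀ n (T : Tr n), 0 ≤ XX (likT lam n T) := fun n T => (hg n T).X_nonneg
  have hX1 : ∀ n (T : Tr n), XX (likT lam n T) ≤ 1 := fun n T => (hg n T).X_le_one
  have hsX : ∀ n, Summable fun T : Tr n => treeProb p n T * XX (likT lam n T) := fun n =>
    treeProb_summable hp0 hp1 (B := 1) fun T => by
      rw [abs_of_nonneg (hX0 n T)]; exact hX1 n T
  have hl4 : lam ^ 2 ≤ 1 / 4 := by nlinarith
  have hl40 := sq_nonneg lam
  set x := ∑' T : Tr n, treeProb p n T * XX (likT lam n T) with hx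
  have hx0 : 0 ≤ x := tsum_nonneg fun T => mul_nonneg (treeProb_nonneg hp0 n T) (hX0 n T)
  have hx1 : x ≤ 1 :=
    hasSum_le (fun T => mul_le_of_le_one_right (treeProb_nonneg hp0 n T) (hX1 n T)) (hsX n).hasSum
      (treeProb_hasSum hp0 hp1 n)
  have hF : HasSum (fun T : Tr n => treeProb p n T * (lam ^ 2 * XX (likT lam n T))) (lam ^ 2 * x) := by
    have h := (hsX n).hasSum.mul_left (lam ^ 2)
    have e : (fun T : Tr n => treeProb p n T * (lam ^ 2 * XX (likT lam n T))) =
        fun T => lam ^ 2 * (treeProb p n T * XX (likT lam n T)) := by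
      funext T; ring
    rw [e]; exact h
  have hph := phi_hasSum (t := 3 / 5) (treeProb_nonneg hp0 n) (treeProb_hasSum hp0 hp1 n) hF
    (fun T => by nlinarith [hX0 n T, hX1 n T])
  have hfib : ∀ k : ℕ, Summable fun c : Fin k → Tr n =>
      treeProb p (n + 1) (node c) * XX (likT lam (n + 1) (node c)) := fun k =>
    (hsX (n + 1)).sigma_factor k
  have hsig : HasSum (fun k : ℕ => ∑' c : Fin k → Tr n,
      treeProb p (n + 1) (node c) * XX (likT lam (n + 1) (node c)))
      (∑' T : Tr (n + 1), treeProb p (n + 1) T * XX (likT lam (n + 1) T)) :=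
    HasSum.sigma (hsX (n + 1)).hasSum fun k => (hfib k).hasSum
  have hub : HasSum (fun k : ℕ => (133 / 100 * (lam ^ 2 * x)) * ((k : ℝ) * p k))
      ((133 / 100 * (lam ^ 2 * x)) * m) := hm.mul_left _
  have hle : ∑' T : Tr (n + 1), treeProb p (n + 1) T * XX (likT lam (n + 1) T) ≤
      (133 / 100 * (lam ^ 2 * x)) * m := by
    refine hasSum_le (fun k => ?_) hsig hub
    have h2 : HasSum (fun c : Fin k → Tr n => p k * ((∏ i, treeProb p n (c i)) *
        PhiT (3 / 5) k (fun i => lam ^ 2 * XX (likT lam n (c i)))))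
        (p k * PhiT (3 / 5) k (fun _ => lam ^ 2 * x)) := (hph k).mul_left (p k)
    have h3 : ∑' c : Fin k → Tr n, treeProb p (n + 1) (node c) * XX (likT lam (n + 1) (node c)) ≤
        p k * PhiT (3 / 5) k (fun _ => lam ^ 2 * x) := by
      refine hasSum_le (fun c => ?_) (hfib k).hasSum h2
      have e : treeProb p (n + 1) (node c) = p k * ∏ i, treeProb p n (c i) := rfl
      rw [e, mul_assoc]
      refine mul_le_mul_of_nonneg_left ?_ (hp0 k)
      exact mul_le_mul_of_nonneg_left (rec_tree_inv (by norm_num) h1 pwj hl0 hl1 n k c)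
        (prod_nonneg fun i _ => treeProb_nonneg hp0 n (c i))
    refine h3.trans ?_
    rw [phi_eq_u]
    have h4 := mul_le_mul_of_nonneg_left
      (u_bound4 (x := lam ^ 2 * x) (mul_nonneg hl40 hx0) (by nlinarith) k) (hp0 k)
    refine h4.trans (le_of_eq ?_)
    ring
  refine hle.trans ?_
  have := mul_le_mul_of_nonneg_right hl hx0
  linarith

/-- bound for `a_n`, uniform in the channel -/
theorem aGW_le_geom (h1 : PWinv (3 / 5) 2) {p : ℕ → ℝ} (hp0 : ∀ k, 0 ≤ p k) (hp1 : HasSum p 1)
    {m : ℝ} (hm : HasSum (fun k : ℕ => (k : ℝ) * p k) m) {lam : ℝ} (hl0 : -(1 / 2) < lam)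
    (hl1 : lam < 0) (hl : m * lam ^ 2 ≤ 3 / 4) (n : ℕ) {η : ℝ} (hη : 0 < η) :
    aGW 3 p lam n ≤ η / 2 + (399 / 400) ^ n / (4 * η) := by
  have hg := good_tree_inv (t := 3 / 5) (by norm_num) h1 pwj hl0 hl1
  have hX0 : ∀ n (T : Tr n), 0 ≤ XX (likT lam n T) := fun n T => (hg n T).X_nonneg
  have hX1 : ∀ n (T : Tr n), XX (likT lam n T) ≤ 1 := fun n T => (hg n T).X_le_one
  have hsX : ∀ n, Summable fun T : Tr n => treeProb p n T * XX (likT lam n T) := fun n =>
    treeProb_summable hp0 hp1 (B := 1) fun T => by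
      rw [abs_of_nonneg (hX0 n T)]; exact hX1 n T
  have hsa : ∀ n, Summable fun T : Tr n => treeProb p n T * aTree 3 lam n T := fun n =>
    treeProb_summable hp0 hp1 (B := 1) fun T => by
      rw [abs_of_nonneg (aTree_nonneg (hg n T))]; exact aTree_le_one (hg n T)
  have hgeo : ∀ n, ∑' T : Tr n, treeProb p n T * XX (likT lam n T) ≤ (399 / 400) ^ n := by
    intro n
    induction n with
    | zero =>
      rw [pow_zero]
      exact hasSum_le (fun T => mul_le_of_le_one_right (treeProb_nonneg hp0 0 T) (hX1 0 T))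
        (hsX 0).hasSum (treeProb_hasSum hp0 hp1 0)
    | succ n ih =>
      rw [pow_succ, mul_comm]
      exact (gw_step h1 hp0 hp1 hm hl0 hl1 hl n).trans
        (mul_le_mul_of_nonneg_left ih (by norm_num))
  have hs1 := (treeProb_hasSum hp0 hp1 n).mul_right (η / 2)
  have hs2 := (hsX n).hasSum.div_const (4 * η)
  have hs3 := hs1.add hs2
  rw [one_mul] at hs3
  have h5 : aGW 3 p lam n ≤ η / 2 + (∑' T, treeProb p n T * XX (likT lam n T)) / (4 * η) := by
    rw [← hs3.tsum_eq]
    unfold aGW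
    refine Summable.tsum_le_tsum (fun T => ?_) (hsa n) hs3.summable
    have h5 := mul_le_mul_of_nonneg_left (aTree_le (hg n T) hη) (treeProb_nonneg hp0 n T)
    refine h5.trans (le_of_eq ?_)
    ring
  refine h5.trans ?_
  have h6 := div_le_div_of_nonneg_right (hgeo n) (by positivity : 0 ≤ 4 * η)
  linarith

end Vale.Agent.Potts
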