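import Mathlib
import Vale.Agent.Potts.GWInv2
import Vale.Agent.Potts.Cont

/-! P154: continuity in the channel on Galton-Watson trees; the whole range
`-1/2 ≤ lam < 0`, `m lam^2 ≤ 3/4`. -/

namespace Vale.Agent.Potts

open Finset Filter

theorem tLaw_cont : ∀ (n : ℕ) (t : Tr n) (i : Fin 3) (c : TConf 3 n t),
    Continuous fun lam : ℝ => tLaw 3 lam n t i c
  | 0, _, i, c => by
    change Continuous fun _ : ℝ => if (show Fin 3 from c) = i then (1 : ℝ) else 0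
    exact continuous_const
  | n + 1, ⟨k, ch⟩, i, c => by
    change Continuous fun lam : ℝ =>
      ∏ m : Fin k, ∑ j : Fin 3, channel 3 lam i j * tLaw 3 lam n (ch m) j (c m)
    refine continuous_finsetProd _ fun m _ => continuous_finsetSum _ fun j _ => ?_
    refine Continuous.mul ?_ (tLaw_cont n (ch m) j (c m))
    unfold channel
    split_ifs
    · fun_prop
    · fun_prop

/-- formula without division -/
theorem aTree_formula {lam : ℝ} (h0 : -(1 / 2) ≤ lam) (h1 : lam ≤ 1) (n : ℕ) (t : Tr n) :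
    aTree 3 lam n t = ∑ c : TConf 3 n t, (1 / 2) * ∑ i : Fin 3,
      |(1 / 3) * tLaw 3 lam n t i c -
        (1 / 3) * ∑ j : Fin 3, (1 / 3) * tLaw 3 lam n t j c| := by
  unfold aTree
  refine Finset.sum_congr rfl fun c _ => ?_
  have hP : tProb 3 lam n t c = ∑ j : Fin 3, (1 / 3) * tLaw 3 lam n t j c := by
    simp [tProb]
  have hP0 : 0 ≤ tProb 3 lam n t c := by
    rw [hP]
    exact Finset.sum_nonneg fun j _ => mul_nonneg (by norm_num) (tLaw_nonneg h0 h1 n t j c)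
  rw [← hP]
  rw [mul_left_comm, Finset.mul_sum]
  congr 1
  refine Finset.sum_congr rfl fun i _ => ?_
  rcases hP0.eq_or_lt with h | h
  · rw [← h]
    have h2 : ∀ j, tLaw 3 lam n t j c = 0 := by
      have h3 : ∑ j : Fin 3, (1 / 3) * tLaw 3 lam n t j c = 0 := by rw [← hP, ← h]
      intro j
      have h4 := (Finset.sum_eq_zero_iff_of_nonneg fun j _ =>
        mul_nonneg (by norm_num : (0 : ℝ) ≤ 1 / 3) (tLaw_nonneg h0 h1 n t j c)).1 h3 j
          (mem_univ j)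
      linarith
    rw [h2]
    simp
  · rw [← abs_of_pos h, ← abs_mul, abs_of_pos h]
    congr 1
    unfold tPost
    rw [mul_sub]
    push_cast
    rw [mul_div_cancel₀ _ h.ne']
    ring

theorem aTree_cont (n : ℕ) (t : Tr n) : Continuous fun lam : ℝ =>
    ∑ c : TConf 3 n t, (1 / 2) * ∑ i : Fin 3, |(1 / 3) * tLaw 3 lam n t i c -
        (1 / 3) * ∑ j : Fin 3, (1 / 3) * tLaw 3 lam n t j c| := by
  refine continuous_finsetSum _ fun c _ => Continuous.mul continuous_const ?_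
  refine continuous_finsetSum _ fun i _ => continuous_abs.comp ?_
  refine Continuous.sub (continuous_const.mul (tLaw_cont n t i c)) ?_
  exact continuous_const.mul (continuous_finsetSum _ fun j _ =>
    continuous_const.mul (tLaw_cont n t j c))

theorem aTree_le_one' {lam : ℝ} (h0 : -(1 / 2) ≤ lam) (h1 : lam ≤ 1) (n : ℕ) (t : Tr n) :
    aTree 3 lam n t ≤ 1 := (aTree_le_alive h0 h1 n t).trans (alive_le_one n t)

theorem aGW_summable {p : ℕ → ℝ} (hp0 : ∀ k, 0 ≤ p k) (hp1 : HasSum p 1) {lam : ℝ}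
    (h0 : -(1 / 2) ≤ lam) (h1 : lam ≤ 1) (n : ℕ) :
    Summable fun T : Tr n => treeProb p n T * aTree 3 lam n T :=
  treeProb_summable hp0 hp1 (B := 1) fun T => by
    rw [abs_of_nonneg (aTree_nonneg' h0 h1 n T)]; exact aTree_le_one' h0 h1 n T

theorem aGW_nonneg' {p : ℕ → ℝ} (hp0 : ∀ k, 0 ≤ p k) {lam : ℝ} (h0 : -(1 / 2) ≤ lam)
    (h1 : lam ≤ 1) (n : ℕ) : 0 ≤ aGW 3 p lam n :=
  tsum_nonneg fun T => mul_nonneg (treeProb_nonneg hp0 n T) (aTree_nonneg' h0 h1 n T)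

theorem aGW_le_at_half {p : ℕ → ℝ} (hp0 : ∀ k, 0 ≤ p k) (hp1 : HasSum p 1) {n : ℕ} {B : ℝ}
    (h : ∀ lam : ℝ, -(1 / 2) < lam → lam < 0 → aGW 3 p lam n ≤ B) :
    aGW 3 p (-(1 / 2)) n ≤ B := by
  unfold aGW
  refine (aGW_summable hp0 hp1 le_rfl (by norm_num) n).tsum_le_of_sum_le fun S => ?_
  set f : ℝ → ℝ := fun lam => ∑ T ∈ S, treeProb p n T * ∑ c : TConf 3 n T, (1 / 2) * ∑ i : Fin 3,
      |(1 / 3) * tLaw 3 lam n T i c -
        (1 / 3) * ∑ j : Fin 3, (1 / 3) * tLaw 3 lam n T j c| with hf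
  have hc : Continuous f :=
    continuous_finsetSum _ fun T _ => continuous_const.mul (aTree_cont n T)
  have e : ∑ T ∈ S, treeProb p n T * aTree 3 (-(1 / 2)) n T = f (-(1 / 2)) := by
    rw [hf]
    refine Finset.sum_congr rfl fun T _ => ?_
    rw [aTree_formula le_rfl (by norm_num)]
  rw [e]
  have ht : Tendsto f (nhdsWithin (-(1 / 2)) (Set.Ioi (-(1 / 2)))) (nhds (f (-(1 / 2)))) :=
    (hc.tendsto _).mono_left nhdsWithin_le_nhds
  refine le_of_tendsto ht ?_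
  have hev : ∀ᶠ lam in nhdsWithin (-(1 / 2 : ℝ)) (Set.Ioi (-(1 / 2))), lam < 0 :=
    (gt_mem_nhds (by norm_num : (-(1 / 2) : ℝ) < 0)).filter_mono nhdsWithin_le_nhds
  filter_upwards [hev, self_mem_nhdsWithin] with lam h1 h2
  have h3 : -(1 / 2) < lam := h2
  have h4 := h lam h3 h1
  have e2 : f lam = ∑ T ∈ S, treeProb p n T * aTree 3 lam n T := by
    rw [hf]
    refine Finset.sum_congr rfl fun T _ => ?_
    rw [aTree_formula h3.le (by linarith)]
  rw [e2]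
  refine le_trans ?_ h4
  exact (aGW_summable hp0 hp1 h3.le (by linarith) n).sum_le_tsum S fun T _ =>
    mul_nonneg (treeProb_nonneg hp0 n T) (aTree_nonneg' h3.le (by linarith) n T)

/-- Galton-Watson trees: the whole range `-1/2 ≤ lam < 0`, `m lam^2 ≤ 3/4`. -/
theorem gw_sub (h1 : PWinv (3 / 5) 2) {p : ℕ → ℝ} (hp0 : ∀ k, 0 ≤ p k) (hp1 : HasSum p 1)
    {m : ℝ} (hm : HasSum (fun k : ℕ => (k : ℝ) * p k) m) {lam : ℝ} (h0 : -(1 / 2) ≤ lam)
    (hl1 : lam < 0) (hl : m * lam ^ 2 ≤ 3 / 4) :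
    Tendsto (fun n => aGW 3 p lam n) atTop (nhds 0) := by
  have hm0 : 0 ≤ m := hm.nonneg fun k => mul_nonneg (Nat.cast_nonneg k) (hp0 k)
  refine tendsto_of_geom (ρ := 399 / 400) (by norm_num) (by norm_num)
    (fun n => aGW_nonneg' hp0 h0 (by linarith) n) fun n η hη => ?_
  rcases h0.eq_or_lt with h | h
  · rw [← h]
    refine aGW_le_at_half hp0 hp1 fun l h2 h3 => ?_
    have h4 : m * l ^ 2 ≤ 3 / 4 := by
      rw [← h] at hl
      have h5 : l ^ 2 ≤ (-(1 / 2)) ^ 2 := by nlinarith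
      exact (mul_le_mul_of_nonneg_left h5 hm0).trans hl
    exact aGW_le_geom h1 hp0 hp1 hm h2 h3 h4 n hη
  · exact aGW_le_geom h1 hp0 hp1 hm h hl1 hl n hη

/-- regular trees: the whole range `-1/2 ≤ lam < 0`, `d lam^2 ≤ 3/4` -/
theorem regular_sub (h1 : PWinv (3 / 5) 2) (d : ℕ) (lam : ℝ) (hd : 2 ≤ d) (h0 : -(1 / 2) ≤ lam)
    (hl1 : lam < 0) (hl : d * lam ^ 2 ≤ 3 / 4) :
    Tendsto (fun n => aSeq 3 d lam n) atTop (nhds 0) :=
  sub_tendsto (ρ := 399 / 400) (by norm_num) (by norm_num)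
    (fun _ _ hd h2 h3 h4 n => Sub.sub_rec h1 hd h2 h3.le h4 n) d lam hd h0 hl1 hl

end Vale.Agent.Potts
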