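import Mathlib
import Vale.Agent.Potts.Tree

/-! P154: the Kesten-Stigum direction on the `d`-ary tree: reconstruction when `d * lam ^ 2 > 1`
(linear estimator, second moment method). -/

namespace Vale.Agent.Potts.KS

open Finset

/-! ### moments of a sum under a product weight -/

theorem sum_cons {α : Type} [Fintype α] (k : ℕ) (F : (Fin (k + 1) → α) → ℝ) :
    ∑ c, F c = ∑ a : α, ∑ c : Fin k → α, F (Fin.cons a c) := by
  rw [← Fintype.sum_prod_type']
  exact (Fintype.sum_equiv (Fin.consEquiv fun _ => α) _ _ fun x => rfl).symm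

section
variable {α : Type} [Fintype α] (μ s : α → ℝ)

theorem moment0 (h0 : ∑ a, μ a = 1) (k : ℕ) : ∑ c : Fin k → α, ∏ j, μ (c j) = 1 := by
  induction k with
  | zero => simp
  | succ k ih =>
    rw [sum_cons]
    simp only [Fin.prod_univ_succ, Fin.cons_zero, Fin.cons_succ, ← Finset.mul_sum, ih, mul_one, h0]

theorem moment1 (h0 : ∑ a, μ a = 1) {m : ℝ} (h1 : ∑ a, μ a * s a = m) (k : ℕ) :
    ∑ c : Fin k → α, (∏ j, μ (c j)) * ∑ j, s (c j) = k * m := by
  induction k with
  | zero => simp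
  | succ k ih =>
    rw [sum_cons]
    have h : ∀ a : α, ∑ c : Fin k → α, (∏ j, μ ((Fin.cons a c : Fin (k + 1) → α) j)) *
        ∑ j, s ((Fin.cons a c : Fin (k + 1) → α) j) =
        μ a * s a * ∑ c : Fin k → α, ∏ j, μ (c j) +
          μ a * ∑ c : Fin k → α, (∏ j, μ (c j)) * ∑ j, s (c j) := by
      intro a
      rw [Finset.mul_sum, Finset.mul_sum, ← Finset.sum_add_distrib]
      refine Finset.sum_congr rfl fun c _ => ?_
      simp only [Fin.prod_univ_succ, Fin.sum_univ_succ, Fin.cons_zero, Fin.cons_succ]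
      ring
    simp only [h, moment0 μ h0, ih]
    rw [Finset.sum_add_distrib, ← Finset.sum_mul, ← Finset.sum_mul, h0, h1]
    push_cast
    ring

theorem moment2 (h0 : ∑ a, μ a = 1) {m v : ℝ} (h1 : ∑ a, μ a * s a = m)
    (h2 : ∑ a, μ a * s a ^ 2 = v) (k : ℕ) :
    ∑ c : Fin k → α, (∏ j, μ (c j)) * (∑ j, s (c j)) ^ 2 = k * v + k * (k - 1) * m ^ 2 := by
  induction k with
  | zero => simp
  | succ k ih =>
    rw [sum_cons]
    have h : ∀ a : α, ∑ c : Fin k → α, (∏ j, μ ((Fin.cons a c : Fin (k + 1) → α) j)) *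
        (∑ j, s ((Fin.cons a c : Fin (k + 1) → α) j)) ^ 2 =
        μ a * s a ^ 2 * ∑ c : Fin k → α, ∏ j, μ (c j) +
          μ a * s a * (2 * ∑ c : Fin k → α, (∏ j, μ (c j)) * ∑ j, s (c j)) +
          μ a * ∑ c : Fin k → α, (∏ j, μ (c j)) * (∑ j, s (c j)) ^ 2 := by
      intro a
      rw [Finset.mul_sum, Finset.mul_sum, Finset.mul_sum, Finset.mul_sum,
        ← Finset.sum_add_distrib, ← Finset.sum_add_distrib]
      refine Finset.sum_congr rfl fun c _ => ?_
      simp only [Fin.prod_univ_succ, Fin.sum_univ_succ, Fin.cons_zero, Fin.cons_succ]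
      ring
    simp only [h, moment0 μ h0, moment1 μ s h0 h1, ih]
    rw [Finset.sum_add_distrib, Finset.sum_add_distrib, ← Finset.sum_mul, ← Finset.sum_mul,
      ← Finset.sum_mul, h0, h1, h2]
    push_cast
    ring

end

/-! ### the linear statistic on the tree -/

/-- the eigenvector of the channel -/
def gg : Fin 3 → ℝ := ![2, -1, -1]

theorem gg_sum : ∑ i, gg i = 0 := by
  simp [gg, Fin.sum_univ_three]
  norm_num

theorem gg_sq : ∑ i, gg i * gg i = 6 := by
  simp [gg, Fin.sum_univ_three]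
  norm_num

theorem gg_abs (i : Fin 3) : |gg i| ≤ 2 := by
  fin_cases i <;> simp [gg]

/-- sum over the vertices of level `n` of `gg` of the spin -/
def SS (d : ℕ) : (n : ℕ) → Conf 3 d n → ℝ
  | 0, c => gg c
  | n + 1, c => ∑ k : Fin d, SS d n (c k)

variable {d : ℕ} {lam : ℝ}

theorem channel_one (lam : ℝ) (i : Fin 3) : ∑ j : Fin 3, channel 3 lam i j = 1 := by
  simp only [channel, Finset.sum_add_distrib, Finset.sum_ite_eq, Finset.mem_univ, if_true,
    Finset.sum_const, Finset.card_univ, Fintype.card_fin]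
  simp only [nsmul_eq_mul]
  push_cast
  ring

theorem channel_gg (lam : ℝ) (i : Fin 3) : ∑ j : Fin 3, channel 3 lam i j * gg j = lam * gg i := by
  have h : ∀ j, channel 3 lam i j * gg j =
      (if i = j then lam * gg j else 0) + (1 - lam) / 3 * gg j := by
    intro j
    simp only [channel]
    split_ifs <;> push_cast <;> ring
  simp only [h, Finset.sum_add_distrib, Finset.sum_ite_eq, Finset.mem_univ, if_true,
    ← Finset.mul_sum, gg_sum]
  ring

theorem channel_nonneg (h0 : -(1 / 2) ≤ lam) (h1 : lam ≤ 1) (i j : Fin 3) :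
    0 ≤ channel 3 lam i j := by
  simp only [channel]
  push_cast
  split_ifs <;> linarith

/-- weight of a subtree configuration, given the spin of the parent -/
noncomputable def mu (d : ℕ) (lam : ℝ) (n : ℕ) (i : Fin 3) (c : Conf 3 d n) : ℝ :=
  ∑ j : Fin 3, channel 3 lam i j * leafLaw 3 d lam n j c

theorem sum_succ (d n : ℕ) (F : Conf 3 d (n + 1) → ℝ) :
    ∑ c : Conf 3 d (n + 1), F c = ∑ c : Fin d → Conf 3 d n, F c :=
  Fintype.sum_equiv (Equiv.refl _) _ _ fun _ => rfl

theorem sum_zero (d : ℕ) (F : Conf 3 d 0 → ℝ) :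
    ∑ c : Conf 3 d 0, F c = ∑ c : Fin 3, F c :=
  Fintype.sum_equiv (Equiv.refl _) _ _ fun _ => rfl

theorem mu_lin (d : ℕ) (lam : ℝ) (n : ℕ) (i : Fin 3) (F : Conf 3 d n → ℝ) :
    ∑ c, mu d lam n i c * F c =
      ∑ j, channel 3 lam i j * ∑ c, leafLaw 3 d lam n j c * F c := by
  simp only [mu, Finset.sum_mul, Finset.mul_sum]
  rw [Finset.sum_comm]
  refine Finset.sum_congr rfl fun j _ => Finset.sum_congr rfl fun c _ => ?_
  ring

theorem leaf_nonneg (h0 : -(1 / 2) ≤ lam) (h1 : lam ≤ 1) (n : ℕ) :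
    ∀ (i : Fin 3) (c : Conf 3 d n), 0 ≤ leafLaw 3 d lam n i c := by
  induction n with
  | zero =>
    intro i c
    simp only [leafLaw]
    split_ifs <;> norm_num
  | succ n ih =>
    intro i c
    simp only [leafLaw]
    exact Finset.prod_nonneg fun k _ => Finset.sum_nonneg fun j _ =>
      mul_nonneg (channel_nonneg h0 h1 i j) (ih j (c k))

theorem leaf_zero (i : Fin 3) (F : Conf 3 d 0 → ℝ) :
    ∑ c : Conf 3 d 0, leafLaw 3 d lam 0 i c * F c = F i := by
  rw [sum_zero]
  simp only [leafLaw, ite_mul, one_mul, zero_mul]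
  rw [Finset.sum_eq_single i]
  · simp
  · intro b _ hb
    rw [if_neg hb]
  · intro h
    exact absurd (Finset.mem_univ i) h

theorem leaf_one (n : ℕ) : ∀ i : Fin 3, ∑ c, leafLaw 3 d lam n i c = 1 := by
  induction n with
  | zero =>
    intro i
    have := leaf_zero (d := d) (lam := lam) i (fun _ => 1)
    simpa using this
  | succ n ih =>
    intro i
    rw [sum_succ]
    have hm : ∑ c, mu d lam n i c = 1 := by
      have := mu_lin d lam n i (fun _ => 1)
      simp only [mul_one, ih, channel_one] at this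
      exact this
    exact moment0 (mu d lam n i) hm d

theorem leaf_S (n : ℕ) :
    ∀ i : Fin 3, ∑ c, leafLaw 3 d lam n i c * SS d n c = (d * lam) ^ n * gg i := by
  induction n with
  | zero =>
    intro i
    rw [leaf_zero]
    simp [SS]
  | succ n ih =>
    intro i
    rw [sum_succ]
    have hm : ∑ c, mu d lam n i c = 1 := by
      have := mu_lin d lam n i (fun _ => 1)
      simp only [mul_one, leaf_one, channel_one] at this
      exact this
    have h1 : ∑ c, mu d lam n i c * SS d n c = (d * lam) ^ n * (lam * gg i) := by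
      rw [mu_lin]
      simp only [ih]
      rw [← channel_gg, Finset.mul_sum]
      refine Finset.sum_congr rfl fun j _ => ?_
      ring
    have h2 := moment1 (mu d lam n i) (SS d n) hm h1 d
    have h3 : (d : ℝ) * ((d * lam) ^ n * (lam * gg i)) = (d * lam) ^ (n + 1) * gg i := by
      rw [pow_succ]; ring
    rw [← h3, ← h2]
    rfl

theorem leaf_SS (h0 : -(1 / 2) ≤ lam) (h1 : lam ≤ 1) {C : ℝ} (hC : 4 ≤ C)
    (hC2 : 4 * (d - 1) * lam ^ 2 ≤ C * (d * lam ^ 2 - 1)) (n : ℕ) :
    ∀ i : Fin 3, ∑ c, leafLaw 3 d lam n i c * SS d n c ^ 2 ≤ C * ((d * lam) ^ 2) ^ n := by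
  induction n with
  | zero =>
    intro i
    rw [leaf_zero]
    simp only [SS, pow_zero, mul_one]
    have := gg_abs i
    have h2 : gg i ^ 2 ≤ 2 ^ 2 := by
      rw [← sq_abs]
      exact pow_le_pow_left₀ (abs_nonneg _) this 2
    linarith
  | succ n ih =>
    intro i
    rw [sum_succ]
    have hm : ∑ c, mu d lam n i c = 1 := by
      have := mu_lin d lam n i (fun _ => 1)
      simp only [mul_one, leaf_one, channel_one] at this
      exact this
    have h1' : ∑ c, mu d lam n i c * SS d n c = (d * lam) ^ n * (lam * gg i) := by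
      rw [mu_lin]
      simp only [leaf_S]
      rw [← channel_gg, Finset.mul_sum]
      refine Finset.sum_congr rfl fun j _ => ?_
      ring
    have h2' : ∑ c, mu d lam n i c * SS d n c ^ 2 ≤ C * ((d * lam) ^ 2) ^ n := by
      rw [mu_lin]
      calc ∑ j, channel 3 lam i j * ∑ c, leafLaw 3 d lam n j c * SS d n c ^ 2
          ≤ ∑ j, channel 3 lam i j * (C * ((d * lam) ^ 2) ^ n) :=
            Finset.sum_le_sum fun j _ =>
              mul_le_mul_of_nonneg_left (ih j) (channel_nonneg h0 h1 i j)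
        _ = C * ((d * lam) ^ 2) ^ n := by
            rw [← Finset.sum_mul, channel_one, one_mul]
    have h2 := moment2 (mu d lam n i) (SS d n) hm h1' rfl d
    have h3 : ∑ c : Fin d → Conf 3 d n, leafLaw 3 d lam (n + 1) i c * SS d (n + 1) c ^ 2 =
        ∑ c : Fin d → Conf 3 d n, (∏ j, mu d lam n i (c j)) * (∑ j, SS d n (c j)) ^ 2 := rfl
    rw [h3, h2]
    have hg : gg i ^ 2 ≤ 4 := by
      have h2 : gg i ^ 2 ≤ 2 ^ 2 := by
        rw [← sq_abs]
        exact pow_le_pow_left₀ (abs_nonneg _) (gg_abs i) 2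
      linarith
    have hP : 0 ≤ ((d * lam) ^ 2) ^ n := by positivity
    have e1 : ((d : ℝ) * lam) ^ n * (lam * gg i) = (d * lam) ^ n * lam * gg i := by ring
    have e2 : (((d : ℝ) * lam) ^ n * (lam * gg i)) ^ 2 =
        ((d * lam) ^ 2) ^ n * (lam ^ 2 * gg i ^ 2) := by
      rw [← pow_mul, mul_comm 2 n, pow_mul]
      ring
    rw [e2]
    have hd0 : (0 : ℝ) ≤ d := Nat.cast_nonneg d
    have hdd : (0 : ℝ) ≤ (d : ℝ) * (d - 1) := by
      rcases Nat.eq_zero_or_pos d with h | h
      · rw [h]; simp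
      · have : (1 : ℝ) ≤ d := by exact_mod_cast h
        exact mul_nonneg hd0 (by linarith)
    have h5 : (d : ℝ) * ∑ c, mu d lam n i c * SS d n c ^ 2 ≤ d * (C * ((d * lam) ^ 2) ^ n) :=
      mul_le_mul_of_nonneg_left h2' hd0
    have h6 : (d : ℝ) * (d - 1) * (((d * lam) ^ 2) ^ n * (lam ^ 2 * gg i ^ 2)) ≤
        (d : ℝ) * (d - 1) * (((d * lam) ^ 2) ^ n * (lam ^ 2 * 4)) :=
      mul_le_mul_of_nonneg_left (mul_le_mul_of_nonneg_left
        (mul_le_mul_of_nonneg_left hg (sq_nonneg _)) hP) hdd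
    have h7 : ((d * lam) ^ 2) ^ n * d * (4 * (d - 1) * lam ^ 2) ≤
        ((d * lam) ^ 2) ^ n * d * (C * (d * lam ^ 2 - 1)) :=
      mul_le_mul_of_nonneg_left hC2 (mul_nonneg hP hd0)
    calc (d : ℝ) * ∑ c, mu d lam n i c * SS d n c ^ 2 +
          (d : ℝ) * (d - 1) * (((d * lam) ^ 2) ^ n * (lam ^ 2 * gg i ^ 2))
        ≤ d * (C * ((d * lam) ^ 2) ^ n) +
          (d : ℝ) * (d - 1) * (((d * lam) ^ 2) ^ n * (lam ^ 2 * 4)) := add_le_add h5 h6
      _ ≤ C * ((d * lam) ^ 2) ^ (n + 1) := by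
          have e3 : (((d : ℝ) * lam) ^ 2) ^ (n + 1) = ((d * lam) ^ 2) ^ n * (d * lam) ^ 2 :=
            pow_succ _ _
          rw [e3]
          linarith

/-! ### the lower bound -/

theorem conf_eq (n : ℕ) (c : Conf 3 d n) : confProb 3 d lam n c =
    (leafLaw 3 d lam n 0 c + leafLaw 3 d lam n 1 c + leafLaw 3 d lam n 2 c) / 3 := by
  simp only [confProb, Fin.sum_univ_three]
  push_cast
  ring

/-- total variation distance given the configuration -/
noncomputable def tv (d : ℕ) (lam : ℝ) (n : ℕ) (c : Conf 3 d n) : ℝ :=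
  (1 / 2) * ∑ i : Fin 3, |posterior 3 d lam n i c - 1 / ((3 : ℕ) : ℝ)|

theorem tv_nonneg (n : ℕ) (c : Conf 3 d n) : 0 ≤ tv d lam n c :=
  mul_nonneg (by norm_num) (Finset.sum_nonneg fun i _ => abs_nonneg _)

theorem tv_le_one (h0 : -(1 / 2) ≤ lam) (h1 : lam ≤ 1) (n : ℕ) (c : Conf 3 d n) :
    tv d lam n c ≤ 1 := by
  have hl := leaf_nonneg (d := d) h0 h1 n
  have hp : 0 ≤ confProb 3 d lam n c := by
    rw [conf_eq]
    have a0 := hl 0 c
    have a1 := hl 1 c
    have a2 := hl 2 c
    linarith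
  have hpost : ∀ i, 0 ≤ posterior 3 d lam n i c := fun i => by
    unfold posterior
    exact div_nonneg (mul_nonneg (by norm_num) (hl i c)) hp
  have hsum : ∑ i, posterior 3 d lam n i c ≤ 1 := by
    unfold posterior
    rw [← Finset.sum_div]
    exact div_self_le_one _
  have h3 : ∀ i, |posterior 3 d lam n i c - 1 / ((3 : ℕ) : ℝ)| ≤ posterior 3 d lam n i c + 1 / 3 := by
    intro i
    have := hpost i
    rw [abs_le]
    push_cast
    constructor <;> linarith
  unfold tv
  have h4 := Finset.sum_le_sum fun (i : Fin 3) (_ : i ∈ Finset.univ) => h3 i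
  rw [Finset.sum_add_distrib] at h4
  simp only [Finset.sum_const, Finset.card_univ, Fintype.card_fin, nsmul_eq_mul] at h4
  push_cast at h4 ⊢
  linarith

/-- the signed mass of `gg` is controlled by the total variation distance -/
theorem mass_le (h0 : -(1 / 2) ≤ lam) (h1 : lam ≤ 1) (n : ℕ) (c : Conf 3 d n) :
    |∑ i, (1 / 3 : ℝ) * (gg i * leafLaw 3 d lam n i c)| ≤ 4 * (confProb 3 d lam n c * tv d lam n c) := by
  have hl := leaf_nonneg (d := d) h0 h1 n
  have a0 := hl 0 c
  have a1 := hl 1 c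
  have a2 := hl 2 c
  have hp : 0 ≤ confProb 3 d lam n c := by
    rw [conf_eq]
    linarith
  have hk : ∀ i, confProb 3 d lam n c * |posterior 3 d lam n i c - 1 / ((3 : ℕ) : ℝ)| =
      |leafLaw 3 d lam n i c - confProb 3 d lam n c| / 3 := by
    intro i
    rcases hp.eq_or_lt with h | h
    · have h4 : leafLaw 3 d lam n i c = 0 := by
        have h5 := conf_eq (d := d) (lam := lam) n c
        rw [← h] at h5
        have b0 : leafLaw 3 d lam n 0 c = 0 := by linarith
        have b1 : leafLaw 3 d lam n 1 c = 0 := by linarith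
        have b2 : leafLaw 3 d lam n 2 c = 0 := by linarith
        fin_cases i
        · exact b0
        · exact b1
        · exact b2
      rw [← h, h4]
      simp
    · have h5 : leafLaw 3 d lam n i c - confProb 3 d lam n c =
          3 * confProb 3 d lam n c * (posterior 3 d lam n i c - 1 / ((3 : ℕ) : ℝ)) := by
        unfold posterior
        have := h.ne'
        push_cast
        field_simp
      rw [h5, abs_mul, abs_of_pos (by positivity : 0 < 3 * confProb 3 d lam n c)]
      ring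
  have h6 : confProb 3 d lam n c * tv d lam n c =
      (1 / 2) * ∑ i : Fin 3, |leafLaw 3 d lam n i c - confProb 3 d lam n c| / 3 := by
    unfold tv
    rw [← mul_assoc, mul_comm (confProb 3 d lam n c) (1 / 2), mul_assoc, Finset.mul_sum]
    congr 1
    exact Finset.sum_congr rfl fun i _ => hk i
  have h7 : ∑ i, (1 / 3 : ℝ) * (gg i * leafLaw 3 d lam n i c) =
      ∑ i, (1 / 3 : ℝ) * (gg i * (leafLaw 3 d lam n i c - confProb 3 d lam n c)) := by
    have h8 : ∑ i, (1 / 3 : ℝ) * (gg i * (leafLaw 3 d lam n i c - confProb 3 d lam n c)) =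
        ∑ i, (1 / 3 : ℝ) * (gg i * leafLaw 3 d lam n i c) -
          (∑ i, gg i) * ((1 / 3) * confProb 3 d lam n c) := by
      rw [Finset.sum_mul, ← Finset.sum_sub_distrib]
      refine Finset.sum_congr rfl fun i _ => ?_
      ring
    rw [h8, gg_sum]
    ring
  rw [h7, h6]
  refine le_trans (Finset.abs_sum_le_sum_abs _ _) ?_
  rw [Finset.mul_sum, Finset.mul_sum]
  refine Finset.sum_le_sum fun i _ => ?_
  rw [abs_mul, abs_mul, abs_of_pos (by norm_num : (0 : ℝ) < 1 / 3)]
  have h9 := mul_le_mul_of_nonneg_right (gg_abs i)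
    (abs_nonneg (leafLaw 3 d lam n i c - confProb 3 d lam n c))
  linarith

theorem main_le (h0 : -(1 / 2) ≤ lam) (h1 : lam ≤ 1) {C : ℝ} (hC : 4 ≤ C)
    (hC2 : 4 * (d - 1) * lam ^ 2 ≤ C * (d * lam ^ 2 - 1)) (hl : (d : ℝ) * lam ≠ 0) (n : ℕ) :
    1 / (4 * C) ≤ aSeq 3 d lam n := by
  set P := |(d : ℝ) * lam| ^ n with hP
  have hP0 : 0 < P := by positivity
  have hC0 : 0 < C := by linarith
  set t := 2 * C * P with ht
  have ht0 : 0 < t := by positivity
  -- value of the linear statistic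
  have hA : ∑ c, (∑ i, (1 / 3 : ℝ) * (gg i * leafLaw 3 d lam n i c)) * SS d n c =
      2 * (d * lam) ^ n := by
    have : ∑ c, (∑ i, (1 / 3 : ℝ) * (gg i * leafLaw 3 d lam n i c)) * SS d n c =
        ∑ i, (1 / 3 : ℝ) * (gg i * ∑ c, leafLaw 3 d lam n i c * SS d n c) := by
      simp only [Finset.sum_mul, Finset.mul_sum]
      rw [Finset.sum_comm]
      refine Finset.sum_congr rfl fun j _ => Finset.sum_congr rfl fun c _ => ?_
      ring
    rw [this]
    simp only [leaf_S]
    have h2 : ∀ i : Fin 3, (1 / 3 : ℝ) * (gg i * ((d * lam) ^ n * gg i)) =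
        (d * lam) ^ n / 3 * (gg i * gg i) := fun i => by ring
    simp only [h2]
    rw [← Finset.mul_sum, gg_sq]
    ring
  have hA2 : 2 * P ≤ ∑ c, 4 * (confProb 3 d lam n c * tv d lam n c) * |SS d n c| := by
    have h2 : |∑ c, (∑ i, (1 / 3 : ℝ) * (gg i * leafLaw 3 d lam n i c)) * SS d n c| = 2 * P := by
      rw [hA, abs_mul, abs_of_pos (by norm_num : (0 : ℝ) < 2), abs_pow]
    rw [← h2]
    refine le_trans (Finset.abs_sum_le_sum_abs _ _) (Finset.sum_le_sum fun c _ => ?_)
    rw [abs_mul]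
    exact mul_le_mul_of_nonneg_right (mass_le h0 h1 n c) (abs_nonneg _)
  have hp : ∀ c, 0 ≤ confProb 3 d lam n c := fun c => by
    have hl := leaf_nonneg (d := d) h0 h1 n
    rw [conf_eq]
    have a0 := hl 0 c
    have a1 := hl 1 c
    have a2 := hl 2 c
    linarith
  have hB : ∑ c, confProb 3 d lam n c * SS d n c ^ 2 ≤ C * P ^ 2 := by
    have h2 : ∑ c, confProb 3 d lam n c * SS d n c ^ 2 =
        ∑ i, (1 / 3 : ℝ) * ∑ c, leafLaw 3 d lam n i c * SS d n c ^ 2 := by
      simp only [confProb, Finset.sum_mul, Finset.mul_sum]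
      rw [Finset.sum_comm]
      refine Finset.sum_congr rfl fun j _ => Finset.sum_congr rfl fun c _ => ?_
      push_cast
      ring
    rw [h2]
    have h3 : P ^ 2 = ((d * lam) ^ 2) ^ n := by
      rw [hP, ← pow_mul, mul_comm n 2, pow_mul, sq_abs]
    rw [h3]
    have h4 := fun i => leaf_SS h0 h1 hC hC2 n i
    calc ∑ i, (1 / 3 : ℝ) * ∑ c, leafLaw 3 d lam n i c * SS d n c ^ 2
        ≤ ∑ i : Fin 3, (1 / 3 : ℝ) * (C * ((d * lam) ^ 2) ^ n) :=
          Finset.sum_le_sum fun i _ => mul_le_mul_of_nonneg_left (h4 i) (by norm_num)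
      _ = C * ((d * lam) ^ 2) ^ n := by
          rw [Finset.sum_const, Finset.card_univ, Fintype.card_fin, nsmul_eq_mul]
          push_cast
          ring
  have hter : ∀ c, 4 * (confProb 3 d lam n c * tv d lam n c) * |SS d n c| ≤
      2 * (2 * C / P) * (confProb 3 d lam n c * tv d lam n c) * P ^ 2 +
        2 * (1 / (2 * C * P)) * (confProb 3 d lam n c * SS d n c ^ 2) := by
    intro c
    have a1 := tv_nonneg (d := d) (lam := lam) n c
    have a2 := tv_le_one (d := d) h0 h1 n c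
    have a3 := hp c
    have a4 := abs_nonneg (SS d n c)
    -- 2 x y ≤ t x² + y² / t
    have h5 : 2 * (tv d lam n c * |SS d n c|) ≤ t * tv d lam n c ^ 2 + |SS d n c| ^ 2 / t := by
      have h6 : 0 ≤ (t * tv d lam n c - |SS d n c|) ^ 2 / t := by positivity
      have h7 : (t * tv d lam n c - |SS d n c|) ^ 2 / t =
          t * tv d lam n c ^ 2 - 2 * (tv d lam n c * |SS d n c|) + |SS d n c| ^ 2 / t := by
        field_simp
        ring
      linarith
    have h8 : tv d lam n c ^ 2 ≤ tv d lam n c := by nlinarith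
    have h9 : 2 * (tv d lam n c * |SS d n c|) ≤ t * tv d lam n c + SS d n c ^ 2 / t := by
      rw [sq_abs] at h5
      have := mul_le_mul_of_nonneg_left h8 ht0.le
      linarith
    have h10 := mul_le_mul_of_nonneg_left h9 a3
    have e1 : 2 * (2 * C / P) * (confProb 3 d lam n c * tv d lam n c) * P ^ 2 =
        2 * (confProb 3 d lam n c * (t * tv d lam n c)) := by
      rw [ht]
      field_simp
      try ring
    have e2 : 2 * (1 / (2 * C * P)) * (confProb 3 d lam n c * SS d n c ^ 2) =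
        2 * (confProb 3 d lam n c * (SS d n c ^ 2 / t)) := by
      rw [ht]
      field_simp
      try ring
    rw [e1, e2]
    linarith
  have hsum := le_trans hA2 (Finset.sum_le_sum fun c _ => hter c)
  rw [Finset.sum_add_distrib, ← Finset.sum_mul, ← Finset.mul_sum, ← Finset.mul_sum] at hsum
  have ha : aSeq 3 d lam n = ∑ c, confProb 3 d lam n c * tv d lam n c := rfl
  rw [← ha] at hsum
  have h11 : 2 * (1 / (2 * C * P)) * ∑ c, confProb 3 d lam n c * SS d n c ^ 2 ≤
      2 * (1 / (2 * C * P)) * (C * P ^ 2) := mul_le_mul_of_nonneg_left hB (by positivity)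
  have h12 : 2 * (1 / (2 * C * P)) * (C * P ^ 2) = P := by
    field_simp
  have h13 : 2 * (2 * C / P) * aSeq 3 d lam n * P ^ 2 = 4 * C * aSeq 3 d lam n * P := by
    field_simp
    ring
  rw [h13] at hsum
  have h14 : P * 1 ≤ P * (4 * C * aSeq 3 d lam n) := by linarith
  have h15 : 1 ≤ 4 * C * aSeq 3 d lam n := le_of_mul_le_mul_left h14 hP0
  rw [div_le_iff₀ (by positivity)]
  linarith

/-- Kesten-Stigum: reconstruction on the `d`-ary tree when `d * lam ^ 2 > 1` -/
theorem ks {d : ℕ} {lam : ℝ} (h0 : -(1 / 2) ≤ lam) (h1 : lam ≤ 1) (h : 1 < (d : ℝ) * lam ^ 2) :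
    ∃ ε > 0, ∀ n, ε ≤ aSeq 3 d lam n := by
  set ρ := (d : ℝ) * lam ^ 2 with hρ
  have hρ1 : 0 < ρ - 1 := by linarith
  have hC : 4 ≤ 4 * ρ / (ρ - 1) := by
    rw [le_div_iff₀ hρ1]
    linarith
  have hC2 : 4 * (d - 1) * lam ^ 2 ≤ 4 * ρ / (ρ - 1) * (d * lam ^ 2 - 1) := by
    rw [← hρ, div_mul_cancel₀ _ hρ1.ne']
    have := sq_nonneg lam
    nlinarith
  have hl : (d : ℝ) * lam ≠ 0 := by
    intro h2
    have h3 : ρ = (d * lam) * lam := by rw [hρ]; ring
    rw [h2] at h3
    linarith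
  have hC0 : 0 < 4 * (4 * ρ / (ρ - 1)) := by linarith
  exact ⟨1 / (4 * (4 * ρ / (ρ - 1))), by positivity, fun n => main_le h0 h1 hC hC2 hl n⟩

end Vale.Agent.Potts.KS
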