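import Mathlib
import Vale.Agent.Potts.GWScalar

/-! P154: Kesten-Stigum direction on Galton-Watson trees, moments of product laws. -/

namespace Vale.Agent.Potts.KSG

open Finset

section prod

variable {k : ℕ} {κ : Fin k → Type} [∀ i, Fintype (κ i)]

theorem sum_prod_pi [inst : Fintype ((i : Fin k) → κ i)] (f : ∀ i, κ i → ℝ) :
    ∑ c : (i : Fin k) → κ i, ∏ i, f i (c i) = ∏ i, ∑ a, f i a := by
  have h := Finset.prod_univ_sum (fun i => (Finset.univ : Finset (κ i))) f
  rw [Fintype.piFinset_univ] at h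
  rw [h]
  exact Finset.sum_congr (by ext x; simp) fun _ _ => rfl

variable (w : ∀ i, κ i → ℝ) (hw : ∀ i, ∑ a, w i a = 1) (S : ∀ i, κ i → ℝ)

include hw

theorem mass_one [inst : Fintype ((i : Fin k) → κ i)] :
    ∑ c : (i : Fin k) → κ i, ∏ i, w i (c i) = 1 := by
  rw [sum_prod_pi]
  simp [hw]

theorem mean_one [inst : Fintype ((i : Fin k) → κ i)] (a : Fin k) (U : κ a → ℝ) :
    ∑ c : (i : Fin k) → κ i, (∏ i, w i (c i)) * U (c a) = ∑ x, w a x * U x := by
  have h1 : ∀ c : (i : Fin k) → κ i, (∏ i, w i (c i)) * U (c a) =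
      ∏ i, (fun (i : Fin k) (x : κ i) => w i x * (if h : i = a then U (h ▸ x) else 1)) i (c i) := by
    intro c
    simp only [Finset.prod_mul_distrib]
    congr 1
    rw [Finset.prod_eq_single a]
    · simp
    · intro b _ hb; simp [hb]
    · intro h; exact absurd (Finset.mem_univ a) h
  rw [Finset.sum_congr rfl fun c _ => h1 c, sum_prod_pi
    (fun (i : Fin k) (x : κ i) => w i x * (if h : i = a then U (h ▸ x) else 1)),
    Finset.prod_eq_single a]
  · simp
  · intro b _ hb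
    simp [hb, hw]
  · intro h; exact absurd (Finset.mem_univ a) h

theorem mean_two [inst : Fintype ((i : Fin k) → κ i)] (a b : Fin k) (hab : a ≠ b)
    (U : κ a → ℝ) (V : κ b → ℝ) :
    ∑ c : (i : Fin k) → κ i, (∏ i, w i (c i)) * (U (c a) * V (c b)) =
      (∑ x, w a x * U x) * ∑ x, w b x * V x := by
  have h1 : ∀ c : (i : Fin k) → κ i, (∏ i, w i (c i)) * (U (c a) * V (c b)) =
      ∏ i, (fun (i : Fin k) (x : κ i) => w i x * ((if h : i = a then U (h ▸ x) else 1) *
        (if h : i = b then V (h ▸ x) else 1))) i (c i) := by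
    intro c
    simp only [Finset.prod_mul_distrib]
    congr 1
    congr 1
    · rw [Finset.prod_eq_single a]
      · simp
      · intro b _ hb; simp [hb]
      · intro h; exact absurd (Finset.mem_univ a) h
    · rw [Finset.prod_eq_single b]
      · simp
      · intro b _ hb; simp [hb]
      · intro h; exact absurd (Finset.mem_univ b) h
  rw [Finset.sum_congr rfl fun c _ => h1 c, sum_prod_pi
    (fun (i : Fin k) (x : κ i) => w i x * ((if h : i = a then U (h ▸ x) else 1) *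
        (if h : i = b then V (h ▸ x) else 1)))]
  have h2 : ∏ i, ∑ x, w i x * ((if h : i = a then U (h ▸ x) else 1) *
        (if h : i = b then V (h ▸ x) else 1)) =
      ∏ i, ((if i = a then (∑ x, w a x * U x) else 1) * (if i = b then (∑ x, w b x * V x) else 1)) := by
    refine Finset.prod_congr rfl fun i _ => ?_
    by_cases ha : i = a
    · subst ha
      simp [hab]
    · by_cases hb : i = b
      · subst hb
        simp [ha]
      · simp [ha, hb, hw]
  rw [h2, Finset.prod_mul_distrib, Finset.prod_ite_eq', Finset.prod_ite_eq']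
  simp

/-- mean of a sum of independent variables -/
theorem mean_sum [inst : Fintype ((i : Fin k) → κ i)] :
    ∑ c : (i : Fin k) → κ i, (∏ i, w i (c i)) * ∑ m, S m (c m) = ∑ m, ∑ x, w m x * S m x := by
  simp_rw [Finset.mul_sum]
  rw [Finset.sum_comm]
  exact Finset.sum_congr rfl fun m _ => mean_one w hw m (S m)

/-- second moment of a sum of independent variables -/
theorem second_sum [inst : Fintype ((i : Fin k) → κ i)] :
    ∑ c : (i : Fin k) → κ i, (∏ i, w i (c i)) * (∑ m, S m (c m)) ^ 2 =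
      ∑ m, ∑ x, w m x * S m x ^ 2 + ((∑ m, ∑ x, w m x * S m x) ^ 2 -
        ∑ m, (∑ x, w m x * S m x) ^ 2) := by
  have h1 : ∀ c : (i : Fin k) → κ i, (∏ i, w i (c i)) * (∑ m, S m (c m)) ^ 2 =
      ∑ a, ∑ b, (∏ i, w i (c i)) * (S a (c a) * S b (c b)) := by
    intro c
    rw [sq, Finset.sum_mul_sum, Finset.mul_sum]
    exact Finset.sum_congr rfl fun a _ => Finset.mul_sum _ _ _
  rw [Finset.sum_congr rfl fun c _ => h1 c, Finset.sum_comm]
  have h2 : ∀ a, ∑ c : (i : Fin k) → κ i, ∑ b, (∏ i, w i (c i)) * (S a (c a) * S b (c b)) =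
      ∑ b, ((∑ x, w a x * S a x) * (∑ x, w b x * S b x) +
        if a = b then ((∑ x, w a x * S a x ^ 2) - (∑ x, w a x * S a x) ^ 2) else 0) := by
    intro a
    rw [Finset.sum_comm]
    refine Finset.sum_congr rfl fun b _ => ?_
    by_cases hab : a = b
    · subst hab
      have := mean_one w hw a (fun x => S a x ^ 2)
      simp only [if_true]
      have e : ∀ c : (i : Fin k) → κ i, (∏ i, w i (c i)) * (S a (c a) * S a (c a)) =
          (∏ i, w i (c i)) * (S a (c a) ^ 2) := fun c => by ring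
      rw [Finset.sum_congr rfl fun c _ => e c, this]
      ring
    · rw [mean_two w hw a b hab (S a) (S b)]
      simp [hab]
  rw [Finset.sum_congr rfl fun a _ => h2 a]
  simp only [Finset.sum_add_distrib, Finset.sum_ite_eq, Finset.mem_univ, if_true,
    Finset.sum_sub_distrib]
  rw [sq (∑ m, ∑ x, w m x * S m x), Finset.sum_mul_sum]
  ring

end prod

section inf

theorem hasSum_mul' {α β : Type*} {f : α → ℝ} {g : β → ℝ} {s t : ℝ} (hf : HasSum f s)
    (hg : HasSum g t) (hf0 : ∀ a, 0 ≤ f a) (hg0 : ∀ b, 0 ≤ g b) :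
    HasSum (fun x : α × β => f x.1 * g x.2) (s * t) :=
  HasSum.mul hf hg (Summable.mul_of_nonneg hf.summable hg.summable hf0 hg0)

/-- linear functional of `k` independent trees -/
theorem hasSum_lin {α : Type*} {w v : α → ℝ} {V : ℝ} (hw0 : ∀ a, 0 ≤ w a) (hw : HasSum w 1)
    (hv0 : ∀ a, 0 ≤ v a) (hv : HasSum (fun a => w a * v a) V) (k : ℕ) :
    HasSum (fun c : Fin k → α => (∏ i, w (c i)) * ∑ i, v (c i)) (k * V) := by
  induction k with
  | zero =>
    have h := hasSum_unique (fun c : Fin 0 → α => (∏ i, w (c i)) * ∑ i, v (c i))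
    simpa using h
  | succ k ih =>
    have hP := hasSum_prod_pow hw0 hw k
    rw [one_pow] at hP
    have hP0 : ∀ c : Fin k → α, 0 ≤ ∏ i, w (c i) := fun c => prod_nonneg fun i _ => hw0 _
    have hL0 : ∀ c : Fin k → α, 0 ≤ (∏ i, w (c i)) * ∑ i, v (c i) := fun c =>
      mul_nonneg (hP0 c) (sum_nonneg fun i _ => hv0 _)
    have hwv0 : ∀ a, 0 ≤ w a * v a := fun a => mul_nonneg (hw0 a) (hv0 a)
    have s1 := hasSum_mul' (f := fun a => w a * v a) (g := fun c : Fin k → α => ∏ i, w (c i)) hv hP hwv0 hP0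
    have s2 := hasSum_mul' (f := w) (g := fun c : Fin k → α => (∏ i, w (c i)) * ∑ i, v (c i)) hw ih hw0 hL0
    have h := s1.add s2
    have e : (fun c : Fin (k + 1) → α => (∏ i, w (c i)) * ∑ i, v (c i)) ∘
        (Fin.consEquiv (fun _ : Fin (k + 1) => α)) =
        fun x : α × (Fin k → α) => w x.1 * v x.1 * (∏ i, w (x.2 i)) +
          w x.1 * ((∏ i, w (x.2 i)) * ∑ i, v (x.2 i)) := by
      funext x
      simp only [Function.comp, Fin.prod_univ_succ, Fin.sum_univ_succ]
      change w x.1 * (∏ i, w (x.2 i)) * (v x.1 + ∑ i, v (x.2 i)) = _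
      ring
    rw [← e] at h
    have h3 := (Equiv.hasSum_iff (Fin.consEquiv (fun _ : Fin (k + 1) => α))).1 h
    convert h3 using 1
    push_cast
    ring

/-- pair functional of `k` independent trees -/
theorem hasSum_pair {α : Type*} {w u : α → ℝ} {U : ℝ} (hw0 : ∀ a, 0 ≤ w a) (hw : HasSum w 1)
    (hu0 : ∀ a, 0 ≤ u a) (hu : HasSum (fun a => w a * u a) U) (k : ℕ) :
    HasSum (fun c : Fin k → α => (∏ i, w (c i)) * ((∑ i, u (c i)) ^ 2 - ∑ i, u (c i) ^ 2))
      (k * (k - 1) * U ^ 2) := by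
  induction k with
  | zero =>
    have h := hasSum_unique (fun c : Fin 0 → α =>
      (∏ i, w (c i)) * ((∑ i, u (c i)) ^ 2 - ∑ i, u (c i) ^ 2))
    simpa using h
  | succ k ih =>
    have hL := hasSum_lin hw0 hw hu0 hu k
    have hP0 : ∀ c : Fin k → α, 0 ≤ ∏ i, w (c i) := fun c => prod_nonneg fun i _ => hw0 _
    have hL0 : ∀ c : Fin k → α, 0 ≤ (∏ i, w (c i)) * ∑ i, u (c i) := fun c =>
      mul_nonneg (hP0 c) (sum_nonneg fun i _ => hu0 _)
    have hQ0 : ∀ c : Fin k → α, 0 ≤ (∏ i, w (c i)) * ((∑ i, u (c i)) ^ 2 - ∑ i, u (c i) ^ 2) :=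
      fun c => mul_nonneg (hP0 c) (sub_nonneg.2
        (Finset.sum_sq_le_sq_sum_of_nonneg fun i _ => hu0 _))
    have hwu0 : ∀ a, 0 ≤ w a * u a := fun a => mul_nonneg (hw0 a) (hu0 a)
    have s1 := hasSum_mul' (f := fun a => w a * u a) (g := fun c : Fin k → α => (∏ i, w (c i)) * ∑ i, u (c i)) hu hL hwu0 hL0
    have s2 := hasSum_mul' (f := w) (g := fun c : Fin k → α =>
      (∏ i, w (c i)) * ((∑ i, u (c i)) ^ 2 - ∑ i, u (c i) ^ 2)) hw ih hw0 hQ0
    have h := (s1.mul_left 2).add s2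
    have e : (fun c : Fin (k + 1) → α =>
        (∏ i, w (c i)) * ((∑ i, u (c i)) ^ 2 - ∑ i, u (c i) ^ 2)) ∘
        (Fin.consEquiv (fun _ : Fin (k + 1) => α)) =
        fun x : α × (Fin k → α) => 2 * (w x.1 * u x.1 * ((∏ i, w (x.2 i)) * ∑ i, u (x.2 i))) +
          w x.1 * ((∏ i, w (x.2 i)) * ((∑ i, u (x.2 i)) ^ 2 - ∑ i, u (x.2 i) ^ 2)) := by
      funext x
      simp only [Function.comp, Fin.prod_univ_succ, Fin.sum_univ_succ]
      change w x.1 * (∏ i, w (x.2 i)) * ((u x.1 + ∑ i, u (x.2 i)) ^ 2 -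
        (u x.1 ^ 2 + ∑ i, u (x.2 i) ^ 2)) = _
      ring
    rw [← e] at h
    have h3 := (Equiv.hasSum_iff (Fin.consEquiv (fun _ : Fin (k + 1) => α))).1 h
    have e4 : (2 * (U * (k * U)) + 1 * (k * (k - 1) * U ^ 2) : ℝ) =
        ((k + 1 : ℕ) : ℝ) * (((k + 1 : ℕ) : ℝ) - 1) * U ^ 2 := by push_cast; ring
    rw [e4] at h3
    exact h3

/-- one generation -/
theorem hasSum_gen {p : ℕ → ℝ} (hp0 : ∀ k, 0 ≤ p k) {n : ℕ} {F : (k : ℕ) → (Fin k → Tr n) → ℝ}
    (hF0 : ∀ k c, 0 ≤ F k c) {G : ℕ → ℝ} (hF : ∀ k, HasSum (F k) (G k)) {S : ℝ}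
    (hS : HasSum (fun k => p k * G k) S) :
    HasSum (fun t : Tr (n + 1) => p t.1 * F t.1 t.2) S := by
  have hin : ∀ k, HasSum (fun c : Fin k → Tr n => p k * F k c) (p k * G k) :=
    fun k => (hF k).mul_left (p k)
  refine HasSum.sigma_of_hasSum (f := fun t : (Σ k : ℕ, (Fin k → Tr n)) => p t.1 * F t.1 t.2)
    hS hin ?_
  rw [summable_sigma_of_nonneg (fun t => mul_nonneg (hp0 _) (hF0 _ _))]
  refine ⟨fun k => (hin k).summable, ?_⟩
  have : (fun k => ∑' c : Fin k → Tr n, p k * F k c) = fun k => p k * G k :=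
    funext fun k => (hin k).tsum_eq
  exact this ▸ hS.summable

end inf

end Vale.Agent.Potts.KSG
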