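import Mathlib
import Vale.Agent.Potts.KSProd

/-! P154: the linear statistic on a tree. -/

namespace Vale.Agent.Potts.KSG

open Finset

/-- the linear statistic of a spin -/
noncomputable def gg (i : Fin 3) : ℝ := if i = 0 then 2 else -1

/-- number of vertices at distance `n` -/
noncomputable def Zt : (n : ℕ) → Tr n → ℝ
  | 0, _ => 1
  | n + 1, ⟨_, ch⟩ => ∑ m, Zt n (ch m)

/-- sum of `gg` over the level-`n` spins -/
noncomputable def St : (n : ℕ) → (t : Tr n) → TConf 3 n t → ℝ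
  | 0, _, c => gg (show Fin 3 from c)
  | n + 1, ⟨_, ch⟩, c => ∑ m, St n (ch m) (c m)

theorem Zt_nonneg : ∀ (n : ℕ) (t : Tr n), 0 ≤ Zt n t
  | 0, _ => zero_le_one
  | n + 1, ⟨_, ch⟩ => sum_nonneg fun m _ => Zt_nonneg n (ch m)

/-- law of the spins below child `m` given the root spin -/
noncomputable def Wt (lam : ℝ) (n : ℕ) {k : ℕ} (ch : Fin k → Tr n) (i : Fin 3) (m : Fin k)
    (c : TConf 3 n (ch m)) : ℝ :=
  ∑ j : Fin 3, channel 3 lam i j * tLaw 3 lam n (ch m) j c

theorem channel_row (lam : ℝ) (i : Fin 3) : ∑ j, channel 3 lam i j = 1 := by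
  simp [channel, Finset.sum_add_distrib]
  ring

theorem channel_col (lam : ℝ) (j : Fin 3) : ∑ i, channel 3 lam i j = 1 := by
  simp [channel, Finset.sum_add_distrib]
  ring

theorem channel_gg (lam : ℝ) (i : Fin 3) : ∑ j, channel 3 lam i j * gg j = lam * gg i := by
  rw [Fin.sum_univ_three]
  fin_cases i <;> simp [channel, gg] <;> ring

theorem gg_sum : ∑ i, gg i = 0 := by
  rw [Fin.sum_univ_three]; simp [gg]; norm_num

theorem gg_sq : ∑ i, gg i ^ 2 = 6 := by
  rw [Fin.sum_univ_three]; simp [gg]; norm_num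

/-- the law is a probability and the mean of the statistic -/
theorem moments (lam : ℝ) : ∀ (n : ℕ) (t : Tr n) (i : Fin 3),
    ∑ c, tLaw 3 lam n t i c = 1 ∧
    ∑ c, tLaw 3 lam n t i c * St n t c = lam ^ n * Zt n t * gg i
  | 0, t, i => by
    constructor
    · change ∑ c : Fin 3, (if c = i then (1:ℝ) else 0) = 1
      simp
    · change ∑ c : Fin 3, (if c = i then (1:ℝ) else 0) * gg c = lam ^ 0 * 1 * gg i
      simp
  | n + 1, ⟨k, ch⟩, i => by
    have ih := fun m j => moments lam n (ch m) j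
    have w1 : ∀ m, ∑ c, Wt lam n ch i m c = 1 := by
      intro m
      simp only [Wt]
      rw [Finset.sum_comm]
      simp_rw [← Finset.mul_sum, (ih m _).1, mul_one]
      exact channel_row lam i
    have w2 : ∀ m, ∑ c, Wt lam n ch i m c * St n (ch m) c = lam ^ (n + 1) * Zt n (ch m) * gg i := by
      intro m
      simp only [Wt, Finset.sum_mul]
      rw [Finset.sum_comm]
      have : ∀ j, ∑ c, channel 3 lam i j * tLaw 3 lam n (ch m) j c * St n (ch m) c =
          lam ^ n * Zt n (ch m) * (channel 3 lam i j * gg j) := by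
        intro j
        simp_rw [mul_assoc, ← Finset.mul_sum]
        rw [(ih m j).2]
        ring
      rw [Finset.sum_congr rfl fun j _ => this j, ← Finset.mul_sum, channel_gg]
      ring
    constructor
    · exact mass_one (κ := fun m => TConf 3 n (ch m)) (fun m c => Wt lam n ch i m c) w1
    · have h := mean_sum (κ := fun m => TConf 3 n (ch m)) (fun m c => Wt lam n ch i m c) w1
        (fun m c => St n (ch m) c)
      have e : ∑ m, ∑ x, Wt lam n ch i m x * St n (ch m) x =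
          lam ^ (n + 1) * (∑ m, Zt n (ch m)) * gg i := by
        rw [Finset.sum_congr rfl fun m _ => w2 m, Finset.mul_sum, Finset.sum_mul]
      rw [e] at h
      exact h

/-- second moment of the statistic for a uniform root spin -/
noncomputable def Bt (lam : ℝ) (n : ℕ) (t : Tr n) : ℝ :=
  ∑ c, tProb 3 lam n t c * St n t c ^ 2

theorem Bt_eq (lam : ℝ) (n : ℕ) (t : Tr n) :
    Bt lam n t = (1 / 3) * ∑ i, ∑ c, tLaw 3 lam n t i c * St n t c ^ 2 := by
  simp only [Bt, tProb, Finset.sum_mul]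
  rw [Finset.sum_comm, Finset.mul_sum]
  refine Finset.sum_congr rfl fun i _ => ?_
  rw [Finset.mul_sum]
  refine Finset.sum_congr rfl fun c _ => ?_
  push_cast
  ring

theorem Bt_zero (lam : ℝ) (t : Tr 0) : Bt lam 0 t = 2 := by
  rw [Bt_eq]
  have : ∀ i : Fin 3, ∑ c, tLaw 3 lam 0 t i c * St 0 t c ^ 2 = gg i ^ 2 := by
    intro i
    change ∑ c : Fin 3, (if c = i then (1:ℝ) else 0) * gg c ^ 2 = gg i ^ 2
    simp
  rw [Finset.sum_congr rfl fun i _ => this i, gg_sq]
  norm_num

/-- the tree with subtrees `ch` -/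
def nd {n k : ℕ} (ch : Fin k → Tr n) : Tr (n + 1) := (⟨k, ch⟩ : Σ k : ℕ, (Fin k → Tr n))

theorem Bt_succ (lam : ℝ) (n k : ℕ) (ch : Fin k → Tr n) :
    Bt lam (n + 1) (nd ch) = ∑ m, Bt lam n (ch m) +
      2 * (lam ^ 2) ^ (n + 1) * ((∑ m, Zt n (ch m)) ^ 2 - ∑ m, Zt n (ch m) ^ 2) := by
  rw [Bt_eq]
  have ih := fun m j => moments lam n (ch m) j
  have key : ∀ i : Fin 3, ∑ c, tLaw 3 lam (n + 1) (nd ch) i c * St (n + 1) (nd ch) c ^ 2 =
      ∑ m, ∑ j, channel 3 lam i j * (∑ c, tLaw 3 lam n (ch m) j c * St n (ch m) c ^ 2) +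
      (lam ^ (n + 1) * gg i) ^ 2 * ((∑ m, Zt n (ch m)) ^ 2 - ∑ m, Zt n (ch m) ^ 2) := by
    intro i
    have w1 : ∀ m, ∑ c, Wt lam n ch i m c = 1 := by
      intro m
      simp only [Wt]
      rw [Finset.sum_comm]
      simp_rw [← Finset.mul_sum, (ih m _).1, mul_one]
      exact channel_row lam i
    have w2 : ∀ m, ∑ c, Wt lam n ch i m c * St n (ch m) c = lam ^ (n + 1) * gg i * Zt n (ch m) := by
      intro m
      simp only [Wt, Finset.sum_mul]
      rw [Finset.sum_comm]
      have : ∀ j, ∑ c, channel 3 lam i j * tLaw 3 lam n (ch m) j c * St n (ch m) c =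
          lam ^ n * Zt n (ch m) * (channel 3 lam i j * gg j) := by
        intro j
        simp_rw [mul_assoc, ← Finset.mul_sum]
        rw [(ih m j).2]
        ring
      rw [Finset.sum_congr rfl fun j _ => this j, ← Finset.mul_sum, channel_gg]
      ring
    have w3 : ∀ m, ∑ c, Wt lam n ch i m c * St n (ch m) c ^ 2 =
        ∑ j, channel 3 lam i j * (∑ c, tLaw 3 lam n (ch m) j c * St n (ch m) c ^ 2) := by
      intro m
      simp only [Wt, Finset.sum_mul]
      rw [Finset.sum_comm]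
      refine Finset.sum_congr rfl fun j _ => ?_
      rw [Finset.mul_sum]
      exact Finset.sum_congr rfl fun c _ => by ring
    have h := second_sum (κ := fun m => TConf 3 n (ch m)) (fun m c => Wt lam n ch i m c) w1
      (fun m c => St n (ch m) c)
    rw [Finset.sum_congr rfl fun m _ => w3 m, Finset.sum_congr rfl fun m _ => w2 m,
      ← Finset.mul_sum] at h
    have e : ∑ m, (∑ x, Wt lam n ch i m x * St n (ch m) x) ^ 2 =
        (lam ^ (n + 1) * gg i) ^ 2 * ∑ m, Zt n (ch m) ^ 2 := by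
      rw [Finset.mul_sum]
      exact Finset.sum_congr rfl fun m _ => by rw [w2]; ring
    rw [e] at h
    refine h.trans ?_
    ring
  rw [Finset.sum_congr rfl fun i _ => key i, Finset.sum_add_distrib]
  have e1 : ∑ i : Fin 3, ∑ m, ∑ j, channel 3 lam i j *
      (∑ c, tLaw 3 lam n (ch m) j c * St n (ch m) c ^ 2) = 3 * ∑ m, Bt lam n (ch m) := by
    rw [Finset.sum_comm, Finset.mul_sum]
    refine Finset.sum_congr rfl fun m _ => ?_
    rw [Finset.sum_comm, Bt_eq]
    simp_rw [← Finset.sum_mul, channel_col, one_mul]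
    ring
  have e2 : ∑ i : Fin 3, (lam ^ (n + 1) * gg i) ^ 2 *
      ((∑ m, Zt n (ch m)) ^ 2 - ∑ m, Zt n (ch m) ^ 2) =
      6 * (lam ^ 2) ^ (n + 1) * ((∑ m, Zt n (ch m)) ^ 2 - ∑ m, Zt n (ch m) ^ 2) := by
    have : ∀ i : Fin 3, (lam ^ (n + 1) * gg i) ^ 2 *
      ((∑ m, Zt n (ch m)) ^ 2 - ∑ m, Zt n (ch m) ^ 2) = gg i ^ 2 * ((lam ^ 2) ^ (n + 1) *
      ((∑ m, Zt n (ch m)) ^ 2 - ∑ m, Zt n (ch m) ^ 2)) := by
      intro i; ring
    rw [Finset.sum_congr rfl fun i _ => this i, ← Finset.sum_mul, gg_sq]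
    ring
  rw [e1, e2]
  ring

end Vale.Agent.Potts.KSG
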