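import Mathlib
import Vale.Agent.Potts.KSTree

/-! P154: the Kesten-Stigum direction on Galton-Watson trees, `q = 3`. -/

namespace Vale.Agent.Potts.KSG

open Finset

theorem channel_nonneg {lam : ℝ} (h0 : -(1 / 2) ≤ lam) (h1 : lam ≤ 1) (i j : Fin 3) :
    0 ≤ channel 3 lam i j := by
  simp only [channel]
  push_cast
  split_ifs <;> linarith

theorem tLaw_nonneg {lam : ℝ} (h0 : -(1 / 2) ≤ lam) (h1 : lam ≤ 1) :
    ∀ (n : ℕ) (t : Tr n) (i : Fin 3) (c : TConf 3 n t), 0 ≤ tLaw 3 lam n t i c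
  | 0, t, i, c => by
    change (0:ℝ) ≤ if (show Fin 3 from c) = i then 1 else 0
    split_ifs <;> norm_num
  | n + 1, ⟨k, ch⟩, i, c => by
    change (0:ℝ) ≤ ∏ m : Fin k, ∑ j : Fin 3, channel 3 lam i j * tLaw 3 lam n (ch m) j (c m)
    exact prod_nonneg fun m _ => sum_nonneg fun j _ =>
      mul_nonneg (channel_nonneg h0 h1 i j) (tLaw_nonneg h0 h1 n (ch m) j (c m))

section
variable {lam : ℝ} (h0 : -(1 / 2) ≤ lam) (h1 : lam ≤ 1)
include h0 h1

theorem tProb_nonneg (n : ℕ) (t : Tr n) (c : TConf 3 n t) : 0 ≤ tProb 3 lam n t c :=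
  sum_nonneg fun i _ => mul_nonneg (by positivity) (tLaw_nonneg h0 h1 n t i c)

theorem tProb_mul_post (n : ℕ) (t : Tr n) (i : Fin 3) (c : TConf 3 n t) :
    tProb 3 lam n t c * tPost 3 lam n t i c = 1 / 3 * tLaw 3 lam n t i c := by
  have hnn := tProb_nonneg h0 h1 n t c
  rcases eq_or_lt_of_le hnn with h | h
  · have h2 : (1 / ((3:ℕ):ℝ)) * tLaw 3 lam n t i c ≤ tProb 3 lam n t c :=
      Finset.single_le_sum (f := fun i => (1 / ((3:ℕ):ℝ)) * tLaw 3 lam n t i c)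
        (fun j _ => mul_nonneg (by positivity) (tLaw_nonneg h0 h1 n t j c)) (Finset.mem_univ i)
    have h3 := tLaw_nonneg h0 h1 n t i c
    push_cast at h2
    rw [← h] at h2 ⊢
    linarith
  · rw [tPost, mul_div_cancel₀ _ h.ne']
    push_cast
    ring

theorem tPost_mem (n : ℕ) (t : Tr n) (i : Fin 3) (c : TConf 3 n t) :
    0 ≤ tPost 3 lam n t i c ∧ tPost 3 lam n t i c ≤ 1 := by
  have hnn := tProb_nonneg h0 h1 n t c
  have h2 : (1 / ((3:ℕ):ℝ)) * tLaw 3 lam n t i c ≤ tProb 3 lam n t c :=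
      Finset.single_le_sum (f := fun i => (1 / ((3:ℕ):ℝ)) * tLaw 3 lam n t i c)
        (fun j _ => mul_nonneg (by positivity) (tLaw_nonneg h0 h1 n t j c)) (Finset.mem_univ i)
  have h3 := tLaw_nonneg h0 h1 n t i c
  exact ⟨div_nonneg (mul_nonneg (by positivity) h3) hnn, div_le_one_of_le₀ h2 hnn⟩

theorem abs_post (n : ℕ) (t : Tr n) (i : Fin 3) (c : TConf 3 n t) :
    |tPost 3 lam n t i c - 1 / ((3:ℕ):ℝ)| ≤ 1 := by
  obtain ⟨h2, h3⟩ := tPost_mem h0 h1 n t i c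
  push_cast
  rw [abs_le]; constructor <;> linarith

theorem Bt_nn (n : ℕ) (t : Tr n) : 0 ≤ Bt lam n t :=
  sum_nonneg fun c _ => mul_nonneg (tProb_nonneg h0 h1 n t c) (sq_nonneg _)

theorem sum_tProb (n : ℕ) (t : Tr n) : ∑ c, tProb 3 lam n t c = 1 := by
  simp only [tProb]
  rw [Finset.sum_comm]
  simp_rw [← Finset.mul_sum, (moments lam n t _).1]
  simp

theorem aTree_abs (n : ℕ) (t : Tr n) : |aTree 3 lam n t| ≤ 3 / 2 := by
  have hnn : 0 ≤ aTree 3 lam n t := sum_nonneg fun c _ =>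
    mul_nonneg (tProb_nonneg h0 h1 n t c) (by positivity)
  rw [abs_of_nonneg hnn]
  calc aTree 3 lam n t ≤ ∑ c, tProb 3 lam n t c * (3 / 2) := by
        refine Finset.sum_le_sum fun c _ => mul_le_mul_of_nonneg_left ?_ (tProb_nonneg h0 h1 n t c)
        rw [Fin.sum_univ_three]
        have := abs_post h0 h1 n t 0 c
        have := abs_post h0 h1 n t 1 c
        have := abs_post h0 h1 n t 2 c
        linarith
    _ = 3 / 2 := by rw [← Finset.sum_mul, sum_tProb h0 h1, one_mul]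

/-- lower bound given the tree -/
theorem aTree_ge (n : ℕ) (t : Tr n) (θ : ℝ) :
    1 / 2 * (4 / 3 * θ * (lam ^ n * Zt n t) - θ ^ 2 * Bt lam n t) ≤ aTree 3 lam n t := by
  have e1 : ∑ c, tProb 3 lam n t c * ((tPost 3 lam n t 0 c - 1 / 3) * St n t c) =
      2 / 3 * (lam ^ n * Zt n t) := by
    have : ∀ c, tProb 3 lam n t c * ((tPost 3 lam n t 0 c - 1 / 3) * St n t c) =
        1 / 3 * (tLaw 3 lam n t 0 c * St n t c) - 1 / 9 * ∑ i, tLaw 3 lam n t i c * St n t c := by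
      intro c
      have h := tProb_mul_post h0 h1 n t 0 c
      have h2 : tProb 3 lam n t c = 1 / 3 * ∑ i, tLaw 3 lam n t i c := by
        simp only [tProb]; rw [← Finset.mul_sum]; push_cast; ring
      calc tProb 3 lam n t c * ((tPost 3 lam n t 0 c - 1 / 3) * St n t c)
          = (tProb 3 lam n t c * tPost 3 lam n t 0 c) * St n t c -
            1 / 3 * tProb 3 lam n t c * St n t c := by ring
        _ = _ := by
          rw [h, h2, ← Finset.sum_mul]; ring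
    rw [Finset.sum_congr rfl fun c _ => this c, Finset.sum_sub_distrib, ← Finset.mul_sum,
      ← Finset.mul_sum, (moments lam n t 0).2, Finset.sum_comm]
    have h3 : ∑ i, ∑ c, tLaw 3 lam n t i c * St n t c = 0 := by
      rw [Finset.sum_congr rfl fun i _ => (moments lam n t i).2, ← Finset.mul_sum, gg_sum, mul_zero]
    rw [h3]
    simp only [gg, if_true]
    ring
  have e2 : 1 / 2 * (4 / 3 * θ * (lam ^ n * Zt n t) - θ ^ 2 * Bt lam n t) =
      ∑ c, tProb 3 lam n t c * (1 / 2 * (2 * θ * ((tPost 3 lam n t 0 c - 1 / 3) * St n t c) -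
        θ ^ 2 * St n t c ^ 2)) := by
    have : ∀ c, tProb 3 lam n t c * (1 / 2 * (2 * θ * ((tPost 3 lam n t 0 c - 1 / 3) * St n t c) -
        θ ^ 2 * St n t c ^ 2)) = θ * (tProb 3 lam n t c * ((tPost 3 lam n t 0 c - 1 / 3) *
        St n t c)) - θ ^ 2 / 2 * (tProb 3 lam n t c * St n t c ^ 2) := fun c => by ring
    rw [Finset.sum_congr rfl fun c _ => this c, Finset.sum_sub_distrib, ← Finset.mul_sum,
      ← Finset.mul_sum, e1, ← Bt]
    ring
  rw [e2]
  refine Finset.sum_le_sum fun c _ => mul_le_mul_of_nonneg_left ?_ (tProb_nonneg h0 h1 n t c)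
  refine mul_le_mul_of_nonneg_left ?_ (by norm_num)
  rw [Fin.sum_univ_three]
  have a0 := abs_post h0 h1 n t 0 c
  have a1 := abs_nonneg (tPost 3 lam n t 1 c - 1 / ((3:ℕ):ℝ))
  have a2 := abs_nonneg (tPost 3 lam n t 2 c - 1 / ((3:ℕ):ℝ))
  have e3 : (1:ℝ) / 3 = 1 / ((3:ℕ):ℝ) := by norm_num
  rw [e3]
  generalize tPost 3 lam n t 0 c - 1 / ((3:ℕ):ℝ) = D at *
  have h4 : D ^ 2 ≤ |D| := by
    rw [← sq_abs]
    nlinarith [abs_nonneg D]
  nlinarith [sq_nonneg (D - θ * St n t c)]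

end

section
variable {p : ℕ → ℝ} (hp0 : ∀ k, 0 ≤ p k) (hp1 : HasSum p 1) {m : ℝ}
  (hm : HasSum (fun k : ℕ => (k : ℝ) * p k) m)
include hp0 hp1 hm

theorem mean_Z : ∀ n : ℕ, HasSum (fun t : Tr n => treeProb p n t * Zt n t) (m ^ n)
  | 0 => by
    have h := hasSum_unique (β := Unit) (fun t : Tr 0 => treeProb p 0 t * Zt 0 t)
    have e : treeProb p 0 (default : Unit) * Zt 0 (default : Unit) = m ^ 0 := by
      change (1:ℝ) * 1 = 1; norm_num
    rw [← e]; exact h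
  | n + 1 => by
    have h := hasSum_gen hp0 (n := n) (F := fun k c => (∏ i, treeProb p n (c i)) *
      ∑ i, Zt n (c i)) (fun k c => mul_nonneg (prod_nonneg fun i _ => treeProb_nonneg hp0 n _)
      (sum_nonneg fun i _ => Zt_nonneg n _))
      (hasSum_lin (treeProb_nonneg hp0 n) (treeProb_hasSum hp0 hp1 n) (Zt_nonneg n) (mean_Z n))
      (S := m ^ (n + 1)) (by
        have := hm.mul_right (m ^ n)
        rw [pow_succ']
        refine this.congr_fun ?_ |> fun h => h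
        intro k; ring)
    refine h.congr_fun ?_ |> fun h => h
    rintro ⟨k, ch⟩
    change (p k * ∏ i, treeProb p n (ch i)) * ∑ m, Zt n (ch m) = _
    ring

/-- expectation of the second moment: `b_n ≤ R (lam^2)^n m^(2n)` -/
theorem mean_B {kap : ℝ} (hk : HasSum (fun k : ℕ => (k : ℝ) * ((k : ℝ) - 1) * p k) kap)
    {lam R : ℝ} (h0 : -(1 / 2) ≤ lam) (h1 : lam ≤ 1) (hR2 : 2 ≤ R) (hm0 : 0 < m) (hml : 1 < m * lam ^ 2)
    (hR : 2 * kap * lam ^ 2 ≤ R * m * (m * lam ^ 2 - 1)) :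
    ∀ n : ℕ, ∃ b : ℝ, HasSum (fun t : Tr n => treeProb p n t * Bt lam n t) b ∧
      b ≤ R * ((lam ^ 2) ^ n * (m ^ n) ^ 2)
  | 0 => by
    refine ⟨2, ?_, by simpa using hR2⟩
    have h := hasSum_unique (β := Unit) (fun t : Tr 0 => treeProb p 0 t * Bt lam 0 t)
    have h2 : Bt lam 0 (show Tr 0 from (default : Unit)) = 2 := Bt_zero lam _
    have e : treeProb p 0 (default : Unit) * Bt lam 0 (default : Unit) = 2 :=
      (one_mul _).trans h2
    rw [← e]; exact h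
  | n + 1 => by
    obtain ⟨b, hb, hbR⟩ := mean_B hk h0 h1 hR2 hm0 hml hR n
    have hk0 : 0 ≤ kap := hk.nonneg fun k => by
      rcases Nat.eq_zero_or_pos k with h | h
      · subst h; simp
      · have : (1:ℝ) ≤ k := by exact_mod_cast h
        exact mul_nonneg (mul_nonneg (by linarith) (by linarith)) (hp0 k)
    have hB0 : ∀ t : Tr n, 0 ≤ Bt lam n t := by
      intro t
      exact Bt_nn h0 h1 n t
    have hF1 : ∀ k, HasSum (fun c : Fin k → Tr n => (∏ i, treeProb p n (c i)) *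
        (∑ i, Bt lam n (c i) + 2 * (lam ^ 2) ^ (n + 1) *
          ((∑ i, Zt n (c i)) ^ 2 - ∑ i, Zt n (c i) ^ 2)))
        (k * b + 2 * (lam ^ 2) ^ (n + 1) * (k * (k - 1) * (m ^ n) ^ 2)) := by
      intro k
      have s1 := hasSum_lin (treeProb_nonneg hp0 n) (treeProb_hasSum hp0 hp1 n) hB0 hb k
      have s2 := (hasSum_pair (treeProb_nonneg hp0 n) (treeProb_hasSum hp0 hp1 n) (Zt_nonneg n)
        (mean_Z hp0 hp1 hm n) k).mul_left (2 * (lam ^ 2) ^ (n + 1))
      have s3 := s1.add s2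
      have e : (fun c : Fin k → Tr n => (∏ i, treeProb p n (c i)) * ∑ i, Bt lam n (c i) +
          2 * (lam ^ 2) ^ (n + 1) * ((∏ i, treeProb p n (c i)) *
            ((∑ i, Zt n (c i)) ^ 2 - ∑ i, Zt n (c i) ^ 2))) =
          fun c => (∏ i, treeProb p n (c i)) * (∑ i, Bt lam n (c i) + 2 * (lam ^ 2) ^ (n + 1) *
          ((∑ i, Zt n (c i)) ^ 2 - ∑ i, Zt n (c i) ^ 2)) := by
        funext c; ring
      rw [e] at s3
      exact s3
    have h := hasSum_gen hp0 (n := n) (F := fun k c => (∏ i, treeProb p n (c i)) *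
        (∑ i, Bt lam n (c i) + 2 * (lam ^ 2) ^ (n + 1) *
          ((∑ i, Zt n (c i)) ^ 2 - ∑ i, Zt n (c i) ^ 2)))
      (fun k c => mul_nonneg (prod_nonneg fun i _ => treeProb_nonneg hp0 n _)
        (add_nonneg (sum_nonneg fun i _ => hB0 _) (mul_nonneg (by positivity)
          (sub_nonneg.2 (Finset.sum_sq_le_sq_sum_of_nonneg fun i _ => Zt_nonneg n _))))) hF1
      (S := m * b + 2 * (lam ^ 2) ^ (n + 1) * (m ^ n) ^ 2 * kap) (by
        have q1 := hm.mul_right b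
        have q2 := hk.mul_left (2 * (lam ^ 2) ^ (n + 1) * (m ^ n) ^ 2)
        have q3 := q1.add q2
        have e : (fun k : ℕ => (k : ℝ) * p k * b + 2 * (lam ^ 2) ^ (n + 1) * (m ^ n) ^ 2 *
            ((k : ℝ) * ((k : ℝ) - 1) * p k)) = fun k : ℕ => p k * ((k : ℝ) * b +
            2 * (lam ^ 2) ^ (n + 1) * ((k : ℝ) * ((k : ℝ) - 1) * (m ^ n) ^ 2)) := by
          funext k; ring
        rw [e] at q3
        exact q3)
    refine ⟨m * b + 2 * (lam ^ 2) ^ (n + 1) * (m ^ n) ^ 2 * kap, ?_, ?_⟩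
    · have e : (fun t : Tr (n + 1) => treeProb p (n + 1) t * Bt lam (n + 1) t) =
          fun t : Tr (n + 1) => p t.1 * ((∏ i, treeProb p n (t.2 i)) *
        (∑ i, Bt lam n (t.2 i) + 2 * (lam ^ 2) ^ (n + 1) *
          ((∑ i, Zt n (t.2 i)) ^ 2 - ∑ i, Zt n (t.2 i) ^ 2))) := by
        funext t
        obtain ⟨k, ch⟩ := t
        have h2 := Bt_succ lam n k ch
        change (p k * ∏ i, treeProb p n (ch i)) * Bt lam (n + 1) (nd ch) = _
        rw [h2]
        ring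
      rw [e]
      exact h
    · have hL : 0 ≤ (lam ^ 2) ^ n * (m ^ n) ^ 2 := by positivity
      have q1 : m * b ≤ m * (R * ((lam ^ 2) ^ n * (m ^ n) ^ 2)) :=
        mul_le_mul_of_nonneg_left hbR hm0.le
      have q2 := mul_le_mul_of_nonneg_right hR hL
      have q3 : R * ((lam ^ 2) ^ (n + 1) * (m ^ (n + 1)) ^ 2) =
          R * (m * (m * lam ^ 2)) * ((lam ^ 2) ^ n * (m ^ n) ^ 2) := by
        rw [pow_succ, pow_succ]; ring
      have q4 : 2 * (lam ^ 2) ^ (n + 1) * (m ^ n) ^ 2 * kap =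
          2 * kap * lam ^ 2 * ((lam ^ 2) ^ n * (m ^ n) ^ 2) := by
        rw [pow_succ]; ring
      rw [q3, q4]
      have q5 : m * (R * ((lam ^ 2) ^ n * (m ^ n) ^ 2)) =
          R * m * ((lam ^ 2) ^ n * (m ^ n) ^ 2) := by ring
      rw [q5] at q1
      nlinarith

/-- **Kesten-Stigum bound on Galton-Watson trees** (`q = 3`): reconstruction if `m lam^2 > 1`. -/
theorem ks_gw {kap : ℝ} (hk : HasSum (fun k : ℕ => (k : ℝ) * ((k : ℝ) - 1) * p k) kap)
    {lam : ℝ} (h0 : -(1 / 2) ≤ lam) (h1 : lam ≤ 1) (hm0 : 0 < m) (hml : 1 < m * lam ^ 2) :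
    ∃ ε : ℝ, 0 < ε ∧ ∀ n, ε ≤ aGW 3 p lam n := by
  have hk0 : 0 ≤ kap := hk.nonneg fun k => by
    rcases Nat.eq_zero_or_pos k with h | h
    · subst h; simp
    · have : (1:ℝ) ≤ k := by exact_mod_cast h
      exact mul_nonneg (mul_nonneg (by linarith) (by linarith)) (hp0 k)
  have hg : 0 < m * lam ^ 2 - 1 := by linarith
  obtain ⟨R, hRd⟩ : ∃ R, R = 2 + 2 * kap * lam ^ 2 / (m * (m * lam ^ 2 - 1)) := ⟨_, rfl⟩
  have hR2 : 2 ≤ R := by
    have : 0 ≤ 2 * kap * lam ^ 2 / (m * (m * lam ^ 2 - 1)) := by positivity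
    linarith
  have hR : 2 * kap * lam ^ 2 ≤ R * m * (m * lam ^ 2 - 1) := by
    rw [hRd]
    have e : (2 + 2 * kap * lam ^ 2 / (m * (m * lam ^ 2 - 1))) * m * (m * lam ^ 2 - 1) =
        2 * m * (m * lam ^ 2 - 1) + 2 * kap * lam ^ 2 := by
      have hne : m * (m * lam ^ 2 - 1) ≠ 0 := (mul_pos hm0 hg).ne'
      rw [mul_assoc, add_mul, div_mul_cancel₀ _ hne]
      ring
    rw [e]
    have : 0 ≤ 2 * m * (m * lam ^ 2 - 1) := by positivity
    linarith
  have hlam : lam ≠ 0 := by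
    intro h
    rw [h] at hml
    norm_num at hml
  refine ⟨2 / (9 * R), by positivity, fun n => ?_⟩
  obtain ⟨b, hb, hbR⟩ := mean_B hp0 hp1 hm hk h0 h1 hR2 hm0 hml hR n
  have hZ := mean_Z hp0 hp1 hm n
  obtain ⟨α, hα⟩ : ∃ α, α = lam ^ n * m ^ n := ⟨_, rfl⟩
  have hα0 : α ≠ 0 := by rw [hα]; positivity
  have hα2 : (lam ^ 2) ^ n * (m ^ n) ^ 2 = α ^ 2 := by rw [hα]; ring
  rw [hα2] at hbR
  obtain ⟨θ, hθ⟩ : ∃ θ, θ = 2 / (3 * R * α) := ⟨_, rfl⟩
  have hsum : HasSum (fun t : Tr n => treeProb p n t *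
      (1 / 2 * (4 / 3 * θ * (lam ^ n * Zt n t) - θ ^ 2 * Bt lam n t)))
      (1 / 2 * (4 / 3 * θ * α - θ ^ 2 * b)) := by
    have s1 := hZ.mul_left (2 / 3 * θ * lam ^ n)
    have s2 := hb.mul_left (θ ^ 2 / 2)
    have s3 := s1.sub s2
    have e : (fun t : Tr n => 2 / 3 * θ * lam ^ n * (treeProb p n t * Zt n t) -
        θ ^ 2 / 2 * (treeProb p n t * Bt lam n t)) = fun t : Tr n => treeProb p n t *
      (1 / 2 * (4 / 3 * θ * (lam ^ n * Zt n t) - θ ^ 2 * Bt lam n t)) := by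
      funext t; ring
    have e2 : 2 / 3 * θ * lam ^ n * m ^ n - θ ^ 2 / 2 * b =
        1 / 2 * (4 / 3 * θ * α - θ ^ 2 * b) := by rw [hα]; ring
    rw [e, e2] at s3
    exact s3
  have hs2 : Summable fun t : Tr n => treeProb p n t * aTree 3 lam n t :=
    treeProb_summable hp0 hp1 fun t => aTree_abs h0 h1 n t
  have hle : 1 / 2 * (4 / 3 * θ * α - θ ^ 2 * b) ≤ aGW 3 p lam n :=
    hasSum_le (fun t => mul_le_mul_of_nonneg_left (aTree_ge h0 h1 n t θ)
      (treeProb_nonneg hp0 n t)) hsum hs2.hasSum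
  have hfin : 2 / (9 * R) ≤ 1 / 2 * (4 / 3 * θ * α - θ ^ 2 * b) := by
    have q1 : θ ^ 2 * b ≤ θ ^ 2 * (R * α ^ 2) := mul_le_mul_of_nonneg_left hbR (sq_nonneg θ)
    have q2 : θ ^ 2 * (R * α ^ 2) = 4 / (9 * R) := by
      rw [hθ]
      have : R ≠ 0 := by positivity
      field_simp
      ring
    have q3 : θ * α = 2 / (3 * R) := by
      rw [hθ]
      have : R ≠ 0 := by positivity
      field_simp
    have q4 : 4 / 3 * θ * α = 8 / (9 * R) := by
      have : 4 / 3 * θ * α = 4 / 3 * (θ * α) := by ring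
      rw [this, q3]
      have : R ≠ 0 := by positivity
      field_simp
      ring
    rw [q4]
    have q5 : (8:ℝ) / (9 * R) = 2 * (4 / (9 * R)) := by ring
    have q6 : (2:ℝ) / (9 * R) = 1 / 2 * (4 / (9 * R)) := by ring
    rw [q5, q6]
    linarith
  exact hfin.trans hle

omit hp0 hp1 hm in
theorem poisson_pair (D : ℝ) :
    HasSum (fun k : ℕ => (k : ℝ) * ((k : ℝ) - 1) * poisson D k) (D ^ 2) := by
  rw [← hasSum_nat_add_iff' 2]
  simp only [sum_range_succ, sum_range_zero, Nat.cast_zero, Nat.cast_one, zero_mul, sub_self,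
    mul_zero, zero_add, sub_zero]
  have h := (poisson_hasSum D).mul_left (D ^ 2)
  rw [mul_one] at h
  have e : (fun k : ℕ => ((k + 2 : ℕ) : ℝ) * (((k + 2 : ℕ) : ℝ) - 1) * poisson D (k + 2)) =
      fun k => D ^ 2 * poisson D k := by
    funext k
    unfold poisson
    rw [Nat.factorial_succ, Nat.factorial_succ]
    push_cast
    have h1 : ((k : ℝ) + 1) ≠ 0 := by positivity
    have h3 : ((k : ℝ) + 1 + 1) ≠ 0 := by positivity
    have h2 : (k.factorial : ℝ) ≠ 0 := by positivity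
    have h4 : (k : ℝ) + 2 = k + 1 + 1 := by ring
    rw [h4]
    field_simp
    ring
  rw [e]
  exact h

omit hp0 hp1 hm in
/-- Poisson(D) offspring: reconstruction if `D lam^2 > 1`. -/
theorem ks_poisson {D lam : ℝ} (hD : 0 ≤ D) (h0 : -(1 / 2) ≤ lam) (h1 : lam ≤ 1)
    (hml : 1 < D * lam ^ 2) : ∃ ε : ℝ, 0 < ε ∧ ∀ n, ε ≤ aGW 3 (poisson D) lam n := by
  have hD0 : 0 < D := by
    rcases eq_or_lt_of_le hD with h | h
    · rw [← h] at hml; norm_num at hml
    · exact h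
  exact ks_gw (poisson_nonneg hD) (poisson_hasSum D) (poisson_mean D) (poisson_pair D) h0 h1 hD0 hml

end

end Vale.Agent.Potts.KSG
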