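import Vale.Agent.Potts.Norm

namespace Vale.Agent.Potts

theorem Ff_prod {k a0 a1 a2 b0 b1 b2 : ℝ} (hk : 0 < k) (hZ : 0 < zz a0 a1 a2 b0 b1 b2) (u0 u1 u2 : ℝ)
    (h0 : u0 = k * (a0 * b0)) (h1 : u1 = k * (a1 * b1)) (h2 : u2 = k * (a2 * b2)) :
    Ff ![u0, u1, u2] = k * (zz a0 a1 a2 b0 b1 b2 - ee a0 a1 a2 b0 b1 b2 / (3 * zz a0 a1 a2 b0 b1 b2)) := by
  have hp : pp ![u0, u1, u2] = k * zz a0 a1 a2 b0 b1 b2 := by
    simp only [pp, zz, Matrix.cons_val_zero, Matrix.cons_val_one, Matrix.cons_val_two,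
      Matrix.head_cons, Matrix.tail_cons, h0, h1, h2, Matrix.cons_val]
    ring
  simp only [Ff, hp]
  simp only [Matrix.cons_val_zero, Matrix.cons_val_one, Matrix.cons_val, h0, h1, h2]
  have hZ' := hZ.ne'
  have hk' := hk.ne'
  have e : k * (a0 * b0) * (k * (a1 * b1)) + k * (a1 * b1) * (k * (a2 * b2)) +
      k * (a0 * b0) * (k * (a2 * b2)) = k ^ 2 * ee a0 a1 a2 b0 b1 b2 := by
    simp only [ee]; ring
  rw [e]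
  field_simp

theorem zz_pos {a0 a1 a2 b0 b1 b2 : ℝ} (h0 : 0 < a0) (h1 : 0 < a1) (h2 : 0 < a2)
    (k0 : 0 < b0) (k1 : 0 < b1) (k2 : 0 < b2) : 0 < zz a0 a1 a2 b0 b1 b2 := by
  unfold zz; positivity

theorem ee_pos {a0 a1 a2 b0 b1 b2 : ℝ} (h0 : 0 < a0) (h1 : 0 < a1) (h2 : 0 < a2)
    (k0 : 0 < b0) (k1 : 0 < b1) (k2 : 0 < b2) : 0 < ee a0 a1 a2 b0 b1 b2 := by
  unfold ee; positivity

theorem three_quot {E1 E2 E3 Z1 Z2 Z3 N : ℝ} (h1 : 0 < Z1) (h2 : 0 < Z2) (h3 : 0 < Z3)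
    (h : E1 * Z2 * Z3 + E2 * Z1 * Z3 + E3 * Z1 * Z2 = 9 * N) :
    E1 / (3 * Z1) + E2 / (3 * Z2) + E3 / (3 * Z3) = 3 * (N / (Z1 * Z2 * Z3)) := by
  have : E1 / (3 * Z1) + E2 / (3 * Z2) + E3 / (3 * Z3) =
      (E1 * Z2 * Z3 + E2 * Z1 * Z3 + E3 * Z1 * Z2) / (3 * (Z1 * Z2 * Z3)) := by
    field_simp
  rw [this, h]
  field_simp
  ring

theorem pw_asm {k x y R1 R2 p s Z1 Z2 Z3 W1 W2 W3 E1 E2 E3 F1 F2 F3 : ℝ} (hk0 : 0 < k)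
    (hx0 : 0 ≤ x) (hy0 : 0 ≤ y) (hRp : R1 = x * p) (hSp : R2 = y * s) (hG' : 0 ≤ GG x y p s)
    (P1 : 0 < Z1) (P2 : 0 < Z2) (P3 : 0 < Z3) (Q1 : 0 < W1) (Q2 : 0 < W2) (Q3 : 0 < W3)
    (I1 : E1 * Z2 * Z3 + E2 * Z1 * Z3 + E3 * Z1 * Z2 = 9 * NN x y R1 R2)
    (I2 : F1 * W3 * W2 + F3 * W1 * W2 + F2 * W1 * W3 = 9 * NN x y R1 R2)
    (ID : Z1 * Z2 * Z3 + W1 * W2 * W3 = 2 * (1 - 3 * (x * y) + 2 * (R1 * R2)))
    (S1 : Z1 + Z2 + Z3 = 3) (S2 : W1 + W2 + W3 = 3) (N1 : 0 < NN x y R1 R2) :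
    (k * (Z1 - E1 / (3 * Z1)) + k * (Z2 - E2 / (3 * Z2)) + k * (Z3 - E3 / (3 * Z3)) +
      (k * (W1 - F1 / (3 * W1)) + k * (W2 - F2 / (3 * W2)) + k * (W3 - F3 / (3 * W3)))) / 6 ≤
    k * (x + y - 1 / 100 * (x * y) - 143 / 100 * (R1 * (y - R2)) - 57 / 50 * (R2 * x)) := by
  have J1 := three_quot P1 P2 P3 I1
  have J2 := three_quot Q1 Q3 Q2 I2
  have hQ : x * y * GG x y p s = (1 - 3 * (x * y) + 2 * (R1 * R2)) * (x + y - 1 - 1 / 100 * (x * y)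
      - 143 / 100 * (R1 * (y - R2)) - 57 / 50 * (R2 * x)) + NN x y R1 R2 := by
    rw [hRp, hSp]; simp only [GG, NN]; ring
  have h1 : 0 ≤ x * y * GG x y p s := mul_nonneg (mul_nonneg hx0 hy0) hG'
  rw [hQ] at h1
  clear hQ I1 I2
  generalize NN x y R1 R2 = N at *
  set A := x + y - 1 - 1 / 100 * (x * y) - 143 / 100 * (R1 * (y - R2)) - 57 / 50 * (R2 * x) with hA
  set D0 := 1 - 3 * (x * y) + 2 * (R1 * R2) with hD0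
  have hDp0 : 0 < Z1 * Z2 * Z3 := by positivity
  have hDm0 : 0 < W1 * W3 * W2 := by positivity
  have hDD : Z1 * Z2 * Z3 + W1 * W3 * W2 = 2 * D0 := by
    rw [← ID]; ring
  generalize Z1 * Z2 * Z3 = Dp at *
  generalize W1 * W3 * W2 = Dm at *
  have hD00 : 0 < D0 := by linarith
  have key : 2 * (N / D0) ≤ N / Dp + N / Dm := by
    have : N / Dp + N / Dm - 2 * (N / D0) = N * (Dp - Dm) ^ 2 / (2 * Dp * Dm * D0) := by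
      have hh : D0 = (Dp + Dm) / 2 := by linarith
      rw [hh]
      have : Dp + Dm ≠ 0 := by positivity
      field_simp
      ring
    have h2 : 0 ≤ N * (Dp - Dm) ^ 2 / (2 * Dp * Dm * D0) := by positivity
    linarith
  have main : 0 ≤ A + N / D0 := by
    have : A + N / D0 = (D0 * A + N) / D0 := by field_simp
    rw [this]
    exact div_nonneg h1 hD00.le
  have tot : (k * (Z1 - E1 / (3 * Z1)) + k * (Z2 - E2 / (3 * Z2)) + k * (Z3 - E3 / (3 * Z3)) +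
      (k * (W1 - F1 / (3 * W1)) + k * (W2 - F2 / (3 * W2)) + k * (W3 - F3 / (3 * W3)))) / 6
      = k * (1 - (N / Dp + N / Dm) / 2) := by
    have : (k * (Z1 - E1 / (3 * Z1)) + k * (Z2 - E2 / (3 * Z2)) + k * (Z3 - E3 / (3 * Z3)) +
      (k * (W1 - F1 / (3 * W1)) + k * (W2 - F2 / (3 * W2)) + k * (W3 - F3 / (3 * W3)))) / 6
      = k * (((Z1 + Z2 + Z3) + (W1 + W2 + W3) - (E1 / (3 * Z1) + E2 / (3 * Z2) + E3 / (3 * Z3))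
        - (F1 / (3 * W1) + F3 / (3 * W3) + F2 / (3 * W2))) / 6) := by ring
    rw [this, J1, J2, S1, S2]
    ring
  rw [tot]
  apply mul_le_mul_of_nonneg_left _ hk0.le
  linarith

theorem pw_core {L L' : ℝ} (hL : 0 < L) (hL1 : L < 1) (hL' : 0 < L') (hL1' : L' < 1)
    (hG : ∀ x y p s : ℝ, -L / 2 ≤ p → p ≤ L → -L' / 2 ≤ s → s ≤ L' → p ^ 2 ≤ x → x ≤ XL L p →
      s ^ 2 ≤ y → y ≤ XL L' s → 0 ≤ GG x y p s) :
    PW L L' (1 / 100) (143 / 100) (57 / 50) := by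
  intro a b ha hb
  obtain ⟨a0, a1, ha0, ha1, ha2, ea0, ea1, ea2, fa, ra⟩ := norm_V3 ha
  obtain ⟨b0, b1, hb0, hb1, hb2, eb0, eb1, eb2, fb, rb⟩ := norm_V3 hb
  obtain ⟨hx0, -, -, -, p, hRp, hp1, hp2, hp3, hp4⟩ := dom hL ha0 ha1 ha2
  obtain ⟨hy0, -, -, -, s, hSp, hs1, hs2, hs3, hs4⟩ := dom hL' hb0 hb1 hb2
  have hG' := hG _ _ p s hp1 hp2 hs1 hs2 hp3 hp4 hs3 hs4
  have hpa : 0 < pp a := ha.1
  have hpb : 0 < pp b := hb.1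
  set k := pp a * pp b with hk
  have hk0 : 0 < k := mul_pos hpa hpb
  have pa0 : 0 < a0 := by linarith
  have pa1 : 0 < a1 := by linarith
  have pa2 : 0 < 3 - a0 - a1 := by linarith
  have pb0 : 0 < b0 := by linarith
  have pb1 : 0 < b1 := by linarith
  have pb2 : 0 < 3 - b0 - b1 := by linarith
  rw [sum_mul3]
  rw [Ff_prod (k := k) (a0 := a0) (a1 := a1) (a2 := 3 - a0 - a1) (b0 := b0) (b1 := b1)
      (b2 := 3 - b0 - b1) hk0 (zz_pos pa0 pa1 pa2 pb0 pb1 pb2) (a 0 * b 0) (a 1 * b 1) (a 2 * b 2)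
      (by rw [ea0, eb0, hk]; ring) (by rw [ea1, eb1, hk]; ring) (by rw [ea2, eb2, hk]; ring),
    Ff_prod (k := k) (a0 := a0) (a1 := a1) (a2 := 3 - a0 - a1) (b0 := b1) (b1 := 3 - b0 - b1)
      (b2 := b0) hk0 (zz_pos pa0 pa1 pa2 pb1 pb2 pb0) (a 0 * b 1) (a 1 * b 2) (a 2 * b 0)
      (by rw [ea0, eb1, hk]; ring) (by rw [ea1, eb2, hk]; ring) (by rw [ea2, eb0, hk]; ring),
    Ff_prod (k := k) (a0 := a0) (a1 := a1) (a2 := 3 - a0 - a1) (b0 := 3 - b0 - b1) (b1 := b0)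
      (b2 := b1) hk0 (zz_pos pa0 pa1 pa2 pb2 pb0 pb1) (a 0 * b 2) (a 1 * b 0) (a 2 * b 1)
      (by rw [ea0, eb2, hk]; ring) (by rw [ea1, eb0, hk]; ring) (by rw [ea2, eb1, hk]; ring),
    Ff_prod (k := k) (a0 := a0) (a1 := a1) (a2 := 3 - a0 - a1) (b0 := b1) (b1 := b0)
      (b2 := 3 - b0 - b1) hk0 (zz_pos pa0 pa1 pa2 pb1 pb0 pb2) (a 0 * b 1) (a 1 * b 0) (a 2 * b 2)
      (by rw [ea0, eb1, hk]; ring) (by rw [ea1, eb0, hk]; ring) (by rw [ea2, eb2, hk]; ring),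
    Ff_prod (k := k) (a0 := a0) (a1 := a1) (a2 := 3 - a0 - a1) (b0 := 3 - b0 - b1) (b1 := b1)
      (b2 := b0) hk0 (zz_pos pa0 pa1 pa2 pb2 pb1 pb0) (a 0 * b 2) (a 1 * b 1) (a 2 * b 0)
      (by rw [ea0, eb2, hk]; ring) (by rw [ea1, eb1, hk]; ring) (by rw [ea2, eb0, hk]; ring),
    Ff_prod (k := k) (a0 := a0) (a1 := a1) (a2 := 3 - a0 - a1) (b0 := b0) (b1 := 3 - b0 - b1)
      (b2 := b1) hk0 (zz_pos pa0 pa1 pa2 pb0 pb2 pb1) (a 0 * b 0) (a 1 * b 2) (a 2 * b 1)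
      (by rw [ea0, eb0, hk]; ring) (by rw [ea1, eb2, hk]; ring) (by rw [ea2, eb1, hk]; ring)]
  have P1 := zz_pos pa0 pa1 pa2 pb0 pb1 pb2
  have P2 := zz_pos pa0 pa1 pa2 pb1 pb2 pb0
  have P3 := zz_pos pa0 pa1 pa2 pb2 pb0 pb1
  have Q1 := zz_pos pa0 pa1 pa2 pb1 pb0 pb2
  have Q2 := zz_pos pa0 pa1 pa2 pb2 pb1 pb0
  have Q3 := zz_pos pa0 pa1 pa2 pb0 pb2 pb1
  have I1 := idN a0 a1 b0 b1
  have I2 := idN a0 a1 b1 b0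
  have ID := idD a0 a1 b0 b1
  have xs : xx b1 b0 = xx b0 b1 := by simp only [xx]; ring
  have rs : rr b1 b0 = rr b0 b1 := by simp only [rr, xx]; ring
  have e3 : 3 - b1 - b0 = 3 - b0 - b1 := by ring
  rw [xs, rs, e3] at I2
  have S1 : zz a0 a1 (3-a0-a1) b0 b1 (3-b0-b1) + zz a0 a1 (3-a0-a1) b1 (3-b0-b1) b0 +
      zz a0 a1 (3-a0-a1) (3-b0-b1) b0 b1 = 3 := by simp only [zz]; ring
  have S2 : zz a0 a1 (3-a0-a1) b1 b0 (3-b0-b1) + zz a0 a1 (3-a0-a1) (3-b0-b1) b1 b0 +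
      zz a0 a1 (3-a0-a1) b0 (3-b0-b1) b1 = 3 := by simp only [zz]; ring
  have N1 : 0 < NN (xx a0 a1) (xx b0 b1) (rr a0 a1) (rr b0 b1) := by
    have := ee_pos pa0 pa1 pa2 pb0 pb1 pb2
    have := ee_pos pa0 pa1 pa2 pb1 pb2 pb0
    have := ee_pos pa0 pa1 pa2 pb2 pb0 pb1
    have : 0 < 9 * NN (xx a0 a1) (xx b0 b1) (rr a0 a1) (rr b0 b1) := by
      rw [← I1]; positivity
    linarith
  rw [fa, fb, ra, rb]
  have fin := pw_asm hk0 hx0 hy0 hRp hSp hG' P1 P2 P3 Q1 Q2 Q3 I1 I2 ID S1 S2 N1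
  refine fin.trans (le_of_eq ?_)
  rw [hk]
  ring

theorem pw1 : PW (5/7) (5/7) (1/100) (143/100) (57/50) :=
  pw_core (by norm_num) (by norm_num) (by norm_num) (by norm_num)
    (fun _ _ _ _ h1 h2 h3 h4 h5 h6 h7 h8 => GG_nonnegA h1 h2 h3 h4 h5 h6 h7 h8)

theorem pw2 : PW (7/12) (9/10) (1/100) (143/100) (57/50) :=
  pw_core (by norm_num) (by norm_num) (by norm_num) (by norm_num)
    (fun _ _ _ _ h1 h2 h3 h4 h5 h6 h7 h8 => GG_nonnegB h1 h2 h3 h4 h5 h6 h7 h8)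

end Vale.Agent.Potts
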