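import Vale.Agent.Potts.PwM
import Vale.Agent.Potts.InvCert
import Vale.Agent.Potts.Sub

/-! P154: the inequality for messages in the inverted triangle of size `1/2`. -/

namespace Vale.Agent.Potts.Inv

/-- the expression of the inequality, `T` an upper bound of the class function -/
noncomputable def GI (x y p s T : ℝ) : ℝ :=
  1 + x * y - 2 * (x + y) + 2 * ((1 - y) * p) + 2 * ((1 - x) * s) - 2 * ((1 - x - y) * (p * s))
    - (1 - x * y * (3 - 2 * (p * s))) * (-(11 / 20) + 2 * T)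

theorem corner {p s t0 β a b c d x y : ℝ} (hβ : 0 ≤ β) (ha : 0 ≤ a) (hax : a ≤ x) (hxb : x ≤ b)
    (hcy : c ≤ y) (hyd : y ≤ d) (hk : 0 ≤ 3 - 2 * (p * s))
    (hac : 0 ≤ GI a c p s (t0 + β * (1 - c))) (had : 0 ≤ GI a d p s (t0 + β * (1 - d)))
    (hbc : 0 ≤ GI b c p s (t0 + β * (1 - c))) (hbd : 0 ≤ GI b d p s (t0 + β * (1 - d))) :
    0 ≤ GI x y p s (t0 + β * (1 - y)) := by
  have lin : ∀ z : ℝ, 0 ≤ GI a z p s (t0 + β * (1 - z)) → 0 ≤ GI b z p s (t0 + β * (1 - z)) →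
      0 ≤ GI x z p s (t0 + β * (1 - z)) := by
    intro z h1 h2
    rcases (hax.trans hxb).eq_or_lt with h | h
    · have : x = a := le_antisymm (by rw [h]; exact hxb) hax
      rw [this]; exact h1
    · have e : (b - a) * GI x z p s (t0 + β * (1 - z)) =
          (b - x) * GI a z p s (t0 + β * (1 - z)) + (x - a) * GI b z p s (t0 + β * (1 - z)) := by
        simp only [GI]; ring
      have h3 : 0 ≤ (b - a) * GI x z p s (t0 + β * (1 - z)) := by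
        rw [e]
        exact add_nonneg (mul_nonneg (by linarith) h1) (mul_nonneg (by linarith) h2)
      exact nonneg_of_mul_nonneg_right h3 (by linarith)
  have hxc := lin c hac hbc
  have hxd := lin d had hbd
  rcases (hcy.trans hyd).eq_or_lt with h | h
  · have : y = c := le_antisymm (by rw [h]; exact hyd) hcy
    rw [this]; exact hxc
  · have e : (d - c) * GI x y p s (t0 + β * (1 - y)) =
        (d - y) * GI x c p s (t0 + β * (1 - c)) + (y - c) * GI x d p s (t0 + β * (1 - d)) +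
        2 * β * x * (3 - 2 * (p * s)) * ((d - c) * ((y - c) * (d - y))) := by
      simp only [GI]; ring
    have h3 : 0 ≤ (d - c) * GI x y p s (t0 + β * (1 - y)) := by
      rw [e]
      have hx0 : 0 ≤ x := ha.trans hax
      have h4 : 0 ≤ (d - c) * ((y - c) * (d - y)) :=
        mul_nonneg (by linarith) (mul_nonneg (by linarith) (by linarith))
      have h5 : 0 ≤ 2 * β * x * (3 - 2 * (p * s)) := by positivity
      exact add_nonneg (add_nonneg (mul_nonneg (by linarith) hxc) (mul_nonneg (by linarith) hxd))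
        (mul_nonneg h5 h4)
    exact nonneg_of_mul_nonneg_right h3 (by linarith)

theorem P_nonneg {p s : ℝ} (hp1 : -(1 / 2) ≤ p) (hp2 : p ≤ 1 / 4) (hs1 : -(1 / 2) ≤ s) (hs2 : s ≤ 1) :
    0 ≤ P00 p s ∧ 0 ≤ P01 p s ∧ 0 ≤ P10 p s ∧ 0 ≤ P11 p s := by
  have hu : p = (p + 1 / 2) - 1 / 2 := by ring
  have hu' : (1 / 4 - p) = 3 / 4 - (p + 1 / 2) := by ring
  have u0 : 0 ≤ p + 1 / 2 := by linarith
  have u1 : 0 ≤ 1 / 4 - p := by linarith
  rcases le_total s 0 with h | h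
  · have hv : s = (s + 1 / 2) - 1 / 2 := by ring
    have hv' : -s = 1 / 2 - (s + 1 / 2) := by ring
    have v0 : 0 ≤ s + 1 / 2 := by linarith
    have v1 : 0 ≤ -s := by linarith
    exact ⟨P00n hu hu' hv hv' u0 u1 v0 v1, P01n hu hu' hv hv' u0 u1 v0 v1,
      P10n hu hu' hv hv' u0 u1 v0 v1, P11n hu hu' hv hv' u0 u1 v0 v1⟩
  · have v1 : 0 ≤ 1 - s := by linarith
    exact ⟨P00p hu hu' rfl rfl u0 u1 h v1, P01p hu hu' rfl rfl u0 u1 h v1,
      P10p hu hu' rfl rfl u0 u1 h v1, P11p hu hu' rfl rfl u0 u1 h v1⟩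

theorem GI_nonneg {x y p s : ℝ} (hp1 : -(1 / 2) ≤ p) (hp2 : p ≤ 1 / 4) (hs1 : -(1 / 2) ≤ s)
    (hs2 : s < 1) (hx1 : p ^ 2 ≤ x) (hx2 : x * (12 + 16 * p) ≤ 1) (hy1 : s ^ 2 ≤ y)
    (hy2 : y * (3 - 2 * s) ≤ 1) (hy3 : y < 1) (hD0 : 0 ≤ 1 - x * y * (3 - 2 * (p * s))) :
    0 ≤ GI x y p s ((s - y) / (1 - y)) := by
  obtain ⟨q00, q01, q10, q11⟩ := P_nonneg hp1 hp2 hs1 hs2.le
  have s1 : 0 < 1 + s := by linarith
  have s2 : 0 < 1 - s := by linarith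
  have s3 : 0 < 3 - 2 * s := by linarith
  have p1 : 0 < 12 + 16 * p := by linarith
  set t0 : ℝ := 1 - 2 / (1 + s) with ht0
  set β : ℝ := 1 / ((1 - s) * (1 + s) ^ 2) with hβ
  have hβ0 : 0 ≤ β := by positivity
  have tc : t0 + β * (1 - s ^ 2) = s / (1 + s) := by
    rw [ht0, hβ]; field_simp; ring
  have td : t0 + β * (1 - 1 / (3 - 2 * s)) =
      1 - 2 / (1 + s) + 2 / ((3 - 2 * s) * (1 + s) ^ 2) := by
    rw [ht0, hβ]; field_simp; ring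
  have e00 : (1 + s) * GI (p ^ 2) (s ^ 2) p s (s / (1 + s)) = P00 p s := by
    rw [GI, P00]; field_simp; ring
  have e10 : ((12 + 16 * p) * (1 + s)) * GI (1 / (12 + 16 * p)) (s ^ 2) p s (s / (1 + s)) = P10 p s := by
    rw [GI, P10]; field_simp; ring
  have e01 : ((3 - 2 * s) ^ 2 * (1 + s) ^ 2) * GI (p ^ 2) (1 / (3 - 2 * s)) p s
      (1 - 2 / (1 + s) + 2 / ((3 - 2 * s) * (1 + s) ^ 2)) = P01 p s := by
    rw [GI, P01]; field_simp; ring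
  have e11 : ((12 + 16 * p) * ((3 - 2 * s) ^ 2 * (1 + s) ^ 2)) *
      GI (1 / (12 + 16 * p)) (1 / (3 - 2 * s)) p s
      (1 - 2 / (1 + s) + 2 / ((3 - 2 * s) * (1 + s) ^ 2)) = P11 p s := by
    rw [GI, P11]; field_simp; ring
  have g00 : 0 ≤ GI (p ^ 2) (s ^ 2) p s (t0 + β * (1 - s ^ 2)) := by
    rw [tc]; exact nonneg_of_mul_nonneg_right (by rw [e00]; exact q00) s1
  have g10 : 0 ≤ GI (1 / (12 + 16 * p)) (s ^ 2) p s (t0 + β * (1 - s ^ 2)) := by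
    rw [tc]; exact nonneg_of_mul_nonneg_right (by rw [e10]; exact q10) (by positivity)
  have g01 : 0 ≤ GI (p ^ 2) (1 / (3 - 2 * s)) p s (t0 + β * (1 - 1 / (3 - 2 * s))) := by
    rw [td]; exact nonneg_of_mul_nonneg_right (by rw [e01]; exact q01) (by positivity)
  have g11 : 0 ≤ GI (1 / (12 + 16 * p)) (1 / (3 - 2 * s)) p s
      (t0 + β * (1 - 1 / (3 - 2 * s))) := by
    rw [td]; exact nonneg_of_mul_nonneg_right (by rw [e11]; exact q11) (by positivity)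
  have hps : 0 ≤ 3 - 2 * (p * s) := by nlinarith
  have hx2' : x ≤ 1 / (12 + 16 * p) := by rw [le_div_iff₀ p1]; exact hx2
  have hy2' : y ≤ 1 / (3 - 2 * s) := by rw [le_div_iff₀ s3]; exact hy2
  have main := corner hβ0 (sq_nonneg p) hx1 hx2' hy1 hy2' hps g00 g01 g10 g11
  have y1 : 0 < 1 - y := by linarith
  have TY : (s - y) / (1 - y) ≤ t0 + β * (1 - y) := by
    rw [div_le_iff₀ y1, ht0, hβ]
    have e : (1 - 2 / (1 + s) + 1 / ((1 - s) * (1 + s) ^ 2) * (1 - y)) * (1 - y) - (s - y) =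
        (1 - s) * (1 - (1 - y) / ((1 - s) * (1 + s))) ^ 2 := by
      field_simp; ring
    have : 0 ≤ (1 - s) * (1 - (1 - y) / ((1 - s) * (1 + s))) ^ 2 := by positivity
    linarith
  refine main.trans ?_
  have h1 : (1 - x * y * (3 - 2 * (p * s))) * (-(11 / 20) + 2 * ((s - y) / (1 - y))) ≤
      (1 - x * y * (3 - 2 * (p * s))) * (-(11 / 20) + 2 * (t0 + β * (1 - y))) :=
    mul_le_mul_of_nonneg_left (by linarith) hD0
  simp only [GI]
  linarith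

end Vale.Agent.Potts.Inv

namespace Vale.Agent.Potts

theorem pw_asmInv {k x y R1 R2 p s Z1 Z2 Z3 W1 W2 W3 E1 E2 E3 F1 F2 F3 : ℝ} (hk0 : 0 < k)
    (hx0 : 0 ≤ x) (hy0 : 0 ≤ y) (hy1 : y < 1) (hRp : R1 = x * p) (hSp : R2 = y * s)
    (hG' : 0 ≤ 1 - x * y * (3 - 2 * (p * s)) → 0 ≤ Inv.GI x y p s ((s - y) / (1 - y)))
    (P1 : 0 < Z1) (P2 : 0 < Z2) (P3 : 0 < Z3) (Q1 : 0 < W1) (Q2 : 0 < W2) (Q3 : 0 < W3)
    (I1 : E1 * Z2 * Z3 + E2 * Z1 * Z3 + E3 * Z1 * Z2 = 9 * NN x y R1 R2)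
    (I2 : F1 * W3 * W2 + F3 * W1 * W2 + F2 * W1 * W3 = 9 * NN x y R1 R2)
    (ID : Z1 * Z2 * Z3 + W1 * W2 * W3 = 2 * (1 - 3 * (x * y) + 2 * (R1 * R2)))
    (S1 : Z1 + Z2 + Z3 = 3) (S2 : W1 + W2 + W3 = 3) (N1 : 0 < NN x y R1 R2) :
    (k * (Z1 - E1 / (3 * Z1)) + k * (Z2 - E2 / (3 * Z2)) + k * (Z3 - E3 / (3 * Z3)) +
      (k * (W1 - F1 / (3 * W1)) + k * (W2 - F2 / (3 * W2)) + k * (W3 - F3 / (3 * W3)))) / 6 ≤
    k * (x + y + 11 / 20 * (x * y) - 2 * (x * ((R2 - y ^ 2) / (1 - y)))) := by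
  have J1 := three_quot P1 P2 P3 I1
  have J2 := three_quot Q1 Q3 Q2 I2
  set D0 := 1 - 3 * (x * y) + 2 * (R1 * R2) with hD0
  have hDp0 : 0 < Z1 * Z2 * Z3 := by positivity
  have hDm0 : 0 < W1 * W3 * W2 := by positivity
  have hDD : Z1 * Z2 * Z3 + W1 * W3 * W2 = 2 * D0 := by
    rw [← ID]; ring
  have hD00 : 0 < D0 := by linarith
  have hG := hG' (by
    have : 1 - x * y * (3 - 2 * (p * s)) = D0 := by rw [hD0, hRp, hSp]; ring
    rw [this]; exact hD00.le)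
  have y1 : 1 - y ≠ 0 := by linarith
  have hQ : x * y * Inv.GI x y p s ((s - y) / (1 - y)) =
      D0 * (x + y - 1 + 11 / 20 * (x * y) - 2 * (x * ((R2 - y ^ 2) / (1 - y)))) + NN x y R1 R2 := by
    have r2 : (R2 - y ^ 2) / (1 - y) = y * ((s - y) / (1 - y)) := by rw [hSp]; field_simp
    rw [r2]
    generalize (s - y) / (1 - y) = ty
    rw [hD0, hRp, hSp]; simp only [Inv.GI, NN]; ring
  have h1 : 0 ≤ x * y * Inv.GI x y p s ((s - y) / (1 - y)) :=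
    mul_nonneg (mul_nonneg hx0 hy0) hG
  rw [hQ] at h1
  clear hQ I1 I2 hG hG'
  generalize NN x y R1 R2 = N at *
  set A := x + y - 1 + 11 / 20 * (x * y) - 2 * (x * ((R2 - y ^ 2) / (1 - y))) with hA
  generalize Z1 * Z2 * Z3 = Dp at *
  generalize W1 * W3 * W2 = Dm at *
  have key : 2 * (N / D0) ≤ N / Dp + N / Dm := by
    have : N / Dp + N / Dm - 2 * (N / D0) = N * (Dp - Dm) ^ 2 / (2 * Dp * Dm * D0) := by
      have hh : D0 = (Dp + Dm) / 2 := by linarith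
      rw [hh]
      have : Dp + Dm ≠ 0 := by positivity
      field_simp
      ring
    have h2 : 0 ≤ N * (Dp - Dm) ^ 2 / (2 * Dp * Dm * D0) := by positivity
    linarith
  have main : 0 ≤ A + N / D0 := by
    have : A + N / D0 = (D0 * A + N) / D0 := by field_simp
    rw [this]
    exact div_nonneg h1 hD00.le
  have tot : (k * (Z1 - E1 / (3 * Z1)) + k * (Z2 - E2 / (3 * Z2)) + k * (Z3 - E3 / (3 * Z3)) +
      (k * (W1 - F1 / (3 * W1)) + k * (W2 - F2 / (3 * W2)) + k * (W3 - F3 / (3 * W3)))) / 6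
      = k * (1 - (N / Dp + N / Dm) / 2) := by
    have : (k * (Z1 - E1 / (3 * Z1)) + k * (Z2 - E2 / (3 * Z2)) + k * (Z3 - E3 / (3 * Z3)) +
      (k * (W1 - F1 / (3 * W1)) + k * (W2 - F2 / (3 * W2)) + k * (W3 - F3 / (3 * W3)))) / 6
      = k * (((Z1 + Z2 + Z3) + (W1 + W2 + W3) - (E1 / (3 * Z1) + E2 / (3 * Z2) + E3 / (3 * Z3))
        - (F1 / (3 * W1) + F3 / (3 * W3) + F2 / (3 * W2))) / 6) := by ring
    rw [this, J1, J2, S1, S2]
    ring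
  rw [tot]
  apply mul_le_mul_of_nonneg_left _ hk0.le
  linarith

/-- facts on the inverted triangle of size `1/2` -/
theorem inv_dom {x R p : ℝ} (hRp : R = x * p) (hp3 : p ^ 2 ≤ x) (hx : x ≤ 1 / 4)
    (hc : 0 ≤ (1:ℝ) / 8 - 3 / 2 * x - 2 * R) :
    -(1 / 2) ≤ p ∧ p ≤ 1 / 4 ∧ x * (12 + 16 * p) ≤ 1 := by
  have hp4 : p ^ 2 ≤ 1 / 4 := hp3.trans hx
  have hp5 : -(1 / 2) ≤ p := by nlinarith
  have hp6 : p ≤ 1 / 2 := by nlinarith
  have h1 : x * (12 + 16 * p) ≤ 1 := by rw [hRp] at hc; nlinarith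
  refine ⟨hp5, ?_, h1⟩
  by_contra hcon
  push Not at hcon
  have h2 : p ^ 2 * (12 + 16 * p) ≤ 1 :=
    (mul_le_mul_of_nonneg_right hp3 (by linarith)).trans h1
  have h3 : p ^ 2 * (12 + 16 * p) - 1 = (p + 1 / 2) ^ 2 * (16 * p - 4) := by ring
  have h4 : 0 < (p + 1 / 2) ^ 2 * (16 * p - 4) := by
    have : 0 < p + 1 / 2 := by linarith
    have : 0 < 16 * p - 4 := by linarith
    positivity
  linarith

theorem pwinv : PWinv (11 / 20) 2 := by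
  intro a b hap hai hbp
  have hpa : 0 < pp a := by
    unfold pp; linarith [hap 0, hap 1, hap 2]
  have hpb : 0 < pp b := by
    unfold pp; linarith [hbp 0, hbp 1, hbp 2]
  have ha : InT 1 a := ⟨hpa, fun i => by simpa using (hap i).le⟩
  have hb : InT 1 b := ⟨hpb, fun i => by simpa using (hbp i).le⟩
  obtain ⟨a0, a1, ha0, ha1, ha2, ea0, ea1, ea2, fa, ra⟩ := norm_V3 ha
  obtain ⟨b0, b1, hb0, hb1, hb2, eb0, eb1, eb2, fb, rb⟩ := norm_V3 hb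
  obtain ⟨hx0, -, -, -, p, hRp, -, -, hp3, -⟩ := dom (by norm_num) ha0 ha1 ha2
  obtain ⟨hy0, -, -, -, s, hSp, hs1, hs2, hs3, hs4⟩ := dom (by norm_num) hb0 hb1 hb2
  set k := pp a * pp b with hk
  have hk0 : 0 < k := mul_pos hpa hpb
  have pa0 : 0 < a0 := by
    have := hap 0; rw [ea0] at this; exact (mul_pos_iff_of_pos_left hpa).mp this
  have pa1 : 0 < a1 := by
    have := hap 1; rw [ea1] at this; exact (mul_pos_iff_of_pos_left hpa).mp this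
  have pa2 : 0 < 3 - a0 - a1 := by
    have := hap 2; rw [ea2] at this; exact (mul_pos_iff_of_pos_left hpa).mp this
  have qa0 : 0 ≤ 3 / 2 - a0 := by
    have := hai 0; rw [ea0, mul_comm (3 / 2) (pp a)] at this
    linarith [le_of_mul_le_mul_left this hpa]
  have qa1 : 0 ≤ 3 / 2 - a1 := by
    have := hai 1; rw [ea1, mul_comm (3 / 2) (pp a)] at this
    linarith [le_of_mul_le_mul_left this hpa]
  have qa2 : 0 ≤ 3 / 2 - (3 - a0 - a1) := by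
    have := hai 2; rw [ea2, mul_comm (3 / 2) (pp a)] at this
    linarith [le_of_mul_le_mul_left this hpa]
  have pb0 : 0 < b0 := by
    have := hbp 0; rw [eb0] at this; exact (mul_pos_iff_of_pos_left hpb).mp this
  have pb1 : 0 < b1 := by
    have := hbp 1; rw [eb1] at this; exact (mul_pos_iff_of_pos_left hpb).mp this
  have pb2 : 0 < 3 - b0 - b1 := by
    have := hbp 2; rw [eb2] at this; exact (mul_pos_iff_of_pos_left hpb).mp this
  have hxq : xx a0 a1 ≤ 1 / 4 := by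
    have : xx a0 a1 = 1 / 4 - ((3 / 2 - a0) * (3 / 2 - a1) + (3 / 2 - a1) * (3 / 2 - (3 - a0 - a1)) +
        (3 / 2 - a0) * (3 / 2 - (3 - a0 - a1))) / 3 := by simp only [xx]; ring
    rw [this]
    have := mul_nonneg qa0 qa1
    have := mul_nonneg qa1 qa2
    have := mul_nonneg qa0 qa2
    linarith
  have hcub : 0 ≤ (1:ℝ) / 8 - 3 / 2 * xx a0 a1 - 2 * rr a0 a1 := by
    have : (1:ℝ) / 8 - 3 / 2 * xx a0 a1 - 2 * rr a0 a1 =
        (3 / 2 - a0) * (3 / 2 - a1) * (3 / 2 - (3 - a0 - a1)) := by simp only [xx, rr]; ring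
    rw [this]
    exact mul_nonneg (mul_nonneg qa0 qa1) qa2
  obtain ⟨hp1, hp2, hp4⟩ := inv_dom hRp hp3 hxq hcub
  have hx1 : xx a0 a1 < 1 := by linarith
  have hy1 : xx b0 b1 < 1 := by
    have : xx b0 b1 = 1 - (b0 * b1 + b1 * (3 - b0 - b1) + b0 * (3 - b0 - b1)) / 3 := rfl
    rw [this]
    have : 0 < b0 * b1 + b1 * (3 - b0 - b1) + b0 * (3 - b0 - b1) := by positivity
    linarith
  have hs3' : s < 1 := by
    by_contra hc
    push Not at hc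
    nlinarith
  have hy4 : xx b0 b1 * (3 - 2 * s) ≤ 1 := by
    have h3 : 0 < 3 - 2 * s := by linarith
    rw [XL, le_div_iff₀ (by linarith)] at hs4
    linarith
  have fmb := fm_norm hpb eb0 eb1 eb2 fb hy1
  rw [sum_mul3]
  rw [Ff_prod (k := k) (a0 := a0) (a1 := a1) (a2 := 3 - a0 - a1) (b0 := b0) (b1 := b1)
      (b2 := 3 - b0 - b1) hk0 (zz_pos pa0 pa1 pa2 pb0 pb1 pb2) (a 0 * b 0) (a 1 * b 1) (a 2 * b 2)
      (by rw [ea0, eb0, hk]; ring) (by rw [ea1, eb1, hk]; ring) (by rw [ea2, eb2, hk]; ring),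
    Ff_prod (k := k) (a0 := a0) (a1 := a1) (a2 := 3 - a0 - a1) (b0 := b1) (b1 := 3 - b0 - b1)
      (b2 := b0) hk0 (zz_pos pa0 pa1 pa2 pb1 pb2 pb0) (a 0 * b 1) (a 1 * b 2) (a 2 * b 0)
      (by rw [ea0, eb1, hk]; ring) (by rw [ea1, eb2, hk]; ring) (by rw [ea2, eb0, hk]; ring),
    Ff_prod (k := k) (a0 := a0) (a1 := a1) (a2 := 3 - a0 - a1) (b0 := 3 - b0 - b1) (b1 := b0)
      (b2 := b1) hk0 (zz_pos pa0 pa1 pa2 pb2 pb0 pb1) (a 0 * b 2) (a 1 * b 0) (a 2 * b 1)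
      (by rw [ea0, eb2, hk]; ring) (by rw [ea1, eb0, hk]; ring) (by rw [ea2, eb1, hk]; ring),
    Ff_prod (k := k) (a0 := a0) (a1 := a1) (a2 := 3 - a0 - a1) (b0 := b1) (b1 := b0)
      (b2 := 3 - b0 - b1) hk0 (zz_pos pa0 pa1 pa2 pb1 pb0 pb2) (a 0 * b 1) (a 1 * b 0) (a 2 * b 2)
      (by rw [ea0, eb1, hk]; ring) (by rw [ea1, eb0, hk]; ring) (by rw [ea2, eb2, hk]; ring),
    Ff_prod (k := k) (a0 := a0) (a1 := a1) (a2 := 3 - a0 - a1) (b0 := 3 - b0 - b1) (b1 := b1)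
      (b2 := b0) hk0 (zz_pos pa0 pa1 pa2 pb2 pb1 pb0) (a 0 * b 2) (a 1 * b 1) (a 2 * b 0)
      (by rw [ea0, eb2, hk]; ring) (by rw [ea1, eb1, hk]; ring) (by rw [ea2, eb0, hk]; ring),
    Ff_prod (k := k) (a0 := a0) (a1 := a1) (a2 := 3 - a0 - a1) (b0 := b0) (b1 := 3 - b0 - b1)
      (b2 := b1) hk0 (zz_pos pa0 pa1 pa2 pb0 pb2 pb1) (a 0 * b 0) (a 1 * b 2) (a 2 * b 1)
      (by rw [ea0, eb0, hk]; ring) (by rw [ea1, eb2, hk]; ring) (by rw [ea2, eb1, hk]; ring)]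
  have P1 := zz_pos pa0 pa1 pa2 pb0 pb1 pb2
  have P2 := zz_pos pa0 pa1 pa2 pb1 pb2 pb0
  have P3 := zz_pos pa0 pa1 pa2 pb2 pb0 pb1
  have Q1 := zz_pos pa0 pa1 pa2 pb1 pb0 pb2
  have Q2 := zz_pos pa0 pa1 pa2 pb2 pb1 pb0
  have Q3 := zz_pos pa0 pa1 pa2 pb0 pb2 pb1
  have I1 := idN a0 a1 b0 b1
  have I2 := idN a0 a1 b1 b0
  have ID := idD a0 a1 b0 b1
  have xs : xx b1 b0 = xx b0 b1 := by simp only [xx]; ring
  have rs : rr b1 b0 = rr b0 b1 := by simp only [rr, xx]; ring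
  have e3 : 3 - b1 - b0 = 3 - b0 - b1 := by ring
  rw [xs, rs, e3] at I2
  have S1 : zz a0 a1 (3-a0-a1) b0 b1 (3-b0-b1) + zz a0 a1 (3-a0-a1) b1 (3-b0-b1) b0 +
      zz a0 a1 (3-a0-a1) (3-b0-b1) b0 b1 = 3 := by simp only [zz]; ring
  have S2 : zz a0 a1 (3-a0-a1) b1 b0 (3-b0-b1) + zz a0 a1 (3-a0-a1) (3-b0-b1) b1 b0 +
      zz a0 a1 (3-a0-a1) b0 (3-b0-b1) b1 = 3 := by simp only [zz]; ring
  have N1 : 0 < NN (xx a0 a1) (xx b0 b1) (rr a0 a1) (rr b0 b1) := by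
    have := ee_pos pa0 pa1 pa2 pb0 pb1 pb2
    have := ee_pos pa0 pa1 pa2 pb1 pb2 pb0
    have := ee_pos pa0 pa1 pa2 pb2 pb0 pb1
    have : 0 < 9 * NN (xx a0 a1) (xx b0 b1) (rr a0 a1) (rr b0 b1) := by
      rw [← I1]; positivity
    linarith
  have hG' : 0 ≤ 1 - xx a0 a1 * xx b0 b1 * (3 - 2 * (p * s)) →
      0 ≤ Inv.GI (xx a0 a1) (xx b0 b1) p s ((s - xx b0 b1) / (1 - xx b0 b1)) :=
    fun h => Inv.GI_nonneg hp1 hp2 (by linarith) hs3' hp3 hp4 hs3 hy4 hy1 h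
  rw [fmb, fa, fb]
  have fin := pw_asmInv hk0 hx0 hy0 hy1 hRp hSp hG' P1 P2 P3 Q1 Q2 Q3 I1 I2 ID S1 S2 N1
  refine fin.trans (le_of_eq ?_)
  rw [hk]
  generalize (rr b0 b1 - xx b0 b1 ^ 2) / (1 - xx b0 b1) = tb
  ring

end Vale.Agent.Potts
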