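import Vale.Agent.Potts.Pw
import Vale.Agent.Potts.CornerM
import Vale.Agent.Potts.All

namespace Vale.Agent.Potts

theorem fm_norm {v : V3} {a0 a1 : ℝ} (hp : 0 < pp v) (e0 : v 0 = pp v * a0) (e1 : v 1 = pp v * a1)
    (e2 : v 2 = pp v * (3 - a0 - a1)) (hF : Ff v = pp v * xx a0 a1) (hx : xx a0 a1 < 1) :
    fm v = pp v * ((rr a0 a1 - xx a0 a1 ^ 2) / (1 - xx a0 a1)) := by
  have h1 : 0 < 1 - xx a0 a1 := by linarith
  have hE : v 0 * v 1 + v 1 * v 2 + v 0 * v 2 = 3 * pp v ^ 2 * (1 - xx a0 a1) := by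
    rw [e0, e1, e2]; simp only [xx]; ring
  have hD : v 0 * v 1 * v 2 = pp v ^ 3 * (1 - 3 * xx a0 a1 + 2 * rr a0 a1) := by
    rw [e0, e1, e2]; simp only [rr, xx]; ring
  have hmm : mm v = pp v * ((1 - 3 * xx a0 a1 + 2 * rr a0 a1) / (1 - xx a0 a1)) := by
    rw [mm, hE, hD]
    have := hp.ne'
    have := h1.ne'
    field_simp
  rw [fm, hmm, hF]
  have := h1.ne'
  field_simp
  ring

theorem pw_asm2 {k x y R1 R2 p s Z1 Z2 Z3 W1 W2 W3 E1 E2 E3 F1 F2 F3 : ℝ} (hk0 : 0 < k)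
    (hx0 : 0 ≤ x) (hy0 : 0 ≤ y) (hx1 : x < 1) (hy1 : y < 1) (hRp : R1 = x * p) (hSp : R2 = y * s)
    (hG' : 0 ≤ 1 - x * y * (3 - 2 * (p * s)) → 0 ≤ GT x y p s ((p - x) / (1 - x)) ((s - y) / (1 - y)))
    (P1 : 0 < Z1) (P2 : 0 < Z2) (P3 : 0 < Z3) (Q1 : 0 < W1) (Q2 : 0 < W2) (Q3 : 0 < W3)
    (I1 : E1 * Z2 * Z3 + E2 * Z1 * Z3 + E3 * Z1 * Z2 = 9 * NN x y R1 R2)
    (I2 : F1 * W3 * W2 + F3 * W1 * W2 + F2 * W1 * W3 = 9 * NN x y R1 R2)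
    (ID : Z1 * Z2 * Z3 + W1 * W2 * W3 = 2 * (1 - 3 * (x * y) + 2 * (R1 * R2)))
    (S1 : Z1 + Z2 + Z3 = 3) (S2 : W1 + W2 + W3 = 3) (N1 : 0 < NN x y R1 R2) :
    (k * (Z1 - E1 / (3 * Z1)) + k * (Z2 - E2 / (3 * Z2)) + k * (Z3 - E3 / (3 * Z3)) +
      (k * (W1 - F1 / (3 * W1)) + k * (W2 - F2 / (3 * W2)) + k * (W3 - F3 / (3 * W3)))) / 6 ≤
    k * (x + y - 1 / 10 * (x * y) - x * ((R2 - y ^ 2) / (1 - y))
      - 3 / 2 * ((R1 - x ^ 2) / (1 - x) * (y - R2))) := by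
  have J1 := three_quot P1 P2 P3 I1
  have J2 := three_quot Q1 Q3 Q2 I2
  set D0 := 1 - 3 * (x * y) + 2 * (R1 * R2) with hD0
  have hDp0 : 0 < Z1 * Z2 * Z3 := by positivity
  have hDm0 : 0 < W1 * W3 * W2 := by positivity
  have hDD : Z1 * Z2 * Z3 + W1 * W3 * W2 = 2 * D0 := by
    rw [← ID]; ring
  have hD00 : 0 < D0 := by linarith
  have hG := hG' (by
    have : 1 - x * y * (3 - 2 * (p * s)) = D0 := by rw [hD0, hRp, hSp]; ring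
    rw [this]; exact hD00.le)
  have x1 : 1 - x ≠ 0 := by linarith
  have y1 : 1 - y ≠ 0 := by linarith
  have hQ : x * y * GT x y p s ((p - x) / (1 - x)) ((s - y) / (1 - y)) =
      D0 * (x + y - 1 - 1 / 10 * (x * y) - x * ((R2 - y ^ 2) / (1 - y))
      - 3 / 2 * ((R1 - x ^ 2) / (1 - x) * (y - R2))) + NN x y R1 R2 := by
    have r2 : (R2 - y ^ 2) / (1 - y) = y * ((s - y) / (1 - y)) := by rw [hSp]; field_simp
    have r1 : (R1 - x ^ 2) / (1 - x) = x * ((p - x) / (1 - x)) := by rw [hRp]; field_simp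
    rw [r1, r2]
    generalize (p - x) / (1 - x) = tx
    generalize (s - y) / (1 - y) = ty
    rw [hD0, hRp, hSp]; simp only [GT, NN]; ring
  have h1 : 0 ≤ x * y * GT x y p s ((p - x) / (1 - x)) ((s - y) / (1 - y)) :=
    mul_nonneg (mul_nonneg hx0 hy0) hG
  rw [hQ] at h1
  clear hQ I1 I2 hG hG'
  generalize NN x y R1 R2 = N at *
  set A := x + y - 1 - 1 / 10 * (x * y) - x * ((R2 - y ^ 2) / (1 - y))
      - 3 / 2 * ((R1 - x ^ 2) / (1 - x) * (y - R2)) with hA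
  generalize Z1 * Z2 * Z3 = Dp at *
  generalize W1 * W3 * W2 = Dm at *
  have key : 2 * (N / D0) ≤ N / Dp + N / Dm := by
    have : N / Dp + N / Dm - 2 * (N / D0) = N * (Dp - Dm) ^ 2 / (2 * Dp * Dm * D0) := by
      have hh : D0 = (Dp + Dm) / 2 := by linarith
      rw [hh]
      have : Dp + Dm ≠ 0 := by positivity
      field_simp
      ring
    have h2 : 0 ≤ N * (Dp - Dm) ^ 2 / (2 * Dp * Dm * D0) := by positivity
    linarith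
  have main : 0 ≤ A + N / D0 := by
    have : A + N / D0 = (D0 * A + N) / D0 := by field_simp
    rw [this]
    exact div_nonneg h1 hD00.le
  have tot : (k * (Z1 - E1 / (3 * Z1)) + k * (Z2 - E2 / (3 * Z2)) + k * (Z3 - E3 / (3 * Z3)) +
      (k * (W1 - F1 / (3 * W1)) + k * (W2 - F2 / (3 * W2)) + k * (W3 - F3 / (3 * W3)))) / 6
      = k * (1 - (N / Dp + N / Dm) / 2) := by
    have : (k * (Z1 - E1 / (3 * Z1)) + k * (Z2 - E2 / (3 * Z2)) + k * (Z3 - E3 / (3 * Z3)) +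
      (k * (W1 - F1 / (3 * W1)) + k * (W2 - F2 / (3 * W2)) + k * (W3 - F3 / (3 * W3)))) / 6
      = k * (((Z1 + Z2 + Z3) + (W1 + W2 + W3) - (E1 / (3 * Z1) + E2 / (3 * Z2) + E3 / (3 * Z3))
        - (F1 / (3 * W1) + F3 / (3 * W3) + F2 / (3 * W2))) / 6) := by ring
    rw [this, J1, J2, S1, S2]
    ring
  rw [tot]
  apply mul_le_mul_of_nonneg_left _ hk0.le
  linarith

theorem pwm : PWm (5/7) (1/10) 1 (3/2) := by
  intro a b ha hbp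
  have hpb : 0 < pp b := by
    unfold pp; linarith [hbp 0, hbp 1, hbp 2]
  have hb : InT 1 b := ⟨hpb, fun i => by simpa using (hbp i).le⟩
  obtain ⟨a0, a1, ha0, ha1, ha2, ea0, ea1, ea2, fa, ra⟩ := norm_V3 ha
  obtain ⟨b0, b1, hb0, hb1, hb2, eb0, eb1, eb2, fb, rb⟩ := norm_V3 hb
  obtain ⟨hx0, hxL, -, -, p, hRp, hp1, hp2, hp3, hp4⟩ := dom (by norm_num) ha0 ha1 ha2
  obtain ⟨hy0, -, -, -, s, hSp, hs1, hs2, hs3, hs4⟩ := dom (by norm_num) hb0 hb1 hb2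
  have hpa : 0 < pp a := ha.1
  set k := pp a * pp b with hk
  have hk0 : 0 < k := mul_pos hpa hpb
  have pa0 : 0 < a0 := by linarith
  have pa1 : 0 < a1 := by linarith
  have pa2 : 0 < 3 - a0 - a1 := by linarith
  have pb0 : 0 < b0 := by
    have := hbp 0; rw [eb0] at this; exact (mul_pos_iff_of_pos_left hpb).mp this
  have pb1 : 0 < b1 := by
    have := hbp 1; rw [eb1] at this; exact (mul_pos_iff_of_pos_left hpb).mp this
  have pb2 : 0 < 3 - b0 - b1 := by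
    have := hbp 2; rw [eb2] at this; exact (mul_pos_iff_of_pos_left hpb).mp this
  have hx1 : xx a0 a1 < 1 := by
    have : xx a0 a1 = 1 - (a0 * a1 + a1 * (3 - a0 - a1) + a0 * (3 - a0 - a1)) / 3 := rfl
    rw [this]
    have : 0 < a0 * a1 + a1 * (3 - a0 - a1) + a0 * (3 - a0 - a1) := by positivity
    linarith
  have hy1 : xx b0 b1 < 1 := by
    have : xx b0 b1 = 1 - (b0 * b1 + b1 * (3 - b0 - b1) + b0 * (3 - b0 - b1)) / 3 := rfl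
    rw [this]
    have : 0 < b0 * b1 + b1 * (3 - b0 - b1) + b0 * (3 - b0 - b1) := by positivity
    linarith
  have hs3' : s < 1 := by
    by_contra hc
    push Not at hc
    nlinarith
  have fma := fm_norm hpa ea0 ea1 ea2 fa hx1
  have fmb := fm_norm hpb eb0 eb1 eb2 fb hy1
  rw [sum_mul3]
  rw [Ff_prod (k := k) (a0 := a0) (a1 := a1) (a2 := 3 - a0 - a1) (b0 := b0) (b1 := b1)
      (b2 := 3 - b0 - b1) hk0 (zz_pos pa0 pa1 pa2 pb0 pb1 pb2) (a 0 * b 0) (a 1 * b 1) (a 2 * b 2)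
      (by rw [ea0, eb0, hk]; ring) (by rw [ea1, eb1, hk]; ring) (by rw [ea2, eb2, hk]; ring),
    Ff_prod (k := k) (a0 := a0) (a1 := a1) (a2 := 3 - a0 - a1) (b0 := b1) (b1 := 3 - b0 - b1)
      (b2 := b0) hk0 (zz_pos pa0 pa1 pa2 pb1 pb2 pb0) (a 0 * b 1) (a 1 * b 2) (a 2 * b 0)
      (by rw [ea0, eb1, hk]; ring) (by rw [ea1, eb2, hk]; ring) (by rw [ea2, eb0, hk]; ring),
    Ff_prod (k := k) (a0 := a0) (a1 := a1) (a2 := 3 - a0 - a1) (b0 := 3 - b0 - b1) (b1 := b0)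
      (b2 := b1) hk0 (zz_pos pa0 pa1 pa2 pb2 pb0 pb1) (a 0 * b 2) (a 1 * b 0) (a 2 * b 1)
      (by rw [ea0, eb2, hk]; ring) (by rw [ea1, eb0, hk]; ring) (by rw [ea2, eb1, hk]; ring),
    Ff_prod (k := k) (a0 := a0) (a1 := a1) (a2 := 3 - a0 - a1) (b0 := b1) (b1 := b0)
      (b2 := 3 - b0 - b1) hk0 (zz_pos pa0 pa1 pa2 pb1 pb0 pb2) (a 0 * b 1) (a 1 * b 0) (a 2 * b 2)
      (by rw [ea0, eb1, hk]; ring) (by rw [ea1, eb0, hk]; ring) (by rw [ea2, eb2, hk]; ring),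
    Ff_prod (k := k) (a0 := a0) (a1 := a1) (a2 := 3 - a0 - a1) (b0 := 3 - b0 - b1) (b1 := b1)
      (b2 := b0) hk0 (zz_pos pa0 pa1 pa2 pb2 pb1 pb0) (a 0 * b 2) (a 1 * b 1) (a 2 * b 0)
      (by rw [ea0, eb2, hk]; ring) (by rw [ea1, eb1, hk]; ring) (by rw [ea2, eb0, hk]; ring),
    Ff_prod (k := k) (a0 := a0) (a1 := a1) (a2 := 3 - a0 - a1) (b0 := b0) (b1 := 3 - b0 - b1)
      (b2 := b1) hk0 (zz_pos pa0 pa1 pa2 pb0 pb2 pb1) (a 0 * b 0) (a 1 * b 2) (a 2 * b 1)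
      (by rw [ea0, eb0, hk]; ring) (by rw [ea1, eb2, hk]; ring) (by rw [ea2, eb1, hk]; ring)]
  have P1 := zz_pos pa0 pa1 pa2 pb0 pb1 pb2
  have P2 := zz_pos pa0 pa1 pa2 pb1 pb2 pb0
  have P3 := zz_pos pa0 pa1 pa2 pb2 pb0 pb1
  have Q1 := zz_pos pa0 pa1 pa2 pb1 pb0 pb2
  have Q2 := zz_pos pa0 pa1 pa2 pb2 pb1 pb0
  have Q3 := zz_pos pa0 pa1 pa2 pb0 pb2 pb1
  have I1 := idN a0 a1 b0 b1
  have I2 := idN a0 a1 b1 b0
  have ID := idD a0 a1 b0 b1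
  have xs : xx b1 b0 = xx b0 b1 := by simp only [xx]; ring
  have rs : rr b1 b0 = rr b0 b1 := by simp only [rr, xx]; ring
  have e3 : 3 - b1 - b0 = 3 - b0 - b1 := by ring
  rw [xs, rs, e3] at I2
  have S1 : zz a0 a1 (3-a0-a1) b0 b1 (3-b0-b1) + zz a0 a1 (3-a0-a1) b1 (3-b0-b1) b0 +
      zz a0 a1 (3-a0-a1) (3-b0-b1) b0 b1 = 3 := by simp only [zz]; ring
  have S2 : zz a0 a1 (3-a0-a1) b1 b0 (3-b0-b1) + zz a0 a1 (3-a0-a1) (3-b0-b1) b1 b0 +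
      zz a0 a1 (3-a0-a1) b0 (3-b0-b1) b1 = 3 := by simp only [zz]; ring
  have N1 : 0 < NN (xx a0 a1) (xx b0 b1) (rr a0 a1) (rr b0 b1) := by
    have := ee_pos pa0 pa1 pa2 pb0 pb1 pb2
    have := ee_pos pa0 pa1 pa2 pb1 pb2 pb0
    have := ee_pos pa0 pa1 pa2 pb2 pb0 pb1
    have : 0 < 9 * NN (xx a0 a1) (xx b0 b1) (rr a0 a1) (rr b0 b1) := by
      rw [← I1]; positivity
    linarith
  have hG' : 0 ≤ 1 - xx a0 a1 * xx b0 b1 * (3 - 2 * (p * s)) →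
      0 ≤ GT (xx a0 a1) (xx b0 b1) p s ((p - xx a0 a1) / (1 - xx a0 a1))
        ((s - xx b0 b1) / (1 - xx b0 b1)) :=
    fun h => GM_nonneg hp1 hp2 hs1 hs3' hp3 hp4 hs3 hs4 hx1 hy1 h
  rw [fma, fmb, fa, fb, rb]
  have fin := pw_asm2 hk0 hx0 hy0 hx1 hy1 hRp hSp hG' P1 P2 P3 Q1 Q2 Q3 I1 I2 ID S1 S2 N1
  refine fin.trans (le_of_eq ?_)
  rw [hk]
  generalize (rr a0 a1 - xx a0 a1 ^ 2) / (1 - xx a0 a1) = ta
  generalize (rr b0 b1 - xx b0 b1 ^ 2) / (1 - xx b0 b1) = tb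
  ring

end Vale.Agent.Potts
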