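import Vale.Agent.Potts.PwM
import Vale.Agent.Potts.CornerW

/-! # P154: the main inequality for arbitrary positive vectors -/

namespace Vale.Agent.Potts

/-- the main inequality for two arbitrary positive vectors -/
theorem pwm_pos (a b : V3) (hap : Pos a) (hbp : Pos b) :
    (∑ π : Equiv.Perm (Fin 3), Ff (mul a b π)) / 6 ≤
      Ff a * pp b + pp a * Ff b - 1/10 * (Ff a * Ff b) - 1 * (Ff a * fm b)
        - 3/2 * (fm a * (Ff b - Rr b)) := by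
  have hpa' : 0 < pp a := by
    unfold pp; linarith [hap 0, hap 1, hap 2]
  have ha : InT 1 a := ⟨hpa', fun i => by simpa using (hap i).le⟩
  have hpb : 0 < pp b := by
    unfold pp; linarith [hbp 0, hbp 1, hbp 2]
  have hb : InT 1 b := ⟨hpb, fun i => by simpa using (hbp i).le⟩
  obtain ⟨a0, a1, ha0, ha1, ha2, ea0, ea1, ea2, fa, ra⟩ := norm_V3 ha
  obtain ⟨b0, b1, hb0, hb1, hb2, eb0, eb1, eb2, fb, rb⟩ := norm_V3 hb
  obtain ⟨hx0, hxL, -, -, p, hRp, hp1, hp2, hp3, hp4⟩ := dom (by norm_num) ha0 ha1 ha2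
  obtain ⟨hy0, -, -, -, s, hSp, hs1, hs2, hs3, hs4⟩ := dom (by norm_num) hb0 hb1 hb2
  have hpa : 0 < pp a := ha.1
  set k := pp a * pp b with hk
  have hk0 : 0 < k := mul_pos hpa hpb
  have pa0 : 0 < a0 := by
    have := hap 0; rw [ea0] at this; exact (mul_pos_iff_of_pos_left hpa).mp this
  have pa1 : 0 < a1 := by
    have := hap 1; rw [ea1] at this; exact (mul_pos_iff_of_pos_left hpa).mp this
  have pa2 : 0 < 3 - a0 - a1 := by
    have := hap 2; rw [ea2] at this; exact (mul_pos_iff_of_pos_left hpa).mp this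
  have pb0 : 0 < b0 := by
    have := hbp 0; rw [eb0] at this; exact (mul_pos_iff_of_pos_left hpb).mp this
  have pb1 : 0 < b1 := by
    have := hbp 1; rw [eb1] at this; exact (mul_pos_iff_of_pos_left hpb).mp this
  have pb2 : 0 < 3 - b0 - b1 := by
    have := hbp 2; rw [eb2] at this; exact (mul_pos_iff_of_pos_left hpb).mp this
  have hx1 : xx a0 a1 < 1 := by
    have : xx a0 a1 = 1 - (a0 * a1 + a1 * (3 - a0 - a1) + a0 * (3 - a0 - a1)) / 3 := rfl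
    rw [this]
    have : 0 < a0 * a1 + a1 * (3 - a0 - a1) + a0 * (3 - a0 - a1) := by positivity
    linarith
  have hy1 : xx b0 b1 < 1 := by
    have : xx b0 b1 = 1 - (b0 * b1 + b1 * (3 - b0 - b1) + b0 * (3 - b0 - b1)) / 3 := rfl
    rw [this]
    have : 0 < b0 * b1 + b1 * (3 - b0 - b1) + b0 * (3 - b0 - b1) := by positivity
    linarith
  have hs3' : s < 1 := by
    by_contra hc
    push Not at hc
    nlinarith
  have hp3' : p < 1 := by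
    by_contra hc
    push Not at hc
    nlinarith
  have fma := fm_norm hpa ea0 ea1 ea2 fa hx1
  have fmb := fm_norm hpb eb0 eb1 eb2 fb hy1
  rw [sum_mul3]
  rw [Ff_prod (k := k) (a0 := a0) (a1 := a1) (a2 := 3 - a0 - a1) (b0 := b0) (b1 := b1)
      (b2 := 3 - b0 - b1) hk0 (zz_pos pa0 pa1 pa2 pb0 pb1 pb2) (a 0 * b 0) (a 1 * b 1) (a 2 * b 2)
      (by rw [ea0, eb0, hk]; ring) (by rw [ea1, eb1, hk]; ring) (by rw [ea2, eb2, hk]; ring),
    Ff_prod (k := k) (a0 := a0) (a1 := a1) (a2 := 3 - a0 - a1) (b0 := b1) (b1 := 3 - b0 - b1)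
      (b2 := b0) hk0 (zz_pos pa0 pa1 pa2 pb1 pb2 pb0) (a 0 * b 1) (a 1 * b 2) (a 2 * b 0)
      (by rw [ea0, eb1, hk]; ring) (by rw [ea1, eb2, hk]; ring) (by rw [ea2, eb0, hk]; ring),
    Ff_prod (k := k) (a0 := a0) (a1 := a1) (a2 := 3 - a0 - a1) (b0 := 3 - b0 - b1) (b1 := b0)
      (b2 := b1) hk0 (zz_pos pa0 pa1 pa2 pb2 pb0 pb1) (a 0 * b 2) (a 1 * b 0) (a 2 * b 1)
      (by rw [ea0, eb2, hk]; ring) (by rw [ea1, eb0, hk]; ring) (by rw [ea2, eb1, hk]; ring),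
    Ff_prod (k := k) (a0 := a0) (a1 := a1) (a2 := 3 - a0 - a1) (b0 := b1) (b1 := b0)
      (b2 := 3 - b0 - b1) hk0 (zz_pos pa0 pa1 pa2 pb1 pb0 pb2) (a 0 * b 1) (a 1 * b 0) (a 2 * b 2)
      (by rw [ea0, eb1, hk]; ring) (by rw [ea1, eb0, hk]; ring) (by rw [ea2, eb2, hk]; ring),
    Ff_prod (k := k) (a0 := a0) (a1 := a1) (a2 := 3 - a0 - a1) (b0 := 3 - b0 - b1) (b1 := b1)
      (b2 := b0) hk0 (zz_pos pa0 pa1 pa2 pb2 pb1 pb0) (a 0 * b 2) (a 1 * b 1) (a 2 * b 0)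
      (by rw [ea0, eb2, hk]; ring) (by rw [ea1, eb1, hk]; ring) (by rw [ea2, eb0, hk]; ring),
    Ff_prod (k := k) (a0 := a0) (a1 := a1) (a2 := 3 - a0 - a1) (b0 := b0) (b1 := 3 - b0 - b1)
      (b2 := b1) hk0 (zz_pos pa0 pa1 pa2 pb0 pb2 pb1) (a 0 * b 0) (a 1 * b 2) (a 2 * b 1)
      (by rw [ea0, eb0, hk]; ring) (by rw [ea1, eb2, hk]; ring) (by rw [ea2, eb1, hk]; ring)]
  have P1 := zz_pos pa0 pa1 pa2 pb0 pb1 pb2
  have P2 := zz_pos pa0 pa1 pa2 pb1 pb2 pb0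
  have P3 := zz_pos pa0 pa1 pa2 pb2 pb0 pb1
  have Q1 := zz_pos pa0 pa1 pa2 pb1 pb0 pb2
  have Q2 := zz_pos pa0 pa1 pa2 pb2 pb1 pb0
  have Q3 := zz_pos pa0 pa1 pa2 pb0 pb2 pb1
  have I1 := idN a0 a1 b0 b1
  have I2 := idN a0 a1 b1 b0
  have ID := idD a0 a1 b0 b1
  have xs : xx b1 b0 = xx b0 b1 := by simp only [xx]; ring
  have rs : rr b1 b0 = rr b0 b1 := by simp only [rr, xx]; ring
  have e3 : 3 - b1 - b0 = 3 - b0 - b1 := by ring
  rw [xs, rs, e3] at I2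
  have S1 : zz a0 a1 (3-a0-a1) b0 b1 (3-b0-b1) + zz a0 a1 (3-a0-a1) b1 (3-b0-b1) b0 +
      zz a0 a1 (3-a0-a1) (3-b0-b1) b0 b1 = 3 := by simp only [zz]; ring
  have S2 : zz a0 a1 (3-a0-a1) b1 b0 (3-b0-b1) + zz a0 a1 (3-a0-a1) (3-b0-b1) b1 b0 +
      zz a0 a1 (3-a0-a1) b0 (3-b0-b1) b1 = 3 := by simp only [zz]; ring
  have N1 : 0 < NN (xx a0 a1) (xx b0 b1) (rr a0 a1) (rr b0 b1) := by
    have := ee_pos pa0 pa1 pa2 pb0 pb1 pb2
    have := ee_pos pa0 pa1 pa2 pb1 pb2 pb0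
    have := ee_pos pa0 pa1 pa2 pb2 pb0 pb1
    have : 0 < 9 * NN (xx a0 a1) (xx b0 b1) (rr a0 a1) (rr b0 b1) := by
      rw [← I1]; positivity
    linarith
  have hG' : 0 ≤ 1 - xx a0 a1 * xx b0 b1 * (3 - 2 * (p * s)) →
      0 ≤ GT (xx a0 a1) (xx b0 b1) p s ((p - xx a0 a1) / (1 - xx a0 a1))
        ((s - xx b0 b1) / (1 - xx b0 b1)) :=
    fun h => GW_nonneg hp1 hp3' hs1 hs3' hp3 hp4 hs3 hs4 hx1 hy1 h
  rw [fma, fmb, fa, fb, rb]
  have fin := pw_asm2 hk0 hx0 hy0 hx1 hy1 hRp hSp hG' P1 P2 P3 Q1 Q2 Q3 I1 I2 ID S1 S2 N1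
  refine fin.trans (le_of_eq ?_)
  rw [hk]
  generalize (rr a0 a1 - xx a0 a1 ^ 2) / (1 - xx a0 a1) = ta
  generalize (rr b0 b1 - xx b0 b1 ^ 2) / (1 - xx b0 b1) = tb
  ring

/-- the main inequality for messages of every channel with `lam < 1` -/
theorem pwm_lt {L : ℝ} (hL : L < 1) : PWm L (1/10) 1 (3/2) := by
  intro a b ha hb
  refine pwm_pos a b (fun i => ?_) hb
  have h1 := ha.1
  have h2 := ha.2 i
  have : 0 < (1 - L) * pp a := mul_pos (by linarith) h1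
  linarith

end Vale.Agent.Potts
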